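import Vale.Agent.P032.Defs
import Vale.Agent.P371.Brouwer

/-! Task D0: a covering lemma for the plane (see docs/P032.md, F7). -/

namespace Vale.Agent.P032

open Set

theorem cont_sep {X : Type} [TopologicalSpace X] [T2Space X] {K A1 A2 : Set X} (hK : IsCompact K)
    (h1 : IsClosed A1) (h2 : IsClosed A2)
    (h : ∀ Γ ⊆ K, IsPreconnected Γ → ∀ x ∈ Γ, x ∈ A1 → ∀ y ∈ Γ, y ∈ A2 → False) :
    ∃ K1 K2 : Set X, IsClosed K1 ∧ IsClosed K2 ∧ Disjoint K1 K2 ∧ K1 ∪ K2 = K ∧ K ∩ A1 ⊆ K1 ∧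
      K ∩ A2 ⊆ K2 := by
  have : CompactSpace K := isCompact_iff_compactSpace.1 hK
  have hv : Continuous ((↑) : K → X) := continuous_subtype_val
  have hA2 : IsCompact (((↑) : K → X) ⁻¹' A2) := (h2.preimage hv).isCompact
  have hA1 : IsCompact (((↑) : K → X) ⁻¹' A1) := (h1.preimage hv).isCompact
  have key : ∀ x : (((↑) : K → X) ⁻¹' A1 : Set K), ∃ V : Set K, IsClopen V ∧ x.1 ∈ V ∧
      ∀ y ∈ V, y.1 ∉ A2 := by
    intro x
    obtain ⟨u, hu⟩ := hA2.elim_finite_subfamily_closed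
      (fun s : {s : Set K // IsClopen s ∧ x.1 ∈ s} => s.1) (fun s => s.2.1.1) (by
        rw [← connectedComponent_eq_iInter_isClopen]
        refine disjoint_iff_inter_eq_empty.1 (disjoint_left.2 fun y hy hy' => ?_)
        exact h ((↑) '' connectedComponent x.1) (Subtype.coe_image_subset _ _)
          (isPreconnected_connectedComponent.image _ hv.continuousOn) _
          (mem_image_of_mem _ mem_connectedComponent) x.2 _ (mem_image_of_mem _ hy') hy)
    refine ⟨⋂ s ∈ u, s.1, isClopen_biInter_finset fun s _ => s.2.1,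
      mem_iInter₂.2 fun s _ => s.2.2, fun y hy hy' =>
        disjoint_left.1 (disjoint_iff_inter_eq_empty.2 hu) hy' hy⟩
  choose V hV1 hV2 hV3 using key
  obtain ⟨u, hu⟩ := hA1.elim_finite_subcover V (fun x => (hV1 x).2)
    fun x hx => mem_iUnion.2 ⟨⟨x, hx⟩, hV2 _⟩
  have hW : IsClopen (⋃ x ∈ u, V x) := isClopen_biUnion_finset fun x _ => hV1 x
  refine ⟨(↑) '' (⋃ x ∈ u, V x), (↑) '' (⋃ x ∈ u, V x)ᶜ,
    (hW.1.isCompact.image hv).isClosed, (hW.compl.1.isCompact.image hv).isClosed,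
    (disjoint_image_iff Subtype.val_injective).2 disjoint_compl_right, ?_, ?_, ?_⟩
  · rw [← image_union, union_compl_self, Subtype.coe_image_univ]
  · rintro x ⟨hx, hx1⟩
    exact ⟨⟨x, hx⟩, hu hx1, rfl⟩
  · rintro x ⟨hx, hx2⟩
    refine ⟨⟨x, hx⟩, fun hh => ?_, rfl⟩
    obtain ⟨y, -, hy⟩ := mem_iUnion₂.1 hh
    exact hV3 y _ hy hx2

theorem cont_miranda (f g : ℂ → ℝ) (hf : Continuous f) (hg : Continuous g)
    (hf1 : ∀ z, f z ∈ Icc (0 : ℝ) 1) (hg1 : ∀ z, g z ∈ Icc (0 : ℝ) 1)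
    (hL : ∀ z : ℂ, z.re = 0 → z.im ∈ Icc (0 : ℝ) 2 → f z = 0)
    (hR : ∀ z : ℂ, z.re = 2 → z.im ∈ Icc (0 : ℝ) 2 → f z = 1)
    (hB : ∀ z : ℂ, z.im = 0 → z.re ∈ Icc (0 : ℝ) 2 → g z = 0)
    (hT : ∀ z : ℂ, z.im = 2 → z.re ∈ Icc (0 : ℝ) 2 → g z = 1) :
    ∃ z : ℂ, z.re ∈ Icc (0 : ℝ) 2 ∧ z.im ∈ Icc (0 : ℝ) 2 ∧ f z = 1 / 2 ∧ g z = 1 / 2 := by
  set c : ℝ → ℝ := fun t => max 0 (min t 2) with hc
  have hcc : Continuous c := continuous_const.max (continuous_id.min continuous_const)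
  have hc1 : ∀ t, c t ∈ Icc (0 : ℝ) 2 := fun t =>
    ⟨le_max_left _ _, max_le (by norm_num) (min_le_right _ _)⟩
  set pr : ℝ × ℝ → ℂ := fun z => (c z.1 : ℂ) + (c z.2 : ℂ) * Complex.I with hpr
  have hprc : Continuous pr := by rw [hpr]; fun_prop
  have hre : ∀ z, (pr z).re = c z.1 := fun z => by simp [hpr]
  have him : ∀ z, (pr z).im = c z.2 := fun z => by simp [hpr]
  obtain ⟨z, hz⟩ := Vale.Agent.P371.brouwer_bounded
    (f := fun z : ℝ × ℝ => (c z.1 - (f (pr z) - 1 / 2), c z.2 - (g (pr z) - 1 / 2)))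
    (by fun_prop) (C := 3) fun z => by
      rw [Prod.norm_mk, max_le_iff, Real.norm_eq_abs, Real.norm_eq_abs, abs_le, abs_le]
      have := hc1 z.1; have := hc1 z.2; have := hf1 (pr z); have := hg1 (pr z)
      simp only [mem_Icc] at *
      refine ⟨⟨?_, ?_⟩, ?_, ?_⟩ <;> linarith
  have e1 : c z.1 - (f (pr z) - 1 / 2) = z.1 := congrArg Prod.fst hz
  have e2 : c z.2 - (g (pr z) - 1 / 2) = z.2 := congrArg Prod.snd hz
  have aux : ∀ t v : ℝ, c t - (v - 1 / 2) = t → (c t = 0 → v = 0) → (c t = 2 → v = 1) →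
      v = 1 / 2 := by
    intro t v e h0 h2
    rcases lt_or_ge t 0 with h | h
    · have : c t = 0 := by simp only [hc]; exact max_eq_left ((min_le_left _ _).trans h.le)
      have := h0 this; linarith
    · rcases lt_or_ge 2 t with h' | h'
      · have : c t = 2 := by simp only [hc]; rw [min_eq_right h'.le]; norm_num
        have := h2 this; linarith
      · have : c t = t := by simp only [hc]; rw [min_eq_left h', max_eq_right h]
        linarith
  refine ⟨pr z, hre z ▸ hc1 _, him z ▸ hc1 _, aux _ _ e1 (fun h => hL _ ((hre z).trans h) ?_)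
    (fun h => hR _ ((hre z).trans h) ?_), aux _ _ e2 (fun h => hB _ ((him z).trans h) ?_)
    (fun h => hT _ ((him z).trans h) ?_)⟩
  · exact him z ▸ hc1 _
  · exact him z ▸ hc1 _
  · exact hre z ▸ hc1 _
  · exact hre z ▸ hc1 _

/-- If the components of an open set are small, its complement contains a large continuum. -/
theorem cont_big (P : Set ℂ) (hP : IsOpen P)
    (hd : ∀ Γ : Set ℂ, IsPreconnected Γ → Γ ⊆ P → ∀ p ∈ Γ, ∀ q ∈ Γ, ‖p - q‖ ≤ 1) :
    ∃ Γ : Set ℂ, IsCompact Γ ∧ IsPreconnected Γ ∧ Γ ⊆ Pᶜ ∧ ∃ p ∈ Γ, ∃ q ∈ Γ, 1 < ‖p - q‖ := by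
  set S : Set ℂ := Icc (0 : ℝ) 2 ×ℂ Icc (0 : ℝ) 2 with hS
  have hSc : IsCompact S := isCompact_Icc.reProdIm isCompact_Icc
  have hre : ∀ t : ℝ, IsClosed {z : ℂ | z.re = t} := fun t =>
    isClosed_eq Complex.continuous_re continuous_const
  have him : ∀ t : ℝ, IsClosed {z : ℂ | z.im = t} := fun t =>
    isClosed_eq Complex.continuous_im continuous_const
  have hK : IsCompact (S ∩ Pᶜ) := hSc.inter_right hP.isClosed_compl
  by_contra hcon
  obtain ⟨B1, B2, hB1, hB2, hdis, hun, hA1, hA2⟩ := cont_sep hK (hre 0) (hre 2) (by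
    intro Γ hΓ hc x hx hx0 y hy hy2
    have hcl : closure Γ ⊆ S ∩ Pᶜ := closure_minimal hΓ hK.isClosed
    refine hcon ⟨closure Γ, hK.of_isClosed_subset isClosed_closure hcl, hc.closure,
      hcl.trans inter_subset_right, y, subset_closure hy, x, subset_closure hx, ?_⟩
    have := Complex.re_le_norm (y - x)
    simp only [mem_ofPred_eq] at hx0 hy2
    rw [Complex.sub_re, hx0, hy2] at this
    linarith)
  have hB1s : B1 ⊆ S ∩ Pᶜ := hun ▸ subset_union_left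
  have hB2s : B2 ⊆ S ∩ Pᶜ := hun ▸ subset_union_right
  obtain ⟨f, hf0, hf1, hf⟩ := exists_continuous_zero_one_of_isClosed
    ((hre 0).union hB1) ((hre 2).union hB2) (by
      refine disjoint_left.2 ?_
      rintro z (h | h) (h' | h')
      · simp only [mem_ofPred_eq] at h h'; linarith
      · exact disjoint_left.1 hdis (hA1 ⟨hB2s h', h⟩) h'
      · exact disjoint_left.1 hdis h (hA2 ⟨hB1s h, h'⟩)
      · exact disjoint_left.1 hdis h h')
  set Z : Set ℂ := S ∩ {z | f z = 1 / 2} with hZ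
  have hZc : IsClosed Z := hSc.isClosed.inter (isClosed_eq f.continuous continuous_const)
  have hZP : Z ⊆ P := by
    rintro z ⟨hz, hz'⟩
    by_contra hn
    simp only [mem_ofPred_eq] at hz'
    rcases (hun.symm ▸ ⟨hz, hn⟩ : z ∈ B1 ∪ B2) with h | h
    · have := hf0 (Or.inr h); simp only [Pi.zero_apply] at this; linarith
    · have := hf1 (Or.inr h); simp only [Pi.one_apply] at this; linarith
  set U1 : Set ℂ := {z | z ∈ P ∧ ∃ y ∈ connectedComponentIn P z, y.im = 0} with hU1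
  set U2 : Set ℂ := {z | z ∈ P ∧ ¬ ∃ y ∈ connectedComponentIn P z, y.im = 0} with hU2
  have hopen : ∀ q : Set ℂ → Prop, IsOpen {z | z ∈ P ∧ q (connectedComponentIn P z)} := by
    intro q
    refine isOpen_iff_mem_nhds.2 fun z hz => Filter.mem_of_superset
      (hP.connectedComponentIn.mem_nhds (mem_connectedComponentIn hz.1)) fun y hy => ?_
    exact ⟨connectedComponentIn_subset _ _ hy, connectedComponentIn_eq hy ▸ hz.2⟩
  have hU1o : IsOpen U1 := hopen fun C => ∃ y ∈ C, y.im = 0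
  have hU2o : IsOpen U2 := hopen fun C => ¬ ∃ y ∈ C, y.im = 0
  obtain ⟨g, hg0, hg1, hg⟩ := exists_continuous_zero_one_of_isClosed
    ((him 0).union (hZc.sdiff hU2o)) ((him 2).union (hZc.sdiff hU1o)) (by
      refine disjoint_left.2 ?_
      rintro z (h | h) (h' | h')
      · simp only [mem_ofPred_eq] at h h'; linarith
      · exact h'.2 ⟨hZP h'.1, z, mem_connectedComponentIn (hZP h'.1), h⟩
      · refine h.2 ⟨hZP h.1, ?_⟩
        rintro ⟨y, hy, hy0⟩
        have h1 := hd _ isPreconnected_connectedComponentIn (connectedComponentIn_subset _ _) z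
          (mem_connectedComponentIn (hZP h.1)) y hy
        have := Complex.im_le_norm (z - y)
        simp only [mem_ofPred_eq] at h'
        rw [Complex.sub_im, hy0, h'] at this
        linarith
      · exact h.2 ⟨hZP h.1, fun hh => h'.2 ⟨hZP h.1, hh⟩⟩)
  obtain ⟨z, hz1, hz2, hz3, hz4⟩ := cont_miranda f g f.continuous g.continuous hf hg
    (fun z h _ => hf0 (Or.inl h)) (fun z h _ => hf1 (Or.inl h))
    (fun z h _ => hg0 (Or.inl h)) (fun z h _ => hg1 (Or.inl h))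
  have hzZ : z ∈ Z := ⟨⟨hz1, hz2⟩, hz3⟩
  by_cases h : z ∈ U1
  · have := hg0 (Or.inr ⟨hzZ, fun h' => h'.2 h.2⟩); simp only [Pi.zero_apply] at this; linarith
  · have := hg1 (Or.inr ⟨hzZ, h⟩); simp only [Pi.one_apply] at this; linarith

/-- Boundary bumping. -/
theorem cont_bump {X : Type} [TopologicalSpace X] [T2Space X] [CompactSpace X]
    [PreconnectedSpace X] {F : Set X} (hF : IsClosed F) (hne : F ≠ univ) {p : X}
    (hp : p ∈ interior F) : ∃ O ∈ connectedComponentIn F p, O ∉ interior F := by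
  by_contra hcon
  push Not at hcon
  obtain ⟨K1, K2, h1, h2, hdis, hun, hA1, hA2⟩ := cont_sep hF.isCompact
    (isClosed_singleton (x := p)) (isOpen_interior (s := F)).isClosed_compl (by
      intro Γ hΓ hc x hx hxp y hy hy2
      rw [mem_singleton_iff] at hxp
      subst hxp
      exact hy2 (hcon y (hc.subset_connectedComponentIn hx hΓ hy)))
  have hK1 : K1 ⊆ F := hun ▸ subset_union_left
  have e : K1 = interior F \ K2 := by
    ext x
    constructor
    · intro hx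
      have h3 : x ∉ K2 := disjoint_left.1 hdis hx
      exact ⟨by_contra fun hn => h3 (hA2 ⟨hK1 hx, hn⟩), h3⟩
    · rintro ⟨hx, hx2⟩
      exact (hun.symm ▸ interior_subset hx : x ∈ K1 ∪ K2).resolve_right hx2
  have hcl : IsClopen K1 := ⟨h1, e ▸ isOpen_interior.sdiff h2⟩
  have := hcl.eq_univ ⟨p, hA1 ⟨interior_subset hp, rfl⟩⟩
  exact hne (eq_univ_of_univ_subset (this ▸ hK1))

/-- If finitely many closed sets cover the plane and their connected subsets have diameter at most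
one, then a nondegenerate connected set lies in two of them and meets a third. -/
theorem exists_continuum (G : Fin 5 → Set ℂ) (hcl : ∀ i, IsClosed (G i)) (hcov : ∀ x, ∃ i, x ∈ G i)
    (hd : ∀ i (Γ : Set ℂ), IsPreconnected Γ → Γ ⊆ G i → ∀ p ∈ Γ, ∀ q ∈ Γ, ‖p - q‖ ≤ 1) :
    ∃ (a b c : Fin 5) (O q : ℂ) (Γ : Set ℂ), a ≠ b ∧ a ≠ c ∧ b ≠ c ∧ IsPreconnected Γ ∧ O ∈ Γ ∧
      q ∈ Γ ∧ q ≠ O ∧ Γ ⊆ G a ∧ Γ ⊆ G b ∧ O ∈ G c := by
  set P : Fin 5 → Set ℂ := fun i => ⋂ j ∈ ({i}ᶜ : Set (Fin 5)), (G j)ᶜ with hP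
  have hPo : ∀ i, IsOpen (P i) := fun i =>
    (toFinite _).isOpen_biInter fun j _ => (hcl j).isOpen_compl
  have hPm : ∀ i z, z ∈ P i ↔ ∀ j, j ≠ i → z ∉ G j := fun i z => by simp [hP]
  have hPG : ∀ i, P i ⊆ G i := by
    intro i z hz
    obtain ⟨j, hj⟩ := hcov z
    by_cases e : j = i
    · exact e ▸ hj
    · exact absurd hj ((hPm i z).1 hz j e)
  obtain ⟨Γ0, hc, hpre, hsub, p1, hp1, p2, hp2, hbig⟩ := cont_big (⋃ i, P i) (isOpen_iUnion hPo)
    (by
      intro Γ hΓ hs p hp q hq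
      obtain ⟨i, hi⟩ := mem_iUnion.1 (hs hp)
      have : Γ ⊆ P i := hΓ.subset_left_of_subset_union (v := ⋃ j ∈ ({i}ᶜ : Set (Fin 5)), P j)
        (hPo i) (isOpen_biUnion fun j _ => hPo j)
        (disjoint_left.2 fun z hz hz' => by
          obtain ⟨j, hj, hzj⟩ := mem_iUnion₂.1 hz'
          exact (hPm i z).1 hz j hj (hPG j hzj))
        (fun z hz => by
          obtain ⟨j, hj⟩ := mem_iUnion.1 (hs hz)
          by_cases e : j = i
          · exact Or.inl (e ▸ hj)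
          · exact Or.inr (mem_iUnion₂.2 ⟨j, e, hj⟩)) ⟨p, hp, hi⟩
      exact hd i Γ hΓ (this.trans (hPG i)) p hp q hq)
  have htwo : ∀ z ∈ Γ0, ∀ i, ∃ j, j ≠ i ∧ z ∈ G j := by
    intro z hz i
    by_contra hn
    push Not at hn
    exact hsub hz (mem_iUnion.2 ⟨i, (hPm i z).2 hn⟩)
  have : CompactSpace Γ0 := isCompact_iff_compactSpace.1 hc
  have : PreconnectedSpace Γ0 := isPreconnected_iff_preconnectedSpace.1 hpre
  have : Nonempty Γ0 := ⟨⟨p1, hp1⟩⟩
  have hv : Continuous ((↑) : Γ0 → ℂ) := continuous_subtype_val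
  obtain ⟨⟨⟨a, b⟩, hab⟩, p, hp⟩ := nonempty_interior_of_iUnion_of_closed
    (f := fun ab : {ab : Fin 5 × Fin 5 // ab.1 ≠ ab.2} =>
      ((↑) : Γ0 → ℂ) ⁻¹' (G ab.1.1 ∩ G ab.1.2))
    (fun ab => ((hcl _).inter (hcl _)).preimage hv) (eq_univ_of_forall fun z => by
      obtain ⟨i, hi⟩ := hcov z
      obtain ⟨j, hj, hzj⟩ := htwo z z.2 i
      exact mem_iUnion.2 ⟨⟨(j, i), hj⟩, hzj, hi⟩)
  simp only at hab hp
  obtain ⟨O, hO, hOn⟩ := cont_bump (((hcl a).inter (hcl b)).preimage hv) (fun h => by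
    have : Γ0 ⊆ G a := fun z hz =>
      (h.symm ▸ mem_univ (⟨z, hz⟩ : Γ0) : (⟨z, hz⟩ : Γ0) ∈ ((↑) : Γ0 → ℂ) ⁻¹' (G a ∩ G b)).1
    exact absurd (hd a Γ0 hpre this p1 hp1 p2 hp2) (not_le.2 hbig)) hp
  have hthird : ∃ c, c ≠ a ∧ c ≠ b ∧ O.1 ∈ G c := by
    by_contra hn
    push Not at hn
    have hW : IsOpen (⋂ c ∈ {c : Fin 5 | c ≠ a ∧ c ≠ b}, (G c)ᶜ) :=
      (toFinite _).isOpen_biInter fun j _ => (hcl j).isOpen_compl
    refine hOn (mem_interior.2 ⟨_, ?_, hW.preimage hv, mem_iInter₂.2 fun c hc => hn c hc.1 hc.2⟩)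
    intro z hz
    have hz' := mem_iInter₂.1 hz
    obtain ⟨j, hj, hzj⟩ := htwo z z.2 a
    obtain ⟨k, hk, hzk⟩ := htwo z z.2 b
    have e1 : j = b := by_contra fun e => hz' j ⟨hj, e⟩ hzj
    have e2 : k = a := by_contra fun e => hz' k ⟨e, hk⟩ hzk
    exact ⟨e2 ▸ hzk, e1 ▸ hzj⟩
  obtain ⟨c, hca, hcb, hOc⟩ := hthird
  refine ⟨a, b, c, O, p, (↑) '' connectedComponentIn (((↑) : Γ0 → ℂ) ⁻¹' (G a ∩ G b)) p, hab,
    hca.symm, hcb.symm, isPreconnected_connectedComponentIn.image _ hv.continuousOn,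
    mem_image_of_mem _ hO, mem_image_of_mem _ (mem_connectedComponentIn (interior_subset hp)),
    fun e => hOn (Subtype.val_injective e ▸ hp), ?_, ?_, hOc⟩
  · rintro _ ⟨z, hz, rfl⟩; exact (connectedComponentIn_subset _ _ hz).1
  · rintro _ ⟨z, hz, rfl⟩; exact (connectedComponentIn_subset _ _ hz).2

end Vale.Agent.P032
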