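import Vale.Agent.P032.Defs

/-! Part D, basic lemmas. -/

namespace Vale.Agent.P032

open Filter Topology Real Set

theorem ex_re (t : ℝ) : (ex t).re = cos t := Complex.exp_ofReal_mul_I_re t
theorem ex_im (t : ℝ) : (ex t).im = sin t := Complex.exp_ofReal_mul_I_im t
theorem norm_ex (t : ℝ) : ‖ex t‖ = 1 := Complex.norm_exp_ofReal_mul_I t

theorem continuous_ex : Continuous ex := by
  unfold ex
  fun_prop

theorem ex_add (s t : ℝ) : ex (s + t) = ex s * ex t := by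
  unfold ex
  rw [← Complex.exp_add]
  push_cast
  ring_nf

theorem ex_add_pi (t : ℝ) : ex (t + π) = -ex t := by
  apply Complex.ext <;> simp [ex_re, ex_im]

theorem ex_sub_pi (t : ℝ) : ex (t - π) = -ex t := by
  apply Complex.ext <;> simp [ex_re, ex_im]

theorem ex_add_two_pi (t : ℝ) : ex (t + 2 * π) = ex t := by
  apply Complex.ext <;> simp [ex_re, ex_im]

theorem ex_hex (t : ℝ) : ex (t - π / 3) + ex (t + π / 3) = ex t := by
  apply Complex.ext
  · simp only [Complex.add_re, ex_re, cos_sub, cos_add, cos_pi_div_three]; ring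
  · simp only [Complex.add_im, ex_im, sin_sub, sin_add, cos_pi_div_three]; ring

theorem exists_ex {z : ℂ} (h : ‖z‖ = 1) : ∃ t, z = ex t :=
  ⟨z.arg, by
    have := Complex.norm_mul_exp_arg_mul_I z
    rw [h] at this
    simpa [ex] using this.symm⟩

theorem nsq2 (a b s t : ℝ) :
    ‖(a : ℂ) * ex s + (b : ℂ) * ex t‖ ^ 2 = a ^ 2 + b ^ 2 + 2 * a * b * cos (s - t) := by
  rw [Complex.sq_norm, Complex.normSq_apply]
  simp only [Complex.add_re, Complex.add_im, Complex.re_ofReal_mul, Complex.im_ofReal_mul, ex_re,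
    ex_im, cos_sub]
  linear_combination a ^ 2 * sin_sq_add_cos_sq s + b ^ 2 * sin_sq_add_cos_sq t

theorem nsq3 (a b c s t u : ℝ) :
    ‖(a : ℂ) * ex s + (b : ℂ) * ex t + (c : ℂ) * ex u‖ ^ 2 = a ^ 2 + b ^ 2 + c ^ 2 +
      2 * a * b * cos (s - t) + 2 * a * c * cos (s - u) + 2 * b * c * cos (t - u) := by
  rw [Complex.sq_norm, Complex.normSq_apply]
  simp only [Complex.add_re, Complex.add_im, Complex.re_ofReal_mul, Complex.im_ofReal_mul, ex_re,
    ex_im, cos_sub]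
  linear_combination a ^ 2 * sin_sq_add_cos_sq s + b ^ 2 * sin_sq_add_cos_sq t +
    c ^ 2 * sin_sq_add_cos_sq u

theorem lt_one_of_sq {z : ℂ} (h : ‖z‖ ^ 2 < 1) : ‖z‖ < 1 := by
  nlinarith [norm_nonneg z]

theorem one_lt_of_sq {z : ℂ} (h : 1 < ‖z‖ ^ 2) : 1 < ‖z‖ := by
  nlinarith [norm_nonneg z]

theorem nsq_ray (p : ℂ) (s ψ t : ℝ) :
    ‖p + s * ex ψ - (p + ex t)‖ ^ 2 = 1 + s ^ 2 - 2 * s * cos (t - ψ) := by
  have : p + s * ex ψ - (p + ex t) = (s : ℂ) * ex ψ + ((-1 : ℝ) : ℂ) * ex t := by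
    push_cast; ring
  rw [this, nsq2, ← cos_neg, neg_sub]
  ring

theorem nsq_chord (p : ℂ) (s t : ℝ) : ‖p + ex s - (p + ex t)‖ ^ 2 = 2 - 2 * cos (t - s) := by
  have := nsq_ray p 1 s t
  simp only [Complex.ofReal_one, one_mul] at this
  rw [this]; ring

theorem norm_chord (p : ℂ) (s : ℝ) : ‖p + ex s - (p + ex (s + π / 3))‖ = 1 := by
  have := nsq_chord p s (s + π / 3)
  rw [add_sub_cancel_left, cos_pi_div_three] at this
  nlinarith [norm_nonneg (p + ex s - (p + ex (s + π / 3)))]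

theorem norm_rad (p : ℂ) (s : ℝ) : ‖p - (p + ex s)‖ = 1 := by
  rw [sub_add_cancel_left, norm_neg, norm_ex]

/-- five closed sets that cover the plane, each the closure of its pure points, with no unit
distance between a point of the set and a pure point -/
structure Cfg where
  G : Fin 5 → Set ℂ
  closed : ∀ i, IsClosed (G i)
  cover : ∀ x, ∃ i, x ∈ G i
  dense : ∀ i, ∀ x ∈ G i, x ∈ closure {y | ∀ k, y ∈ G k → k = i}
  unit : ∀ i x y, x ∈ G i → (∀ k, y ∈ G k → k = i) → ‖x - y‖ ≠ 1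

namespace Cfg

variable (C : Cfg)

def Pure (x : ℂ) (i : Fin 5) : Prop := ∀ k, x ∈ C.G k → k = i

def Sub2 (x : ℂ) (i j : Fin 5) : Prop := ∀ k, x ∈ C.G k → k = i ∨ k = j

def In (O : ℂ) (i : Fin 5) (t : ℝ) : Prop := ∀ᶠ s in 𝓝 t, O + ex s ∈ C.G i

variable {C}

theorem usc (x : ℂ) : ∀ᶠ y in 𝓝 x, ∀ k, y ∈ C.G k → x ∈ C.G k := by
  rw [eventually_all]
  intro k
  by_cases h : x ∈ C.G k
  · exact Eventually.of_forall fun _ _ => h
  · exact Filter.Eventually.mono ((C.closed k).isOpen_compl.mem_nhds h) fun y hy h' => absurd h' hy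

theorem Pure.mem {x : ℂ} {i : Fin 5} (h : C.Pure x i) : x ∈ C.G i := by
  obtain ⟨k, hk⟩ := C.cover x
  exact h k hk ▸ hk

theorem Pure.eventually {x : ℂ} {i : Fin 5} (h : C.Pure x i) : ∀ᶠ y in 𝓝 x, C.Pure y i :=
  (usc x).mono fun _ hy k hk => h k (hy k hk)

theorem Sub2.eventually {x : ℂ} {i j : Fin 5} (h : C.Sub2 x i j) : ∀ᶠ y in 𝓝 x, C.Sub2 y i j :=
  (usc x).mono fun _ hy k hk => h k (hy k hk)

theorem Sub2.symm {x : ℂ} {i j : Fin 5} (h : C.Sub2 x i j) : C.Sub2 x j i :=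
  fun k hk => (h k hk).symm

theorem Sub2.pure {x : ℂ} {i j : Fin 5} (h : C.Sub2 x i j) (hj : x ∉ C.G j) : C.Pure x i :=
  fun k hk => (h k hk).resolve_right fun e => hj (e ▸ hk)

theorem isOpen_pure (i : Fin 5) : IsOpen {x | C.Pure x i} :=
  isOpen_iff_mem_nhds.2 fun _ hx => Pure.eventually hx

theorem notMem_eventually {x : ℂ} {i : Fin 5} (h : x ∉ C.G i) : ∀ᶠ y in 𝓝 x, y ∉ C.G i :=
  (C.closed i).isOpen_compl.mem_nhds h

theorem exists_pure {x : ℂ} {i : Fin 5} (h : x ∈ C.G i) {p : ℂ → Prop} (hp : ∀ᶠ y in 𝓝 x, p y) :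
    ∃ y, C.Pure y i ∧ p y := by
  obtain ⟨y, hy, hy'⟩ := mem_closure_iff_nhds.1 (C.dense i x h) _ hp
  exact ⟨y, hy', hy⟩

theorem not_pure_of_unit {x y : ℂ} {i : Fin 5} (h : x ∈ C.G i) (hxy : ‖x - y‖ = 1) :
    ¬ C.Pure y i := fun hy => C.unit i x y h hy hxy

theorem Pure.notMem {x y : ℂ} {i : Fin 5} (h : C.Pure y i) (hxy : ‖x - y‖ = 1) : x ∉ C.G i :=
  fun hx => C.unit i x y hx h hxy

theorem Pure.circle {O : ℂ} {i : Fin 5} (h : C.Pure O i) (t : ℝ) : O + ex t ∉ C.G i :=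
  h.notMem (by rw [add_sub_cancel_left, norm_ex])

theorem not_pure_circle {O : ℂ} {i : Fin 5} (h : O ∈ C.G i) (t : ℝ) : ¬ C.Pure (O + ex t) i :=
  not_pure_of_unit h (norm_rad O t)

/-- a connected subset of `G i` sweeps the colour `i` out of its lune -/
theorem sweep {Γ : Set ℂ} {i : Fin 5} (hΓ : IsPreconnected Γ) (hG : Γ ⊆ C.G i) {p q w : ℂ}
    (hp : p ∈ Γ) (hq : q ∈ Γ) (h1 : ‖w - p‖ < 1) (h2 : 1 < ‖w - q‖) : w ∉ C.G i := by
  intro hw
  have e1 : ∀ᶠ y in 𝓝 w, ‖y - p‖ < 1 :=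
    (by fun_prop : ContinuousAt (fun y : ℂ => ‖y - p‖) w).eventually_lt continuousAt_const h1
  have e2 : ∀ᶠ y in 𝓝 w, 1 < ‖y - q‖ :=
    continuousAt_const.eventually_lt (by fun_prop : ContinuousAt (fun y : ℂ => ‖y - q‖) w) h2
  obtain ⟨y, hy, h1', h2'⟩ := exists_pure hw (e1.and e2)
  obtain ⟨z, hz, hz'⟩ := hΓ.intermediate_value hp hq
    (by fun_prop : Continuous (fun z : ℂ => ‖y - z‖)).continuousOn ⟨h1'.le, h2'.le⟩
  exact hy.notMem (by rw [norm_sub_rev]; exact hz') (hG hz)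

theorem diam_le {Γ : Set ℂ} {i : Fin 5} (hΓ : IsPreconnected Γ) (hG : Γ ⊆ C.G i) {p q : ℂ}
    (hp : p ∈ Γ) (hq : q ∈ Γ) : ‖p - q‖ ≤ 1 := by
  by_contra h
  exact sweep hΓ hG hp hq (by simp) (not_le.1 h) (hG hp)

theorem exists_mixed {Γ : Set ℂ} {a : Fin 5} (hΓ : IsPreconnected Γ) {u v : ℂ} (hu : u ∈ Γ)
    (hv : v ∈ Γ) (h1 : C.Pure u a) (h2 : ¬ C.Pure v a) : ∃ z ∈ Γ, z ∈ C.G a ∧ ¬ C.Pure z a := by
  by_contra h
  push Not at h
  have : Γ ⊆ {x | C.Pure x a} := by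
    refine hΓ.subset_left_of_subset_union (isOpen_pure a) (C.closed a).isOpen_compl ?_ ?_
      ⟨u, hu, h1⟩
    · exact Set.disjoint_left.2 fun x hx hx' => hx' (Pure.mem hx)
    · intro x hx
      by_cases hx' : x ∈ C.G a
      · exact Or.inl (h x hx hx')
      · exact Or.inr hx'
  exact h2 (this hv)

theorem preconn_arc (p : ℂ) (s t : ℝ) : IsPreconnected ((fun x => p + ex x) '' uIcc s t) :=
  isPreconnected_uIcc.image _ (continuous_const.add continuous_ex).continuousOn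

theorem sweep_arc {p w : ℂ} {i : Fin 5} {s t : ℝ} (h : ∀ x ∈ uIcc s t, p + ex x ∈ C.G i)
    (h1 : ‖w - (p + ex s)‖ < 1) (h2 : 1 < ‖w - (p + ex t)‖) : w ∉ C.G i :=
  sweep (preconn_arc p s t) (by rintro _ ⟨x, hx, rfl⟩; exact h x hx) ⟨s, left_mem_uIcc, rfl⟩
    ⟨t, right_mem_uIcc, rfl⟩ h1 h2

/-- lune of an arc, seen from the centre -/
theorem lune {p : ℂ} {i : Fin 5} {t₁ t₂ s ψ : ℝ} (h : ∀ x ∈ uIcc t₁ t₂, p + ex x ∈ C.G i)
    (h1 : s ^ 2 < 2 * s * cos (t₁ - ψ)) (h2 : 2 * s * cos (t₂ - ψ) < s ^ 2) :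
    p + s * ex ψ ∉ C.G i :=
  sweep_arc h (lt_one_of_sq (by rw [nsq_ray]; linarith)) (one_lt_of_sq (by rw [nsq_ray]; linarith))

theorem In.exists {O : ℂ} {i : Fin 5} {t : ℝ} (h : C.In O i t) :
    ∃ ε > 0, ∀ s, |s - t| < ε → O + ex s ∈ C.G i := by
  obtain ⟨ε, hε, h'⟩ := Metric.eventually_nhds_iff.1 h
  exact ⟨ε, hε, fun s hs => h' hs⟩

theorem In.mem {O : ℂ} {i : Fin 5} {t : ℝ} (h : C.In O i t) : O + ex t ∈ C.G i :=
  h.self_of_nhds

theorem In.eventually {O : ℂ} {i : Fin 5} {t : ℝ} (h : C.In O i t) : ∀ᶠ s in 𝓝 t, C.In O i s :=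
  h.eventually_nhds

theorem in_of_Icc {O : ℂ} {i : Fin 5} {α β t : ℝ} (h : ∀ s ∈ Icc α β, O + ex s ∈ C.G i)
    (ht : t ∈ Ioo α β) : C.In O i t :=
  Filter.Eventually.mono (Icc_mem_nhds ht.1 ht.2) h

/-- a point at unit distance from an inner point of an arc, off the radial line -/
theorem In.sw {O : ℂ} {i : Fin 5} {t s : ℝ} (h : C.In O i t) (hs : sin (t - s) ≠ 0) :
    O + ex t + ex s ∉ C.G i := by
  obtain ⟨ε, hε, h⟩ := h.exists
  have key : ∀ u : ℝ, ‖O + ex t + ex s - (O + ex (t + 2 * u))‖ ^ 2 =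
      1 + 4 * sin u * (sin u + sin (t - s + u)) := by
    intro u
    have : O + ex t + ex s - (O + ex (t + 2 * u)) =
        ((1 : ℝ) : ℂ) * ex t + ((1 : ℝ) : ℂ) * ex s + ((-1 : ℝ) : ℂ) * ex (t + 2 * u) := by
      push_cast; ring
    rw [this, nsq3]
    have e1 : t - (t + 2 * u) = -(2 * u) := by ring
    have e2 : s - (t + 2 * u) = -((t - s + u) + u) := by ring
    have e3 : cos (t - s) = cos ((t - s + u) - u) := by ring_nf
    rw [e1, e2, e3, cos_neg, cos_neg, cos_two_mul, cos_add (t - s + u), cos_sub (t - s + u)]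
    linear_combination (-4) * sin_sq_add_cos_sq u
  have c1 : ContinuousAt (fun u : ℝ => (sin u + sin (t - s + u)) * sin (t - s)) 0 := by fun_prop
  have e1 : ∀ᶠ u in 𝓝 (0 : ℝ), 0 < (sin u + sin (t - s + u)) * sin (t - s) :=
    continuousAt_const.eventually_lt c1 (by simpa using hs)
  obtain ⟨δ, hδ, e1⟩ := Metric.eventually_nhds_iff.1 e1
  obtain ⟨u, hu0, hu1, hu2, hu3⟩ : ∃ u : ℝ, 0 < u ∧ u < δ ∧ u < ε / 2 ∧ u < 1 :=
    ⟨min (min δ (ε / 2)) 1 / 2, by positivity,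
      by linarith [min_le_left (min δ (ε / 2)) 1, min_le_left δ (ε / 2),
        lt_min (lt_min hδ (half_pos hε)) one_pos],
      by linarith [min_le_left (min δ (ε / 2)) 1, min_le_right δ (ε / 2),
        lt_min (lt_min hδ (half_pos hε)) one_pos],
      by linarith [min_le_right (min δ (ε / 2)) 1]⟩
  have hsin : 0 < sin u := sin_pos_of_pos_of_lt_pi hu0 (by linarith [pi_gt_three])
  have a1 := e1 (y := u) (by simpa [abs_of_pos hu0] using hu1)
  have a2 := e1 (y := -u) (by simpa [abs_of_pos hu0] using hu1)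
  have k1 := key u
  have k2 := key (-u)
  rw [sin_neg] at k2 a2
  have hI : ∀ x ∈ uIcc (t + 2 * u) (t + 2 * -u), O + ex x ∈ C.G i := by
    intro x hx
    rw [uIcc_of_ge (by linarith)] at hx
    exact h x (abs_lt.2 ⟨by linarith [hx.1], by linarith [hx.2]⟩)
  rcases lt_or_gt_of_ne hs with hs | hs
  · have b1 := neg_of_mul_pos_left a1 hs.le
    have b2 := neg_of_mul_pos_left a2 hs.le
    exact sweep_arc hI (lt_one_of_sq (by rw [k1]; nlinarith)) (one_lt_of_sq (by rw [k2]; nlinarith))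
  · have b1 := pos_of_mul_pos_left a1 hs.le
    have b2 := pos_of_mul_pos_left a2 hs.le
    rw [uIcc_comm] at hI
    exact sweep_arc hI (lt_one_of_sq (by rw [k2]; nlinarith)) (one_lt_of_sq (by rw [k1]; nlinarith))

theorem sin_two_pi_div_three_pos : 0 < sin (2 * π / 3) :=
  sin_pos_of_pos_of_lt_pi (by linarith [pi_pos]) (by linarith [pi_pos])

theorem In.add {O : ℂ} {i : Fin 5} {t : ℝ} (h : C.In O i t) : O + ex (t + π / 3) ∉ C.G i := by
  have := h.sw (s := t + 2 * π / 3) (by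
    rw [show t - (t + 2 * π / 3) = -(2 * π / 3) by ring, sin_neg]
    exact neg_ne_zero.2 sin_two_pi_div_three_pos.ne')
  have e := ex_hex (t + π / 3)
  rw [show t + π / 3 - π / 3 = t by ring, show t + π / 3 + π / 3 = t + 2 * π / 3 by ring] at e
  rwa [add_assoc, e] at this

theorem In.sub {O : ℂ} {i : Fin 5} {t : ℝ} (h : C.In O i t) : O + ex (t - π / 3) ∉ C.G i := by
  have := h.sw (s := t - 2 * π / 3) (by
    rw [show t - (t - 2 * π / 3) = 2 * π / 3 by ring]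
    exact sin_two_pi_div_three_pos.ne')
  have e := ex_hex (t - π / 3)
  rw [show t - π / 3 - π / 3 = t - 2 * π / 3 by ring, show t - π / 3 + π / 3 = t by ring,
    add_comm] at e
  rwa [add_assoc, e] at this

theorem arc_le {O : ℂ} {i : Fin 5} {α β : ℝ} (h : ∀ s ∈ Icc α β, O + ex s ∈ C.G i) :
    β ≤ α + π / 3 := by
  by_contra h'
  push Not at h'
  have hp := pi_pos
  exact (in_of_Icc h (t := (α + β - π / 3) / 2) ⟨by linarith, by linarith⟩).add
    (h _ ⟨by linarith, by linarith⟩)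

end Cfg

end Vale.Agent.P032
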