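import Vale.Agent.P032.D1

/-! Part D: two-colour rigidity, no continuum in three sets, generic points. -/

namespace Vale.Agent.P032

open Filter Topology Real Set

theorem exists_small {p : ℝ → Prop} (h : ∀ᶠ u in 𝓝 (0 : ℝ), p u) : ∃ u, 0 < u ∧ p u := by
  obtain ⟨u, hu, hu'⟩ := ((h.filter_mono (nhdsWithin_le_nhds (s := Ioi 0))).and
    self_mem_nhdsWithin).exists
  exact ⟨u, hu', hu⟩

theorem half_le_cos {x : ℝ} (h : |x| ≤ π / 3) : 1 / 2 ≤ cos x := by
  rw [← cos_abs, ← cos_pi_div_three]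
  exact cos_le_cos_of_nonneg_of_le_pi (abs_nonneg _) (by linarith [pi_pos]) h

theorem polar (z : ℂ) : ∃ ψ : ℝ, z = (‖z‖ : ℝ) * ex ψ :=
  ⟨z.arg, (Complex.norm_mul_exp_arg_mul_I z).symm⟩

theorem ex_ne {t η : ℝ} (h0 : 0 < η) (h1 : η < 2 * π) : ex (t + η) ≠ ex t := by
  intro h
  have := nsq_chord 0 t (t + η)
  rw [h, add_sub_cancel_left] at this
  have h2 : cos η = 1 := by simp at this; linarith
  rw [cos_eq_one_iff_of_lt_of_lt (by linarith) h1] at h2
  exact h0.ne' h2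

/-- extension of an interval inside a closed set -/
theorem ext_Icc {S : Set ℝ} (hS : IsClosed S) {α β t : ℝ} (ht : t ∈ Ioo α β) (h0 : S ∈ 𝓝 t)
    (h : ∀ s ∈ Ioo α β, s ≠ t → uIcc t s ⊆ S → S ∈ 𝓝 s) : Icc α β ⊆ S := by
  have key : Ioo α β ⊆ {s | uIcc t s ⊆ S ∧ S ∈ 𝓝 s} := by
    have hopen : IsOpen {s | uIcc t s ⊆ S ∧ S ∈ 𝓝 s} := by
      refine isOpen_iff_mem_nhds.2 fun s hs => ?_
      obtain ⟨ε, hε, hb⟩ := Metric.mem_nhds_iff.1 hs.2
      filter_upwards [Metric.ball_mem_nhds s hε] with s' hs'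
      refine ⟨uIcc_subset_uIcc_union_uIcc (b := s) |>.trans (union_subset hs.1 ?_),
        mem_of_superset (Metric.isOpen_ball.mem_nhds hs') hb⟩
      exact ((convex_ball s ε).ordConnected.uIcc_subset (Metric.mem_ball_self hε) hs').trans hb
    refine isPreconnected_Ioo.subset_of_closure_inter_subset hopen
      ⟨t, ht, by simpa using mem_of_mem_nhds h0, h0⟩ ?_
    rintro s ⟨hs, hs'⟩
    have hsub : uIcc t s ⊆ S := by
      intro x hx
      by_cases hxs : x = s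
      · subst hxs
        exact hS.closure_subset (closure_mono (fun y hy => mem_of_mem_nhds hy.2) hs)
      · obtain ⟨y, hy, hy'⟩ := Metric.mem_closure_iff.1 hs |x - s| (abs_pos.2 (sub_ne_zero.2 hxs))
        refine hy.1 ?_
        rw [Real.dist_eq] at hy'
        rw [mem_uIcc] at hx ⊢
        rcases abs_cases (x - s) with h1 | h1 <;> rcases abs_cases (s - y) with h2 | h2 <;>
          rcases hx with hx | hx <;> rcases le_total t y with h3 | h3 <;>
          first | (left; constructor <;> linarith [hx.1, hx.2]) |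
            (right; constructor <;> linarith [hx.1, hx.2])
    by_cases hst : s = t
    · exact ⟨hsub, hst ▸ h0⟩
    · exact ⟨hsub, h s hs' hst hsub⟩
  have hαβ : α ≠ β := (ht.1.trans ht.2).ne
  rw [← closure_Ioo hαβ]
  exact hS.closure_subset_iff.2 fun s hs => mem_of_mem_nhds (key hs).2

theorem two_others {a b c : Fin 5} (h1 : a ≠ b) (h2 : a ≠ c) (h3 : b ≠ c) :
    ∃ d e : Fin 5, d ≠ e ∧ d ≠ a ∧ d ≠ b ∧ d ≠ c ∧ e ≠ a ∧ e ≠ b ∧ e ≠ c ∧
      ∀ k, k = a ∨ k = b ∨ k = c ∨ k = d ∨ k = e := by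
  revert a b c
  decide

theorem fifth {a b c d : Fin 5} (h1 : a ≠ b) (h2 : a ≠ c) (h3 : a ≠ d) (h4 : b ≠ c) (h5 : b ≠ d)
    (h6 : c ≠ d) : ∃ e : Fin 5, e ≠ a ∧ e ≠ b ∧ e ≠ c ∧ e ≠ d ∧
      ∀ k, k = a ∨ k = b ∨ k = c ∨ k = d ∨ k = e := by
  obtain ⟨x, y, h, h1', h2', h3', h4', h5', h6', hall⟩ := two_others h1 h2 h4
  rcases hall d with rfl | rfl | rfl | rfl | rfl
  · exact absurd rfl h3
  · exact absurd rfl h5
  · exact absurd rfl h6
  · exact ⟨y, h4', h5', h6', h.symm, hall⟩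
  · exact ⟨x, h1', h2', h3', h, fun k => by have := hall k; tauto⟩

namespace Cfg

variable {C : Cfg}

theorem gLemma {y z : ℂ} {a c : Fin 5} (hac : a ≠ c) (hu : ‖y - z‖ = 1) (hy : C.Sub2 y a c)
    (ha : z ∈ C.G a) (hc : z ∈ C.G c) {P : ℂ → Prop} (hP : ∀ᶠ x in 𝓝 z, P x) :
    ∃ z', P z' ∧ z' ∈ C.G a ∧ ¬ C.Pure z' a ∧ z' ∉ C.G c := by
  obtain ⟨θ, hθ⟩ := exists_ex hu
  obtain ⟨r, hr, hy'⟩ := Metric.eventually_nhds_iff.1 hy.eventually
  obtain ⟨ε, hε, hP'⟩ := Metric.eventually_nhds_iff.1 hP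
  obtain ⟨τ0, hτ0, hτ'⟩ := Metric.continuousAt_iff.1 (continuous_ex.continuousAt (x := θ)) _
    (half_pos hr)
  obtain ⟨τ, hτ, hτ1, hτ2⟩ : ∃ τ : ℝ, 0 < τ ∧ τ < 1 ∧ τ < τ0 / 2 :=
    exists_small ((gt_mem_nhds one_pos).and (gt_mem_nhds (half_pos hτ0)))
  have hsin : 0 < sin τ := sin_pos_of_pos_of_lt_pi hτ (by linarith [pi_gt_three])
  have sector : ∀ p, C.Pure p a → ‖p - z‖ < r / 2 → ∀ γ, 0 ≤ γ → γ ≤ τ → ∀ s : ℝ, s ≠ 0 →
      |s| < 2 * sin τ → p + s * ex (θ + π / 2 + γ) ∉ C.G c := by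
    intro p hp hpz γ h0 h1 s hs0 hs
    have arc : ∀ t, |t - θ| ≤ 2 * τ → p + ex t ∈ C.G c := by
      intro t ht
      have h2 : dist (p + ex t) y < r := by
        have := hτ' (x := t) (by rw [Real.dist_eq]; linarith)
        rw [dist_eq_norm] at this ⊢
        calc ‖p + ex t - y‖ = ‖(p - z) + (ex t - ex θ)‖ := by rw [← hθ]; ring_nf
          _ ≤ ‖p - z‖ + ‖ex t - ex θ‖ := norm_add_le _ _
          _ < r := by linarith
      exact ((hy' h2).symm.pure (hp.circle t)).mem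
    have e2 : cos (θ + γ - (θ + π / 2 + γ)) = 0 := by
      rw [show θ + γ - (θ + π / 2 + γ) = -(π / 2) by ring, cos_neg, cos_pi_div_two]
    rcases lt_or_gt_of_ne hs0 with hs0 | hs0
    · refine lune (t₁ := θ + γ - τ) (t₂ := θ + γ) (fun x hx => arc x ?_) ?_ ?_
      · rw [uIcc_of_le (by linarith)] at hx
        exact abs_le.2 ⟨by linarith [hx.1], by linarith [hx.2]⟩
      · rw [show θ + γ - τ - (θ + π / 2 + γ) = -(τ + π / 2) by ring, cos_neg, cos_add_pi_div_two]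
        rw [abs_of_neg hs0] at hs
        nlinarith
      · rw [e2]; nlinarith
    · refine lune (t₁ := θ + γ + τ) (t₂ := θ + γ) (fun x hx => arc x ?_) ?_ ?_
      · rw [uIcc_of_ge (by linarith)] at hx
        exact abs_le.2 ⟨by linarith [hx.1], by linarith [hx.2]⟩
      · rw [show θ + γ + τ - (θ + π / 2 + γ) = τ - π / 2 by ring, cos_sub_pi_div_two]
        rw [abs_of_pos hs0] at hs
        nlinarith
      · rw [e2]; nlinarith
  set s1 : ℂ → ℝ := fun p => ((z - p) * ex (-(θ + π / 2))).im / sin τ with hs1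
  set s2 : ℂ → ℝ := fun p => ((z - p) * ex (-(θ + π / 2))).re - s1 p * cos τ with hs2
  have dec : ∀ p, z = p + s1 p * ex (θ + π / 2 + τ) + s2 p * ex (θ + π / 2 + 0) := by
    intro p
    have e1 : (z - p) * ex (-(θ + π / 2)) = s1 p * ex τ + s2 p := by
      apply Complex.ext
      · simp only [hs2, Complex.add_re, Complex.re_ofReal_mul, ex_re, Complex.ofReal_re]; ring
      · simp only [hs1, Complex.add_im, Complex.im_ofReal_mul, ex_im, Complex.ofReal_im]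
        field_simp
        ring
    have e2 : ex (-(θ + π / 2)) * ex (θ + π / 2) = 1 := by
      rw [← ex_add]; simp [ex]
    rw [add_zero, ex_add (θ + π / 2) τ]
    linear_combination ex (θ + π / 2) * e1 - (z - p) * e2
  obtain ⟨ρ, hρ, hρ1, hρ2, hρ3⟩ : ∃ ρ : ℝ, 0 < ρ ∧ ρ < r / 4 ∧ ρ < ε / 2 ∧ ρ < 2 * sin τ :=
    exists_small ((gt_mem_nhds (by positivity)).and
      ((gt_mem_nhds (half_pos hε)).and (gt_mem_nhds (by positivity))))
  have c1 : Continuous s1 := by simp only [hs1]; fun_prop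
  have c2 : Continuous s2 := by simp only [hs2]; fun_prop
  have v1 : ∀ᶠ p in 𝓝 z, |s1 p| < ρ :=
    c1.abs.continuousAt.eventually_lt continuousAt_const (by simpa [hs1] using hρ)
  have v2 : ∀ᶠ p in 𝓝 z, |s2 p| < ρ :=
    c2.abs.continuousAt.eventually_lt continuousAt_const (by simpa [hs1, hs2] using hρ)
  have v3 : ∀ᶠ p in 𝓝 z, ‖p - z‖ < ρ :=
    (by fun_prop : ContinuousAt (fun p : ℂ => ‖p - z‖) z).eventually_lt continuousAt_const
      (by simpa using hρ)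
  obtain ⟨p, hp, w1, w2, w3⟩ := exists_pure ha (v1.and (v2.and v3))
  have near : ∀ u ∈ Icc (0 : ℝ) 1, ‖p + ((u * s1 p : ℝ) : ℂ) * ex (θ + π / 2 + τ) - z‖ < 2 * ρ := by
    intro u hu
    have : |u * s1 p| ≤ |s1 p| := by
      rw [abs_mul, abs_of_nonneg hu.1]
      exact mul_le_of_le_one_left (abs_nonneg _) hu.2
    calc _ = ‖(p - z) + ((u * s1 p : ℝ) : ℂ) * ex (θ + π / 2 + τ)‖ := by ring_nf
      _ ≤ ‖p - z‖ + ‖((u * s1 p : ℝ) : ℂ) * ex (θ + π / 2 + τ)‖ := norm_add_le _ _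
      _ < 2 * ρ := by
        rw [norm_mul, norm_ex, Complex.norm_real, Real.norm_eq_abs]
        linarith
  have hm : ¬ C.Pure (p + ((1 * s1 p : ℝ) : ℂ) * ex (θ + π / 2 + τ)) a := by
    intro hm
    have hn := near 1 ⟨zero_le_one, le_rfl⟩
    rw [one_mul] at hm hn
    by_cases h0 : s2 p = 0
    · have := dec p
      rw [h0, Complex.ofReal_zero, zero_mul, add_zero] at this
      exact hac (hm c (this ▸ hc)).symm
    · exact sector _ hm (by linarith) 0 le_rfl hτ.le _ h0 (by linarith) (dec p ▸ hc)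
  obtain ⟨_, ⟨u, hu, rfl⟩, h1, h2⟩ := exists_mixed (a := a)
    (isPreconnected_Icc.image (fun u : ℝ => p + ((u * s1 p : ℝ) : ℂ) * ex (θ + π / 2 + τ))
      (by fun_prop : Continuous _).continuousOn)
    ⟨0, ⟨le_rfl, zero_le_one⟩, rfl⟩ ⟨1, ⟨zero_le_one, le_rfl⟩, rfl⟩ (by simpa using hp) hm
  refine ⟨_, hP' (by rw [dist_eq_norm]; linarith [near u hu]), h1, h2, ?_⟩
  by_cases h0 : u * s1 p = 0
  · simp only [h0, Complex.ofReal_zero, zero_mul, add_zero] at h2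
    exact absurd hp h2
  · refine sector p hp (by linarith) τ hτ.le le_rfl _ h0 ?_
    rw [abs_mul, abs_of_nonneg hu.1]
    linarith [mul_le_of_le_one_left (abs_nonneg (s1 p)) hu.2]

theorem twoC {y z : ℂ} {a c : Fin 5} (hu : ‖y - z‖ = 1) (hy : C.Sub2 y a c) (hz : C.Sub2 z a c) :
    C.Pure z a ∨ C.Pure z c := by
  by_contra h
  push Not at h
  have hc : z ∈ C.G c := by_contra fun h' => h.1 (hz.pure h')
  have ha : z ∈ C.G a := by_contra fun h' => h.2 (hz.symm.pure h')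
  have hac : a ≠ c := by
    rintro rfl
    exact h.1 fun k hk => (hz k hk).elim id id
  obtain ⟨z', h1, -, h2, h3⟩ := gLemma hac hu hy ha hc hz.eventually
  exact h2 (h1.pure h3)

/-- a point of the unit circle around `Q` with colours in a pair forces purity near `Q` -/
theorem near_pure {Q : ℂ} {t : ℝ} {i j : Fin 5} (h : C.Sub2 (Q + ex t) i j) :
    ∀ᶠ z in 𝓝 Q, C.Sub2 z i j → C.Pure z i ∨ C.Pure z j := by
  have : ∀ᶠ z in 𝓝 Q, C.Sub2 (z + ex t) i j :=
    (by fun_prop : ContinuousAt (fun z : ℂ => z + ex t) Q).eventually h.eventually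
  exact this.mono fun z hz hz' => twoC (by rw [add_sub_cancel_left, norm_ex]) hz hz'

theorem pure_or_pure {Γ : Set ℂ} {d e : Fin 5} (hde : d ≠ e) (hΓ : IsPreconnected Γ)
    (h : ∀ x ∈ Γ, C.Pure x d ∨ C.Pure x e) : (∀ x ∈ Γ, C.Pure x d) ∨ ∀ x ∈ Γ, C.Pure x e :=
  hΓ.subset_or_subset (isOpen_pure d) (isOpen_pure e)
    (Set.disjoint_left.2 fun _ h1 h2 => hde (h2 d (Pure.mem h1))) h

theorem no_three {Γ : Set ℂ} {a b c : Fin 5} (h1 : a ≠ b) (h2 : a ≠ c) (h3 : b ≠ c)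
    (hΓ : IsPreconnected Γ) (ha : Γ ⊆ C.G a) (hb : Γ ⊆ C.G b) (hc : Γ ⊆ C.G c) {p q : ℂ}
    (hp : p ∈ Γ) (hq : q ∈ Γ) : p = q := by
  by_contra hpq
  obtain ⟨d, e, hde, -, -, -, -, -, -, hall⟩ := two_others h1 h2 h3
  obtain ⟨ψ, hψ⟩ := polar ((p - q) / 2)
  set δ := ‖(p - q) / 2‖ with hδ
  have hδ0 : 0 < δ := norm_pos_iff.2 (div_ne_zero (sub_ne_zero.2 hpq) two_ne_zero)
  have hδ1 : δ ≤ 1 / 2 := by
    rw [hδ, norm_div, Complex.norm_two]
    linarith [diam_le hΓ ha hp hq]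
  have sub : ∀ t ∈ Icc (ψ - π / 3) (ψ + π / 3), C.Sub2 ((p + q) / 2 + ex t) d e := by
    intro t ht
    have hcos := half_le_cos (x := t - ψ) (abs_le.2 ⟨by linarith [ht.1], by linarith [ht.2]⟩)
    have e1 : ‖(p + q) / 2 + ex t - p‖ < 1 := by
      have : p = (p + q) / 2 + δ * ex ψ := by rw [← hψ]; ring
      rw [norm_sub_rev]
      apply lt_one_of_sq
      nth_rewrite 1 [this]
      rw [nsq_ray]; nlinarith
    have e2 : 1 < ‖(p + q) / 2 + ex t - q‖ := by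
      have : q = (p + q) / 2 + ((-δ : ℝ) : ℂ) * ex ψ := by
        push_cast; rw [neg_mul, ← hψ]; ring
      rw [norm_sub_rev]
      apply one_lt_of_sq
      nth_rewrite 1 [this]
      rw [nsq_ray]; nlinarith
    intro k hk
    rcases hall k with rfl | rfl | rfl | h | h
    · exact absurd hk (sweep hΓ ha hp hq e1 e2)
    · exact absurd hk (sweep hΓ hb hp hq e1 e2)
    · exact absurd hk (sweep hΓ hc hp hq e1 e2)
    · exact Or.inl h
    · exact Or.inr h
  have hpi := pi_pos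
  have hle : ψ - π / 3 ≤ ψ + π / 3 := by linarith
  have := pure_or_pure (C := C) hde (preconn_arc ((p + q) / 2) (ψ - π / 3) (ψ + π / 3)) (by
    rintro _ ⟨t, ht, rfl⟩
    rw [uIcc_of_le hle] at ht
    rcases le_total t ψ with h | h
    · exact twoC (by rw [norm_sub_rev]; exact norm_chord _ t)
        (sub _ ⟨by linarith [ht.1], by linarith⟩) (sub t ht)
    · have := norm_chord ((p + q) / 2) (t - π / 3)
      rw [sub_add_cancel] at this
      exact twoC this (sub _ ⟨by linarith, by linarith [ht.2]⟩) (sub t ht))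
  rw [uIcc_of_le hle] at this
  rcases this with h | h
  · linarith [arc_le (fun s hs => (h _ ⟨s, hs, rfl⟩).mem)]
  · linarith [arc_le (fun s hs => (h _ ⟨s, hs, rfl⟩).mem)]

theorem not_in_three {O : ℂ} {a b c : Fin 5} (h1 : a ≠ b) (h2 : a ≠ c) (h3 : b ≠ c) {t : ℝ}
    (ha : C.In O a t) (hb : C.In O b t) (hc : C.In O c t) : False := by
  obtain ⟨ε, hε, h⟩ := Metric.eventually_nhds_iff.1 (ha.and (hb.and hc))
  obtain ⟨η, h0, hη1, hη2⟩ : ∃ η : ℝ, 0 < η ∧ η < ε ∧ η < 2 * π :=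
    exists_small ((gt_mem_nhds hε).and (gt_mem_nhds two_pi_pos))
  have key : ∀ x ∈ uIcc t (t + η), dist x t < ε := by
    intro x hx
    rw [uIcc_of_le (by linarith)] at hx
    exact abs_lt.2 ⟨by linarith [hx.1], by linarith [hx.2]⟩
  have := no_three (C := C) h1 h2 h3 (preconn_arc O t (t + η))
    (by rintro _ ⟨x, hx, rfl⟩; exact (h (key x hx)).1)
    (by rintro _ ⟨x, hx, rfl⟩; exact (h (key x hx)).2.1)
    (by rintro _ ⟨x, hx, rfl⟩; exact (h (key x hx)).2.2)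
    ⟨_, right_mem_uIcc, rfl⟩ ⟨_, left_mem_uIcc, rfl⟩
  exact ex_ne h0 hη2 (add_left_cancel this)

/-- generic point of the unit circle around `O` -/
def Gen (C : Cfg) (O : ℂ) (t : ℝ) : Prop := ∀ i, O + ex t ∈ C.G i → C.In O i t

theorem dense_gen (O : ℂ) : Dense {t : ℝ | ∀ k : ℤ, C.Gen O (t + k * (π / 3))} := by
  have : ∀ p : ℤ × Fin 5, IsOpen {t : ℝ | O + ex (t + p.1 * (π / 3)) ∈ C.G p.2 →
      C.In O p.2 (t + p.1 * (π / 3))} ∧ Dense {t : ℝ | O + ex (t + p.1 * (π / 3)) ∈ C.G p.2 →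
      C.In O p.2 (t + p.1 * (π / 3))} := by
    rintro ⟨k, i⟩
    have c1 : Continuous fun t : ℝ => t + k * (π / 3) := by fun_prop
    have c2 : Continuous fun t : ℝ => O + ex (t + k * (π / 3)) :=
      continuous_const.add (continuous_ex.comp c1)
    constructor
    · refine isOpen_iff_mem_nhds.2 fun t ht => ?_
      by_cases h : O + ex (t + k * (π / 3)) ∈ C.G i
      · exact (c1.continuousAt.eventually (ht h).eventually).mono fun _ h' _ => h'
      · exact (c2.continuousAt.eventually (notMem_eventually h)).mono fun _ h' h'' => absurd h'' h'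
    · refine dense_iff_inter_open.2 fun U hU ⟨t, ht⟩ => ?_
      by_cases h : ∃ s ∈ U, O + ex (s + k * (π / 3)) ∉ C.G i
      · obtain ⟨s, hs, hs'⟩ := h
        exact ⟨s, hs, fun h' => absurd h' hs'⟩
      · push Not at h
        refine ⟨t, ht, fun _ => ?_⟩
        have c3 : ContinuousAt (fun s : ℝ => s - k * (π / 3)) (t + k * (π / 3)) := by fun_prop
        have := c3.eventually (hU.mem_nhds (by simpa using ht))
        exact this.mono fun s hs => by simpa using h _ hs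
  refine (dense_iInter_of_isOpen (fun p => (this p).1) fun p => (this p).2).mono fun t ht k i => ?_
  exact mem_iInter.1 ht (k, i)

theorem exists_gen6 (O : ℂ) {α β : ℝ} (h : α < β) :
    ∃ t ∈ Ioo α β, ∀ k : ℤ, C.Gen O (t + k * (π / 3)) := by
  obtain ⟨t, h1, h2⟩ := (dense_gen (C := C) O).exists_mem_open isOpen_Ioo (nonempty_Ioo.2 h)
  exact ⟨t, h2, h1⟩

theorem exists_gen (O : ℂ) {α β : ℝ} (h : α < β) : ∃ t ∈ Ioo α β, C.Gen O t := by
  obtain ⟨t, h1, h2⟩ := exists_gen6 (C := C) O h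
  exact ⟨t, h1, by simpa using h2 0⟩

theorem exists_gen_near (O : ℂ) {t : ℝ} {p : ℝ → Prop} (h : ∀ᶠ s in 𝓝 t, p s) :
    ∃ s, p s ∧ C.Gen O s := by
  obtain ⟨ε, hε, h⟩ := Metric.eventually_nhds_iff.1 h
  obtain ⟨s, hs, hs'⟩ := exists_gen (C := C) O (show t - ε < t + ε by linarith)
  exact ⟨s, h (abs_lt.2 ⟨by linarith [hs.1], by linarith [hs.2]⟩), hs'⟩

theorem Gen.sub2 {O : ℂ} {t : ℝ} (h : C.Gen O t) {i j : Fin 5} (hij : i ≠ j)
    (hi : O + ex t ∈ C.G i) (hj : O + ex t ∈ C.G j) : C.Sub2 (O + ex t) i j := by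
  intro k hk
  by_contra h'
  push Not at h'
  exact not_in_three hij h'.1.symm h'.2.symm (h i hi) (h j hj) (h k hk)

/-- a generic point that is not pure carries exactly two colours -/
theorem Gen.pair {O : ℂ} {t : ℝ} (h : C.Gen O t) (hn : ∀ i, ¬ C.Pure (O + ex t) i) :
    ∃ i j, i ≠ j ∧ O + ex t ∈ C.G i ∧ O + ex t ∈ C.G j ∧ C.Sub2 (O + ex t) i j := by
  obtain ⟨i, hi⟩ := C.cover (O + ex t)
  have := hn i
  simp only [Pure, not_forall] at this
  obtain ⟨j, hj, hji⟩ := this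
  exact ⟨i, j, Ne.symm hji, hi, hj, h.sub2 (Ne.symm hji) hi hj⟩

end Cfg

end Vale.Agent.P032
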