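import Vale.Agent.P032.D2

/-! Part D: the unit circle around a point of a two-colour continuum is not covered by two other
colours. -/

namespace Vale.Agent.P032

open Filter Topology Real Set

theorem exists_near (θ ψ : ℝ) : ∃ k : ℤ, |θ + k * (π / 3) - ψ| ≤ π / 6 := by
  have hp : 0 < π / 3 := by linarith [pi_pos]
  refine ⟨round ((ψ - θ) / (π / 3)), ?_⟩
  have := abs_sub_round ((ψ - θ) / (π / 3))
  have e : θ + round ((ψ - θ) / (π / 3)) * (π / 3) - ψ =
      -(((ψ - θ) / (π / 3) - round ((ψ - θ) / (π / 3))) * (π / 3)) := by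
    field_simp
    ring
  rw [e, abs_neg, abs_mul, abs_of_pos hp]
  nlinarith

namespace Cfg

variable {C : Cfg}

section

variable {O : ℂ} {d e : Fin 5}

def In2 (C : Cfg) (O : ℂ) (d e : Fin 5) (t : ℝ) : Prop := C.In O d t ∨ C.In O e t

def Bd (C : Cfg) (O : ℂ) (d e : Fin 5) (t : ℝ) : Prop :=
  (∃ᶠ s in 𝓝 t, C.In O d s) ∧ ∃ᶠ s in 𝓝 t, C.In O e s

def End (C : Cfg) (O : ℂ) (d e : Fin 5) (σ t : ℝ) : Prop :=
  C.Bd O d e t ∧ ∀ᶠ β in 𝓝[>] (0 : ℝ), C.In2 O d e (t - σ * β)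

theorem in_of_not (hcov : ∀ t, O + ex t ∈ C.G d ∨ O + ex t ∈ C.G e) {t : ℝ}
    (h : O + ex t ∉ C.G d) : C.In O e t :=
  ((continuous_const.add continuous_ex).continuousAt.eventually (notMem_eventually h)).mono
    fun s hs => (hcov s).resolve_left hs

theorem In.shift (hcov : ∀ t, O + ex t ∈ C.G d ∨ O + ex t ∈ C.G e) {t x : ℝ}
    (hx : x = π / 3 ∨ x = -(π / 3)) (h : C.In O d t) : C.In O e (t + x) := by
  rcases hx with rfl | rfl
  · exact in_of_not hcov h.add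
  · exact in_of_not hcov h.sub

theorem End.shift (hcov : ∀ t, O + ex t ∈ C.G d ∨ O + ex t ∈ C.G e) {σ t x : ℝ}
    (hx : x = π / 3 ∨ x = -(π / 3)) (h : C.End O d e σ t) : C.End O d e σ (t + x) := by
  have hcov' : ∀ t, O + ex t ∈ C.G e ∨ O + ex t ∈ C.G d := fun t => (hcov t).symm
  have c : Tendsto (fun s : ℝ => s + x) (𝓝 t) (𝓝 (t + x)) :=
    (continuous_id.add continuous_const).tendsto t
  refine ⟨⟨c.frequently (h.1.2.mono fun s hs => hs.shift hcov' hx),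
    c.frequently (h.1.1.mono fun s hs => hs.shift hcov hx)⟩, h.2.mono fun β hβ => ?_⟩
  rw [show t + x - σ * β = t - σ * β + x by ring]
  exact hβ.elim (fun h => Or.inr (h.shift hcov hx)) fun h => Or.inl (h.shift hcov' hx)

theorem End.zshift (hcov : ∀ t, O + ex t ∈ C.G d ∨ O + ex t ∈ C.G e) {σ t : ℝ}
    (h : C.End O d e σ t) (k : ℤ) : C.End O d e σ (t + k * (π / 3)) := by
  induction k using Int.induction_on with
  | zero => simpa using h
  | succ k ih =>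
    have := ih.shift hcov (Or.inl rfl)
    rwa [show t + ((k : ℤ) : ℝ) * (π / 3) + π / 3 = t + (((k : ℤ) + 1 : ℤ) : ℝ) * (π / 3) by
      push_cast; ring] at this
  | pred k ih =>
    have := ih.shift hcov (Or.inr rfl)
    rwa [show t + ((-(k : ℤ) : ℤ) : ℝ) * (π / 3) + -(π / 3) =
      t + ((-(k : ℤ) - 1 : ℤ) : ℝ) * (π / 3) by push_cast; ring] at this

theorem exists_end (hcov : ∀ t, O + ex t ∈ C.G d ∨ O + ex t ∈ C.G e) {σ : ℝ}
    (hσ : σ = 1 ∨ σ = -1) : ∃ t, C.End O d e σ t := by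
  obtain ⟨t, ht⟩ : ∃ t, C.In O d t := by
    obtain ⟨t, -, ht⟩ := exists_gen (C := C) O zero_lt_one
    rcases hcov t with h | h
    · exact ⟨t, ht d h⟩
    · exact ⟨_, (ht e h).shift (fun t => (hcov t).symm) (Or.inl rfl)⟩
  have c : Continuous fun x : ℝ => t + σ * x := by fun_prop
  have hU : IsOpen {x : ℝ | C.In O d (t + σ * x)} :=
    isOpen_iff_mem_nhds.2 fun x hx => c.continuousAt.eventually (In.eventually hx)
  have hp : 0 < π / 3 := by linarith [pi_pos]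
  obtain ⟨β, ⟨hβ, hβ'⟩, hmin⟩ := (isCompact_Icc.inter_right hU.isClosed_compl).exists_isLeast
    (s := Icc 0 (π / 3) ∩ {x : ℝ | C.In O d (t + σ * x)}ᶜ) ⟨π / 3, ⟨hp.le, le_rfl⟩, fun h => by
      rcases hσ with rfl | rfl
      · exact ht.add (by simpa using In.mem h)
      · exact ht.sub (by simpa [sub_eq_add_neg] using In.mem h)⟩
  have h0 : 0 < β := lt_of_le_of_ne hβ.1 (by rintro rfl; exact hβ' (by simpa using ht))
  have hin : ∀ᶠ x in 𝓝[>] (0 : ℝ), C.In O d (t + σ * β - σ * x) := by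
    filter_upwards [Ioo_mem_nhdsGT h0] with x hx
    by_contra h
    rw [show t + σ * β - σ * x = t + σ * (β - x) by ring] at h
    linarith [hmin ⟨⟨by linarith [hx.2], by linarith [hx.1, hβ.2]⟩, h⟩, hx.1]
  refine ⟨t + σ * β, ⟨?_, ?_⟩, hin.mono fun _ h => Or.inl h⟩
  · have : Tendsto (fun x : ℝ => t + σ * β - σ * x) (𝓝[>] 0) (𝓝 (t + σ * β)) :=
      tendsto_nhdsWithin_of_tendsto_nhds
        ((by fun_prop : Continuous fun x : ℝ => t + σ * β - σ * x).tendsto' _ _ (by simp))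
    exact this.frequently hin.frequently
  · exact (not_eventually.1 hβ').mono fun s hs => in_of_not hcov hs

end

section

variable {Γ : Set ℂ} {O : ℂ} {a b c d e : Fin 5}

theorem wlem (hall : ∀ k, k = a ∨ k = b ∨ k = d ∨ k = e ∨ k = c) (hΓ : IsPreconnected Γ)
    (ha : Γ ⊆ C.G a) (hb : Γ ⊆ C.G b) {s t : ℝ} (hs : C.In2 O d e s) (ht : C.Bd O d e t)
    (hst : sin (s - t) ≠ 0) {p q : ℂ} (hp : p ∈ Γ) (hq : q ∈ Γ) (h1 : ‖O + ex s + ex t - p‖ < 1)
    (h2 : 1 < ‖O + ex s + ex t - q‖) : O + ex s + ex t ∈ C.G c := by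
  by_contra h
  have cw : Continuous fun t : ℝ => O + ex s + ex t := continuous_const.add continuous_ex
  have e1 : ∀ᶠ u in 𝓝 t, ‖O + ex s + ex u - p‖ < 1 :=
    (cw.sub continuous_const).norm.continuousAt.eventually_lt continuousAt_const h1
  have e2 : ∀ᶠ u in 𝓝 t, 1 < ‖O + ex s + ex u - q‖ :=
    continuousAt_const.eventually_lt (cw.sub continuous_const).norm.continuousAt h2
  have e3 : ∀ᶠ u in 𝓝 t, O + ex s + ex u ∉ C.G c := cw.continuousAt.eventually (notMem_eventually h)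
  have e4 : ∀ᶠ u in 𝓝 t, sin (s - u) ≠ 0 :=
    (by fun_prop : ContinuousAt (fun u : ℝ => sin (s - u)) t).eventually_ne hst
  have key : ∀ i j, C.In O i s → (∃ᶠ u in 𝓝 t, C.In O j u) →
      (∀ k, k = a ∨ k = b ∨ k = i ∨ k = j ∨ k = c) → False := by
    intro i j hi hj hall
    obtain ⟨u, hu, h1, h2, h3, h4⟩ := (hj.and_eventually (e1.and (e2.and (e3.and e4)))).exists
    obtain ⟨k, hk⟩ := C.cover (O + ex s + ex u)
    rcases hall k with rfl | rfl | rfl | rfl | rfl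
    · exact sweep hΓ ha hp hq h1 h2 hk
    · exact sweep hΓ hb hp hq h1 h2 hk
    · exact hi.sw h4 hk
    · rw [add_right_comm] at hk
      refine hu.sw ?_ hk
      rw [← neg_sub, sin_neg]
      exact neg_ne_zero.2 h4
    · exact h3 hk
  rcases hs with hs | hs
  · exact key d e hs ht.2 hall
  · exact key e d hs ht.1 fun k => by have := hall k; tauto

theorem end_main (hall : ∀ k, k = a ∨ k = b ∨ k = d ∨ k = e ∨ k = c) (hΓ : IsPreconnected Γ)
    (ha : Γ ⊆ C.G a) (hb : Γ ⊆ C.G b) (hO : O ∈ Γ)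
    (hcov : ∀ t, O + ex t ∈ C.G d ∨ O + ex t ∈ C.G e) {σ θ : ℝ} (hσ : σ = 1 ∨ σ = -1)
    (h : C.End O d e σ θ) {q : ℂ} (hq : q ∈ Γ) (h1 : ‖O + ex θ - q‖ < 1)
    (h2 : 1 < ‖O + ex (θ + σ * (π / 3)) - q‖) : False := by
  have hp := pi_pos
  have hcos : ∀ x, cos (σ * x) = cos x := by rcases hσ with rfl | rfl <;> simp
  have hsin : ∀ x, 0 < x → x < π → sin (σ * x) ≠ 0 := by
    intro x h0 h1
    have := (sin_pos_of_pos_of_lt_pi h0 h1).ne'
    rcases hσ with rfl | rfl <;> simpa using this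
  have hex : ∀ t, ex (t - σ * (π / 3)) + ex (t + σ * (π / 3)) = ex t := by
    intro t
    rcases hσ with rfl | rfl
    · simpa using ex_hex t
    · simpa [add_comm, sub_eq_add_neg] using ex_hex t
  have hneg : ∀ t, ex (t + σ * π) = -ex t := by
    intro t
    rcases hσ with rfl | rfl
    · simpa using ex_add_pi t
    · simpa [sub_eq_add_neg] using ex_sub_pi t
  have hs1 : σ * (π / 3) = π / 3 ∨ σ * (π / 3) = -(π / 3) := by rcases hσ with rfl | rfl <;> simp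
  have hs2 : -(σ * (π / 3)) = π / 3 ∨ -(σ * (π / 3)) = -(π / 3) := by
    rcases hσ with rfl | rfl <;> simp
  have E1 := h.shift hcov hs1
  have E2 := E1.shift hcov hs1
  have E3 := h.shift hcov hs2
  set Wp : ℝ → ℂ := fun β => O + ex (θ + σ * (π / 3) - σ * β) + ex (θ + -(σ * (π / 3))) with hWp
  set Wm : ℝ → ℂ := fun β => O + ex (θ - σ * β) + ex (θ + σ * (π / 3) + σ * (π / 3)) with hWm
  have cp : Continuous Wp := by have := continuous_ex; simp only [hWp]; fun_prop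
  have cm : Continuous Wm := by have := continuous_ex; simp only [hWm]; fun_prop
  have p0 : Wp 0 = O + ex θ := by
    simp only [hWp, mul_zero, sub_zero]
    rw [add_assoc, add_comm (ex _), ← sub_eq_add_neg, hex]
  have m0 : Wm 0 = O + ex (θ + σ * (π / 3)) := by
    simp only [hWm, mul_zero, sub_zero]
    rw [add_assoc, ← hex (θ + σ * (π / 3)), add_sub_cancel_right]
  have e1 : ∀ᶠ β in 𝓝 (0 : ℝ), ‖Wp β - q‖ < 1 :=
    (cp.sub continuous_const).norm.continuousAt.eventually_lt continuousAt_const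
      (by rwa [Pi.sub_apply, p0])
  have e2 : ∀ᶠ β in 𝓝 (0 : ℝ), 1 < ‖Wm β - q‖ :=
    continuousAt_const.eventually_lt (cm.sub continuous_const).norm.continuousAt (by rwa [m0])
  obtain ⟨β', hβ', hall'⟩ := (nhdsGT_basis (0 : ℝ)).eventually_iff.1
    ((h.2.and E1.2).and (((e1.and e2).and (gt_mem_nhds (show (0 : ℝ) < π / 3 by linarith))).filter_mono
      nhdsWithin_le_nhds))
  have mp : ∀ β ∈ Ioo 0 β', Wp β ∈ C.G c := by
    intro β hβ
    obtain ⟨⟨-, i1⟩, ⟨i2, -⟩, i3⟩ := hall' hβ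
    refine wlem hall hΓ ha hb i1 E3.1 ?_ hq hO i2 (one_lt_of_sq ?_)
    · rw [show θ + σ * (π / 3) - σ * β - (θ + -(σ * (π / 3))) = σ * (2 * π / 3 - β) by ring]
      exact hsin _ (by linarith) (by linarith [hβ.1])
    · have := nsq2 1 1 (θ + σ * (π / 3) - σ * β) (θ + -(σ * (π / 3)))
      simp only [Complex.ofReal_one, one_mul] at this
      rw [add_assoc, add_sub_cancel_left, this,
        show θ + σ * (π / 3) - σ * β - (θ + -(σ * (π / 3))) = σ * (2 * π / 3 - β) by ring, hcos]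
      have := cos_lt_cos_of_nonneg_of_le_pi (x := 2 * π / 3 - β) (y := π - π / 3) (by linarith)
        (by linarith) (by linarith [hβ.1])
      rw [cos_pi_sub, cos_pi_div_three] at this
      linarith
  have mp' : ∀ β ∈ Icc 0 β', Wp β ∈ C.G c := by
    rw [← closure_Ioo hβ'.ne]
    exact ((C.closed c).preimage cp).closure_subset_iff.2 mp
  obtain ⟨⟨i0, -⟩, ⟨-, i2⟩, i3⟩ := hall' (x := β' / 2) ⟨by linarith, by linarith⟩
  set β := β' / 2 with hβ
  have hβ0 : 0 < β := by linarith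
  have mm : Wm β ∈ C.G c := by
    refine wlem hall hΓ ha hb i0 E2.1 ?_ hO hq (lt_one_of_sq ?_) i2
    · rw [show θ - σ * β - (θ + σ * (π / 3) + σ * (π / 3)) = -(σ * (2 * π / 3 + β)) by ring,
        sin_neg]
      exact neg_ne_zero.2 (hsin _ (by linarith) (by linarith))
    · have := nsq2 1 1 (θ - σ * β) (θ + σ * (π / 3) + σ * (π / 3))
      simp only [Complex.ofReal_one, one_mul] at this
      rw [add_assoc, add_sub_cancel_left, this,
        show θ - σ * β - (θ + σ * (π / 3) + σ * (π / 3)) = -(σ * (2 * π / 3 + β)) by ring, cos_neg,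
        hcos]
      have := cos_lt_cos_of_nonneg_of_le_pi (y := 2 * π / 3 + β) (x := π - π / 3) (by linarith)
        (by linarith) (by linarith)
      rw [cos_pi_sub, cos_pi_div_three] at this
      linarith
  refine sweep (isPreconnected_Icc.image Wp cp.continuousOn) (by rintro _ ⟨x, hx, rfl⟩; exact mp' x hx)
    ⟨0, ⟨le_rfl, hβ'.le⟩, rfl⟩ ⟨β, ⟨hβ0.le, by linarith⟩, rfl⟩ (lt_one_of_sq ?_) (one_lt_of_sq ?_) mm
  · have e : Wm β - Wp 0 = ((1 : ℝ) : ℂ) * ex (θ - σ * β) +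
        ((1 : ℝ) : ℂ) * ex (θ + σ * (π / 3) + σ * (π / 3)) + ((-1 : ℝ) : ℂ) * ex θ := by
      rw [p0]; simp only [hWm]; push_cast; ring
    rw [e, nsq3,
      show θ - σ * β - (θ + σ * (π / 3) + σ * (π / 3)) = -(σ * (β + (π - π / 3))) by ring,
      show θ - σ * β - θ = -(σ * β) by ring,
      show θ + σ * (π / 3) + σ * (π / 3) - θ = σ * (π - π / 3) by ring, cos_neg, cos_neg, hcos,
      hcos, hcos, cos_add, cos_pi_sub, sin_pi_sub, cos_pi_div_three, sin_pi_div_three]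
    have : cos (π / 6) < cos (β - π / 6) := by
      rw [← cos_abs (β - π / 6)]
      exact cos_lt_cos_of_nonneg_of_le_pi (abs_nonneg _) (by linarith)
        (abs_lt.2 ⟨by linarith, by linarith⟩)
    rw [cos_sub, cos_pi_div_six, sin_pi_div_six] at this
    have h3 : √3 * √3 = 3 := mul_self_sqrt (by norm_num)
    have h4 : 0 < √3 := by positivity
    have h5 := mul_lt_mul_of_pos_left this h4
    have h6 : √3 * (cos β * (√3 / 2) + sin β * (1 / 2)) =
        cos β * (3 / 2) + sin β * (√3 / 2) := by linear_combination cos β / 2 * h3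
    linarith
  · have x1 := hex (θ + σ * (π / 3) - σ * β)
    have x2 := hneg (θ + -(σ * (π / 3)))
    rw [show θ + σ * (π / 3) - σ * β - σ * (π / 3) = θ - σ * β by ring] at x1
    rw [show θ + -(σ * (π / 3)) + σ * π = θ + σ * (π / 3) + σ * (π / 3) by ring] at x2
    have e : Wm β - Wp β = ((2 : ℝ) : ℂ) * ex (θ + σ * (π / 3) + σ * (π / 3)) +
        ((-1 : ℝ) : ℂ) * ex (θ + σ * (π / 3) - σ * β + σ * (π / 3)) := by
      simp only [hWm, hWp]; push_cast
      linear_combination x1 - x2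
    rw [e, nsq2, show θ + σ * (π / 3) + σ * (π / 3) - (θ + σ * (π / 3) - σ * β + σ * (π / 3)) =
      σ * β by ring, hcos]
    have := cos_lt_cos_of_nonneg_of_le_pi (x := 0) (y := β) le_rfl (by linarith) hβ0
    rw [cos_zero] at this
    linarith

theorem end_angle (hall : ∀ k, k = a ∨ k = b ∨ k = d ∨ k = e ∨ k = c) (hΓ : IsPreconnected Γ)
    (ha : Γ ⊆ C.G a) (hb : Γ ⊆ C.G b) (hO : O ∈ Γ)
    (hcov : ∀ t, O + ex t ∈ C.G d ∨ O + ex t ∈ C.G e) {σ θ : ℝ} (hσ : σ = 1 ∨ σ = -1)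
    (h : C.End O d e σ θ) {ρ ψ : ℝ} (hρ : 0 < ρ) (hρ1 : ρ ≤ 1) (hq : O + ρ * ex ψ ∈ Γ) :
    ∃ k : ℤ, cos (θ + k * (π / 3) - ψ) = ρ / 2 ∧
      ρ / 2 < cos (θ + k * (π / 3) - σ * (π / 3) - ψ) := by
  have hp := pi_pos
  have step : ∀ k : ℤ, ρ / 2 < cos (θ + k * (π / 3) - ψ) →
      ρ / 2 ≤ cos (θ + k * (π / 3) + σ * (π / 3) - ψ) := by
    intro k hk
    by_contra h'
    refine end_main hall hΓ ha hb hO hcov hσ (h.zshift hcov k) hq (lt_one_of_sq ?_) (one_lt_of_sq ?_)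
    · rw [norm_sub_rev, nsq_ray]; nlinarith
    · rw [norm_sub_rev, nsq_ray]; nlinarith
  obtain ⟨s, rfl⟩ : ∃ s : ℤ, σ = s := by
    rcases hσ with rfl | rfl
    · exact ⟨1, by simp⟩
    · exact ⟨-1, by simp⟩
  by_contra hn
  push Not at hn
  have step2 : ∀ k : ℤ, ρ / 2 < cos (θ + k * (π / 3) - ψ) →
      ρ / 2 < cos (θ + (k + s : ℤ) * (π / 3) - ψ) := by
    intro k hk
    have e : θ + ((k + s : ℤ) : ℝ) * (π / 3) = θ + k * (π / 3) + s * (π / 3) := by push_cast; ring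
    refine lt_of_le_of_ne (by rw [e]; exact step k hk) fun h' => ?_
    have := hn _ h'.symm
    rw [e, add_sub_cancel_right] at this
    linarith
  obtain ⟨k, hk⟩ := exists_near θ ψ
  have h0 : ρ / 2 < cos (θ + k * (π / 3) - ψ) := by
    have := cos_lt_cos_of_nonneg_of_le_pi (abs_nonneg (θ + k * (π / 3) - ψ)) (y := π / 3)
      (by linarith) (by linarith)
    rw [cos_abs, cos_pi_div_three] at this
    linarith
  have h3 := step2 _ (step2 _ (step2 _ h0))
  have e : cos (θ + ((k + s + s + s : ℤ) : ℝ) * (π / 3) - ψ) = -cos (θ + k * (π / 3) - ψ) := by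
    rw [show θ + ((k + s + s + s : ℤ) : ℝ) * (π / 3) - ψ = θ + k * (π / 3) - ψ + s * π by
      push_cast; ring]
    rcases hσ with h | h <;> rw [h]
    · rw [one_mul, cos_add_pi]
    · rw [neg_one_mul, ← sub_eq_add_neg, cos_sub_pi]
  linarith

theorem caseI (h1 : a ≠ b) (h2 : a ≠ d) (h3 : a ≠ e) (h4 : b ≠ d) (h5 : b ≠ e) (h6 : d ≠ e)
    (hΓ : IsPreconnected Γ) (ha : Γ ⊆ C.G a) (hb : Γ ⊆ C.G b) (hO : O ∈ Γ) {q : ℂ} (hq : q ∈ Γ)
    (hqO : q ≠ O) : ∃ t, O + ex t ∉ C.G d ∧ O + ex t ∉ C.G e := by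
  by_contra hcov
  replace hcov : ∀ t, O + ex t ∈ C.G d ∨ O + ex t ∈ C.G e := fun t => by
    by_contra h
    exact hcov ⟨t, not_or.1 h⟩
  obtain ⟨c, -, -, -, -, hall⟩ := fifth h1 h2 h3 h4 h5 h6
  obtain ⟨θ0, e0⟩ := exists_end hcov (Or.inl rfl)
  obtain ⟨θ1, e1⟩ := exists_end hcov (Or.inr rfl)
  have hcount : (range fun p : ℤ × ℤ =>
      √(2 + 2 * cos (θ0 + p.1 * (π / 3) - (θ1 + p.2 * (π / 3))))).Countable := countable_range _
  obtain ⟨ρ, hρ', hρ⟩ := (hcount.dense_compl ℝ).exists_mem_open isOpen_Ioo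
    (nonempty_Ioo.2 (norm_pos_iff.2 (sub_ne_zero.2 hqO)))
  obtain ⟨z, hz, hz'⟩ := hΓ.intermediate_value hO hq
    (by fun_prop : Continuous (fun z : ℂ => ‖z - O‖)).continuousOn
    (show ρ ∈ Icc ‖O - O‖ ‖q - O‖ from ⟨by simpa using hρ.1.le, hρ.2.le⟩)
  obtain ⟨ψ, hψ⟩ := polar (z - O)
  simp only at hz'
  rw [hz'] at hψ
  have hzΓ : O + ρ * ex ψ ∈ Γ := by rw [← hψ]; simpa using hz
  have hρ1 : ρ ≤ 1 := hz' ▸ diam_le hΓ ha hz hO
  obtain ⟨k, a1, a2⟩ := end_angle hall hΓ ha hb hO hcov (Or.inl rfl) e0 hρ.1 hρ1 hzΓ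
  obtain ⟨j, b1, b2⟩ := end_angle hall hΓ ha hb hO hcov (Or.inr rfl) e1 hρ.1 hρ1 hzΓ
  set x := θ0 + k * (π / 3) - ψ with hx
  set y := θ1 + j * (π / 3) - ψ with hy
  rw [show θ0 + k * (π / 3) - 1 * (π / 3) - ψ = x - π / 3 by rw [hx]; ring, cos_sub,
    cos_pi_div_three, a1] at a2
  rw [show θ1 + j * (π / 3) - -1 * (π / 3) - ψ = y + π / 3 by rw [hy]; ring, cos_add,
    cos_pi_div_three, b1] at b2
  have s1 := sin_sq_add_cos_sq x
  have s2 := sin_sq_add_cos_sq y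
  rw [a1] at s1
  rw [b1] at s2
  rcases sq_eq_sq_iff_eq_or_eq_neg.1 (show sin x ^ 2 = sin y ^ 2 by linarith) with h | h
  · rw [h] at a2
    linarith [hρ.1]
  · refine hρ' ⟨(k, j), ?_⟩
    simp only
    rw [show θ0 + k * (π / 3) - (θ1 + j * (π / 3)) = x - y by rw [hx, hy]; ring, cos_sub, a1, b1, h,
      show 2 + 2 * (ρ / 2 * (ρ / 2) + -sin y * sin y) = ρ ^ 2 by linarith, sqrt_sq hρ.1.le]

end

end Cfg

end Vale.Agent.P032
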