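import Vale.Agent.P032.D3

/-! Part D: endpoints of two-colour arcs carry at least four colours; rays. -/

namespace Vale.Agent.P032

open Filter Topology Real Set

namespace Cfg

structure Good (C : Cfg) (Q : ℂ) (a b : Fin 5) : Prop where
  ne : a ≠ b
  cont : ∃ Γ q, IsPreconnected Γ ∧ Q ∈ Γ ∧ q ∈ Γ ∧ q ≠ Q ∧ Γ ⊆ C.G a ∧ Γ ⊆ C.G b
  n0 : ∃ᶠ z in 𝓝 Q, z ∈ C.G a ∧ z ∈ C.G b ∧ C.Sub2 z a b
  na : ∃ᶠ z in 𝓝 Q, z ∈ C.G a ∧ z ∉ C.G b ∧ ¬ C.Pure z a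
  nb : ∃ᶠ z in 𝓝 Q, z ∈ C.G b ∧ z ∉ C.G a ∧ ¬ C.Pure z b

structure EndPt (C : Cfg) (O : ℂ) (a b : Fin 5) (t : ℝ) : Prop where
  ne : a ≠ b
  ma : O ∈ C.G a
  mb : O ∈ C.G b
  arc : ∃ s, s ≠ t ∧ ∀ x ∈ uIcc s t, O + ex x ∈ C.G a ∧ O + ex x ∈ C.G b
  nin : ¬ (C.In O a t ∧ C.In O b t)

variable {C : Cfg}

theorem EndPt.symm {O : ℂ} {a b : Fin 5} {t : ℝ} (h : C.EndPt O a b t) : C.EndPt O b a t :=
  ⟨h.ne.symm, h.mb, h.ma, h.arc.imp fun _ hs => ⟨hs.1, fun x hx => (hs.2 x hx).symm⟩,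
    fun h' => h.nin h'.symm⟩

theorem exists_gen_uIcc (O : ℂ) {s t δ : ℝ} (h : s ≠ t) (hδ : 0 < δ) :
    ∃ x ∈ uIcc s t, x ≠ t ∧ |x - t| < δ ∧ C.Gen O x := by
  rcases lt_or_gt_of_ne h with h | h
  · obtain ⟨x, hx, hg⟩ := exists_gen (C := C) O (show max s (t - δ) < t from max_lt h (by linarith))
    have h1 := max_lt_iff.1 hx.1
    exact ⟨x, by rw [uIcc_of_le h.le]; exact ⟨h1.1.le, hx.2.le⟩, hx.2.ne,
      abs_lt.2 ⟨by linarith [h1.2], by linarith [hx.2]⟩, hg⟩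
  · obtain ⟨x, hx, hg⟩ := exists_gen (C := C) O (show t < min s (t + δ) from lt_min h (by linarith))
    have h1 := lt_min_iff.1 hx.2
    exact ⟨x, by rw [uIcc_of_ge h.le]; exact ⟨hx.1.le, h1.1.le⟩, hx.1.ne',
      abs_lt.2 ⟨by linarith [hx.1], by linarith [h1.2]⟩, hg⟩

theorem EndPt.near {O : ℂ} {a b : Fin 5} {t : ℝ} (h : C.EndPt O a b t) :
    ∃ᶠ z in 𝓝 (O + ex t), z ∈ C.G a ∧ z ∉ C.G b ∧ ¬ C.Pure z a := by
  refine frequently_iff.2 fun {U} hU => ?_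
  obtain ⟨ε, hε, hU⟩ := Metric.mem_nhds_iff.1 hU
  obtain ⟨δ, hδ, hex⟩ := Metric.continuousAt_iff.1 (continuous_ex.continuousAt (x := t)) _
    (half_pos hε)
  obtain ⟨s, hst, harc⟩ := h.arc
  obtain ⟨x, hx, -, hxt, hg⟩ := exists_gen_uIcc (C := C) O hst hδ
  have hsub := hg.sub2 h.ne (harc x hx).1 (harc x hx).2
  obtain ⟨y, hy, hyt⟩ : ∃ y, ¬ (O + ex y ∈ C.G a ∧ O + ex y ∈ C.G b) ∧ dist y t < δ :=
    ((not_eventually.1 fun h' => h.nin (eventually_and.1 h')).and_eventually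
      (Metric.ball_mem_nhds t hδ)).exists
  have hball : ∀ O' u, dist O' O < ε / 2 → dist u t < δ → O' + ex u ∈ U := by
    intro O' u h1 h2
    refine hU ?_
    rw [Metric.mem_ball]
    linarith [dist_add_add_le O' (ex u) O (ex t), hex h2]
  by_cases hya : O + ex y ∈ C.G a
  · exact ⟨_, hball O y (by simpa using hε) hyt, hya, fun h' => hy ⟨hya, h'⟩,
      not_pure_circle h.ma y⟩
  have e1 : ∀ᶠ z in 𝓝 O, C.Sub2 (z + ex x) a b :=
    (by fun_prop : ContinuousAt (fun z : ℂ => z + ex x) O).eventually hsub.eventually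
  have e2 : ∀ᶠ z in 𝓝 O, z + ex y ∉ C.G a :=
    (by fun_prop : ContinuousAt (fun z : ℂ => z + ex y) O).eventually (notMem_eventually hya)
  obtain ⟨O', hO', h1, h2, h3⟩ := exists_pure h.mb
    (e1.and (e2.and (Metric.ball_mem_nhds O (half_pos hε))))
  obtain ⟨_, ⟨u, hu, rfl⟩, h4, h5⟩ := exists_mixed (a := a) (preconn_arc O' x y)
    ⟨x, left_mem_uIcc, rfl⟩ ⟨y, right_mem_uIcc, rfl⟩ (h1.pure (hO'.circle x)) fun h' => h2 h'.mem
  exact ⟨_, hball O' u h3 ((convex_ball t δ).ordConnected.uIcc_subset hxt hyt hu), h4,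
    hO'.circle u, h5⟩

theorem EndPt.good {O : ℂ} {a b : Fin 5} {t : ℝ} (h : C.EndPt O a b t) :
    C.Good (O + ex t) a b := by
  obtain ⟨s, hst, harc⟩ := h.arc
  refine ⟨h.ne, ?_, ?_, h.near, h.symm.near⟩
  · obtain ⟨x, hx, hxt, hxt', -⟩ := exists_gen_uIcc (C := C) O hst pi_pos
    refine ⟨_, O + ex x, preconn_arc O s t, ⟨t, right_mem_uIcc, rfl⟩, ⟨x, hx, rfl⟩, fun h' => ?_,
      by rintro _ ⟨x, hx, rfl⟩; exact (harc x hx).1, by rintro _ ⟨x, hx, rfl⟩; exact (harc x hx).2⟩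
    have h' := add_left_cancel h'
    rw [abs_lt] at hxt'
    rcases lt_or_gt_of_ne hxt with h1 | h1
    · exact ex_ne (t := x) (η := t - x) (by linarith) (by linarith [pi_pos]) (by simp [h'])
    · exact ex_ne (t := t) (η := x - t) (by linarith) (by linarith [pi_pos]) (by simp [h'])
  · refine frequently_iff.2 fun {U} hU => ?_
    obtain ⟨δ, hδ, hU⟩ := Metric.mem_nhds_iff.1
      ((continuous_const.add continuous_ex).continuousAt.preimage_mem_nhds (x := t) hU)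
    obtain ⟨x, hx, -, hxt, hg⟩ := exists_gen_uIcc (C := C) O hst hδ
    exact ⟨_, hU hxt, (harc x hx).1, (harc x hx).2, hg.sub2 h.ne (harc x hx).1 (harc x hx).2⟩

theorem Good.symm {Q : ℂ} {a b : Fin 5} (h : C.Good Q a b) : C.Good Q b a := by
  obtain ⟨Γ, q, h1, h2, h3, h4, h5, h6⟩ := h.cont
  exact ⟨h.ne.symm, ⟨Γ, q, h1, h2, h3, h4, h6, h5⟩, h.n0.mono fun _ h => ⟨h.2.1, h.1, h.2.2.symm⟩,
    h.nb, h.na⟩

theorem Good.ma {Q : ℂ} {a b : Fin 5} (h : C.Good Q a b) : Q ∈ C.G a := by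
  obtain ⟨Γ, q, h1, h2, h3, h4, h5, h6⟩ := h.cont
  exact h5 h2

theorem Good.not_sub {Q : ℂ} {a b : Fin 5} (h : C.Good Q a b) (t : ℝ) :
    ¬ C.Sub2 (Q + ex t) a b := fun h' => by
  obtain ⟨z, ⟨h1, h2, h3⟩, h4⟩ := (h.n0.and_eventually (near_pure h')).exists
  exact (h4 h3).elim (fun h5 => h.ne (h5 b h2).symm) fun h5 => h.ne (h5 a h1)

/-- a generic point of the circle that avoids two colours different from `a, b` -/
theorem Good.exists_gen {Q : ℂ} {a b d e : Fin 5} (h : C.Good Q a b) (h2 : a ≠ d) (h3 : a ≠ e)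
    (h4 : b ≠ d) (h5 : b ≠ e) (h6 : d ≠ e) :
    ∃ t, (Q + ex t ∉ C.G d ∧ Q + ex t ∉ C.G e) ∧ C.Gen Q t := by
  obtain ⟨Γ, q, g1, g2, g3, g4, g5, g6⟩ := h.cont
  obtain ⟨t, t1, t2⟩ := caseI h.ne h2 h3 h4 h5 h6 g1 g5 g6 g2 g3 g4
  exact exists_gen_near Q ((continuous_const.add continuous_ex).continuousAt.eventually
    ((notMem_eventually t1).and (notMem_eventually t2)))

theorem Gen.three {Q : ℂ} {t : ℝ} {a b r x y : Fin 5} (h : C.Gen Q t) (h1 : a ≠ b) (h2 : a ≠ r)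
    (h3 : b ≠ r) (hall : ∀ k, k = a ∨ k = b ∨ k = x ∨ k = y ∨ k = r) (hx : Q + ex t ∉ C.G x)
    (hy : Q + ex t ∉ C.G y) :
    C.Sub2 (Q + ex t) a b ∨ C.Sub2 (Q + ex t) a r ∨ C.Sub2 (Q + ex t) b r := by
  by_cases hr : Q + ex t ∈ C.G r
  · by_cases hb : Q + ex t ∈ C.G b
    · exact Or.inr (Or.inr (h.sub2 h3 hb hr))
    · refine Or.inr (Or.inl fun k hk => ?_)
      rcases hall k with rfl | rfl | rfl | rfl | rfl <;> simp_all
  · refine Or.inl fun k hk => ?_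
    rcases hall k with rfl | rfl | rfl | rfl | rfl <;> simp_all

theorem Good.star_aux {Q : ℂ} {a b r x y : Fin 5} (h : C.Good Q a b) (h2 : a ≠ r)
    (hall : ∀ k, k = a ∨ k = b ∨ k = x ∨ k = y ∨ k = r) (hx : Q ∉ C.G x) (hy : Q ∉ C.G y) (t : ℝ) :
    ¬ C.Sub2 (Q + ex t) a r := fun h' => by
  obtain ⟨z, ⟨h1, h3, h4⟩, h5, h6, h7⟩ := (h.na.and_eventually
    ((near_pure h').and ((notMem_eventually hx).and (notMem_eventually hy)))).exists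
  refine (h5 fun k hk => ?_).elim h4 fun h8 => h2 (h8 a h1)
  rcases hall k with rfl | rfl | rfl | rfl | rfl <;> simp_all

theorem Good.star {Q : ℂ} {a b x y : Fin 5} (h : C.Good Q a b) (hxy : x ≠ y) (hx : Q ∉ C.G x)
    (hy : Q ∉ C.G y) : False := by
  have h2 : a ≠ x := fun e => hx (e ▸ h.ma)
  have h3 : a ≠ y := fun e => hy (e ▸ h.ma)
  have h4 : b ≠ x := fun e => hx (e ▸ h.symm.ma)
  have h5 : b ≠ y := fun e => hy (e ▸ h.symm.ma)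
  obtain ⟨r, r1, r2, -, -, hall⟩ := fifth h.ne h2 h3 h4 h5 hxy
  obtain ⟨t, ⟨t1, t2⟩, hg⟩ := h.exists_gen h2 h3 h4 h5 hxy
  rcases hg.three h.ne r1.symm r2.symm hall t1 t2 with h' | h' | h'
  · exact h.not_sub t h'
  · exact h.star_aux r1.symm hall hx hy t h'
  · exact h.symm.star_aux r2.symm (fun k => by have := hall k; tauto) hx hy t h'

theorem ext_arc {O : ℂ} {p q : Fin 5} (hpq : p ≠ q) (hp : O ∈ C.G p) (hq : O ∈ C.G q) {α β t : ℝ}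
    (ht : t ∈ Ioo α β) (h1 : C.In O p t) (h2 : C.In O q t)
    (h : ∀ s ∈ Ioo α β, ¬ C.EndPt O p q s) :
    ∀ s ∈ Icc α β, O + ex s ∈ C.G p ∧ O + ex s ∈ C.G q := by
  have c : Continuous fun s => O + ex s := continuous_const.add continuous_ex
  refine ext_Icc (S := {s | O + ex s ∈ C.G p ∧ O + ex s ∈ C.G q})
    (((C.closed p).preimage c).inter ((C.closed q).preimage c)) ht (h1.and h2) fun s hs hst hS => ?_
  by_contra h'
  exact h s hs ⟨hpq, hp, hq, ⟨t, hst.symm, hS⟩, fun h'' => h' (h''.1.and h''.2)⟩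

theorem max_side {O : ℂ} {p q : Fin 5} (hpq : p ≠ q) (hp : O ∈ C.G p) (hq : O ∈ C.G q) {t σ : ℝ}
    (hσ : σ = 1 ∨ σ = -1) (h1 : C.In O p t) (h2 : C.In O q t) :
    ∃ β > 0, (∀ x ∈ uIcc t (t + σ * β), O + ex x ∈ C.G p ∧ O + ex x ∈ C.G q) ∧
      C.EndPt O p q (t + σ * β) := by
  have c : Continuous fun x : ℝ => t + σ * x := by fun_prop
  have hU : IsOpen {x : ℝ | C.In O p (t + σ * x) ∧ C.In O q (t + σ * x)} :=
    isOpen_iff_mem_nhds.2 fun x hx =>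
      c.continuousAt.eventually ((In.eventually hx.1).and (In.eventually hx.2))
  have hpi : 0 < π / 3 := by linarith [pi_pos]
  obtain ⟨β, ⟨hβ, hβ'⟩, hmin⟩ := (isCompact_Icc.inter_right hU.isClosed_compl).exists_isLeast
    (s := Icc 0 (π / 3) ∩ {x : ℝ | C.In O p (t + σ * x) ∧ C.In O q (t + σ * x)}ᶜ)
    ⟨π / 3, ⟨hpi.le, le_rfl⟩, fun h => by
      rcases hσ with rfl | rfl
      · exact h1.add (by simpa using In.mem h.1)
      · exact h1.sub (by simpa [sub_eq_add_neg] using In.mem h.1)⟩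
  have h0 : 0 < β := lt_of_le_of_ne hβ.1 (by rintro rfl; exact hβ' (by simpa using ⟨h1, h2⟩))
  have c' : Continuous fun x => O + ex (t + σ * x) := continuous_const.add (continuous_ex.comp c)
  have hin : ∀ x ∈ Icc 0 β, O + ex (t + σ * x) ∈ C.G p ∧ O + ex (t + σ * x) ∈ C.G q := by
    rw [← closure_Ico h0.ne]
    refine (((C.closed p).preimage c').inter ((C.closed q).preimage c')).closure_subset_iff.2
      fun x hx => ?_
    by_contra h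
    exact not_le.2 hx.2 (hmin ⟨⟨hx.1, hx.2.le.trans hβ.2⟩, fun h' => h ⟨h'.1.mem, h'.2.mem⟩⟩)
  have harc : ∀ x ∈ uIcc t (t + σ * β), O + ex x ∈ C.G p ∧ O + ex x ∈ C.G q := by
    intro x hx
    rcases hσ with rfl | rfl
    · rw [uIcc_of_le (by linarith)] at hx
      simpa using hin (x - t) ⟨by linarith [hx.1], by linarith [hx.2]⟩
    · rw [uIcc_of_ge (by linarith)] at hx
      simpa using hin (t - x) ⟨by linarith [hx.2], by linarith [hx.1]⟩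
  refine ⟨β, h0, harc, hpq, hp, hq, ⟨t, ?_, harc⟩, hβ'⟩
  rcases hσ with rfl | rfl <;> intro h <;> linarith

theorem max_arc {O : ℂ} {p q : Fin 5} (hpq : p ≠ q) (hp : O ∈ C.G p) (hq : O ∈ C.G q) {t : ℝ}
    (h1 : C.In O p t) (h2 : C.In O q t) :
    ∃ α β, α < β ∧ (∀ x ∈ Icc α β, O + ex x ∈ C.G p ∧ O + ex x ∈ C.G q) ∧
      C.EndPt O p q α ∧ C.EndPt O p q β := by
  obtain ⟨x, hx, a1, e1⟩ := max_side hpq hp hq (Or.inl rfl) h1 h2
  obtain ⟨y, hy, a2, e2⟩ := max_side hpq hp hq (Or.inr rfl) h1 h2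
  rw [uIcc_of_le (by linarith)] at a1
  rw [uIcc_of_ge (by linarith)] at a2
  exact ⟨_, _, by linarith, fun s hs => (le_total s t).elim (fun h => a2 s ⟨hs.1, h⟩)
    fun h => a1 s ⟨h, hs.2⟩, e2, e1⟩

theorem Sub2.in {Q : ℂ} {i j : Fin 5} {t : ℝ} (h : C.Sub2 (Q + ex t) i j) (hj : Q ∈ C.G j) :
    C.In Q i t :=
  ((continuous_const.add continuous_ex).continuousAt.eventually h.eventually).mono fun s hs =>
    by_contra fun h' => not_pure_circle hj s (hs.symm.pure h')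

def Av (C : Cfg) (Q : ℂ) (i : Fin 5) (ψ : ℝ) : Prop := ∀ᶠ s : ℝ in 𝓝[>] 0, Q + s * ex ψ ∉ C.G i

def Ray (C : Cfg) (Q : ℂ) (i : Fin 5) (ψ : ℝ) : Prop := ∀ᶠ s : ℝ in 𝓝[>] 0, Q + s * ex ψ ∈ C.G i

theorem tendsto_ray (Q : ℂ) (ψ : ℝ) : Tendsto (fun s : ℝ => Q + s * ex ψ) (𝓝[>] 0) (𝓝 Q) :=
  tendsto_nhdsWithin_of_tendsto_nhds
    ((by fun_prop : Continuous fun s : ℝ => Q + s * ex ψ).tendsto' _ _ (by simp))

theorem av_of_notMem {Q : ℂ} {i : Fin 5} (h : Q ∉ C.G i) (ψ : ℝ) : C.Av Q i ψ :=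
  (tendsto_ray Q ψ).eventually (notMem_eventually h)

theorem av_of_arc {Q : ℂ} {i : Fin 5} {t₁ t₂ ψ : ℝ} (h : ∀ x ∈ uIcc t₁ t₂, Q + ex x ∈ C.G i)
    (h1 : 0 < cos (t₁ - ψ)) (h2 : cos (t₂ - ψ) ≤ 0) : C.Av Q i ψ := by
  filter_upwards [Ioo_mem_nhdsGT h1] with s hs
  exact lune h (by nlinarith [hs.1, hs.2]) (by nlinarith [hs.1])

theorem In.av {Q : ℂ} {i : Fin 5} {t ψ : ℝ} (h : C.In Q i t) (h0 : cos (t - ψ) = 0) :
    C.Av Q i ψ := by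
  obtain ⟨ε, hε, h⟩ := h.exists
  obtain ⟨η, h1, h2, h3⟩ : ∃ η : ℝ, 0 < η ∧ η < ε ∧ η < π :=
    exists_small ((gt_mem_nhds hε).and (gt_mem_nhds pi_pos))
  have hs := sin_pos_of_pos_of_lt_pi h1 h3
  have h4 := sin_sq_add_cos_sq (t - ψ)
  rw [h0] at h4
  rcases lt_or_gt_of_ne (show sin (t - ψ) ≠ 0 by intro h; rw [h] at h4; norm_num at h4) with h5 | h5
  · refine av_of_arc (t₁ := t + η) (t₂ := t) (fun x hx => h x ?_) ?_ h0.le
    · rw [uIcc_of_ge (by linarith)] at hx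
      exact abs_lt.2 ⟨by linarith [hx.1], by linarith [hx.2]⟩
    · rw [show t + η - ψ = (t - ψ) + η by ring, cos_add, h0]; nlinarith
  · refine av_of_arc (t₁ := t - η) (t₂ := t) (fun x hx => h x ?_) ?_ h0.le
    · rw [uIcc_of_le (by linarith)] at hx
      exact abs_lt.2 ⟨by linarith [hx.1], by linarith [hx.2]⟩
    · rw [show t - η - ψ = (t - ψ) - η by ring, cos_sub, h0]; nlinarith

theorem Ray.not_av {Q : ℂ} {i : Fin 5} {ψ : ℝ} (h : C.Ray Q i ψ) (h' : C.Av Q i ψ) : False := by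
  obtain ⟨s, h1, h2⟩ := (h.and h').exists
  exact h2 h1

/-- a short segment of a ray together with the position of its endpoint -/
theorem Ray.seg {Q : ℂ} {i : Fin 5} {ψ : ℝ} (h : C.Ray Q i ψ) (hQ : Q ∈ C.G i) (t : ℝ) :
    ∃ (Γ : Set ℂ) (q : ℂ), IsPreconnected Γ ∧ Γ ⊆ C.G i ∧ Q ∈ Γ ∧ q ∈ Γ ∧
      (0 < cos (t - ψ) → ‖Q + ex t - q‖ < 1) ∧ (cos (t - ψ) < 0 → 1 < ‖Q + ex t - q‖) := by
  obtain ⟨ε, hε, h⟩ := (nhdsGT_basis (0 : ℝ)).eventually_iff.1 h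
  obtain ⟨s, h1, h2, h3⟩ : ∃ s : ℝ, 0 < s ∧ s < ε ∧ (0 < cos (t - ψ) → s < cos (t - ψ)) := by
    by_cases h : 0 < cos (t - ψ)
    · obtain ⟨s, h1, h2, h3⟩ := exists_small ((gt_mem_nhds hε).and (gt_mem_nhds h))
      exact ⟨s, h1, h2, fun _ => h3⟩
    · exact ⟨ε / 2, by linarith, by linarith, fun h' => absurd h' h⟩
  refine ⟨(fun x : ℝ => Q + x * ex ψ) '' Icc 0 s, Q + s * ex ψ,
    isPreconnected_Icc.image _ (by fun_prop : Continuous _).continuousOn, ?_,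
    ⟨0, ⟨le_rfl, h1.le⟩, by simp⟩, ⟨s, ⟨h1.le, le_rfl⟩, rfl⟩, fun h4 => ?_, fun h4 => ?_⟩
  · rintro _ ⟨x, hx, rfl⟩
    rcases hx.1.eq_or_lt with rfl | h0
    · simpa using hQ
    · exact h ⟨h0, hx.2.trans_lt h2⟩
  · rw [norm_sub_rev]; apply lt_one_of_sq; rw [nsq_ray]; nlinarith [h3 h4]
  · rw [norm_sub_rev]; apply one_lt_of_sq; rw [nsq_ray]; nlinarith

theorem two_ray {Q : ℂ} {i : Fin 5} {ψ₁ ψ₂ t : ℝ} (hQ : Q ∈ C.G i) (h1 : C.Ray Q i ψ₁)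
    (h2 : C.Ray Q i ψ₂) (h : cos (t - ψ₁) * cos (t - ψ₂) < 0) : Q + ex t ∉ C.G i := by
  obtain ⟨Γ₁, q₁, a1, a2, a3, a4, a5, a6⟩ := h1.seg hQ t
  obtain ⟨Γ₂, q₂, b1, b2, b3, b4, b5, b6⟩ := h2.seg hQ t
  have hΓ := a1.union Q a3 b3 b1
  rcases mul_neg_iff.1 h with h | h
  · exact sweep hΓ (union_subset a2 b2) (Or.inl a4) (Or.inr b4) (a5 h.1) (b6 h.2)
  · exact sweep hΓ (union_subset a2 b2) (Or.inr b4) (Or.inl a4) (b5 h.2) (a6 h.1)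

theorem side {Q : ℂ} {i j : Fin 5} {ω ψ t : ℝ} (hs : C.Sub2 (Q + ex t) i j) (hQ : Q ∈ C.G j)
    (hr : C.Ray Q j ω) (h : 0 < cos (t - ω) * cos (t - ψ)) : C.Av Q i ψ := by
  obtain ⟨Γ, q, a1, a2, a3, a4, a5, a6⟩ := hr.seg hQ t
  have T : Tendsto (fun s : ℝ => Q + s * ex ψ + ex t) (𝓝[>] 0) (𝓝 (Q + ex t)) :=
    (tendsto_ray Q ψ).add_const _
  have e1 := T.eventually hs.eventually
  have key : ∀ s : ℝ, ‖Q + s * ex ψ + ex t - Q‖ ^ 2 = s ^ 2 + 1 + 2 * s * cos (t - ψ) := by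
    intro s
    have := nsq2 s 1 ψ t
    rw [← cos_neg, neg_sub] at this
    simp only [Complex.ofReal_one, one_mul] at this
    rw [add_assoc, add_sub_cancel_left, this]; ring
  have fin : ∀ s : ℝ, C.Sub2 (Q + s * ex ψ + ex t) i j → Q + s * ex ψ + ex t ∉ C.G j →
      Q + s * ex ψ ∉ C.G i := fun s h1 h2 => (h1.pure h2).notMem (norm_rad _ _)
  rcases mul_pos_iff.1 h with h | h
  · have e2 := (T.sub_const q).norm.eventually_lt tendsto_const_nhds (a5 h.1)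
    filter_upwards [e1, e2, self_mem_nhdsWithin] with s s1 s2 s3
    have s3 : 0 < s := s3
    exact fin s s1 (sweep a1 a2 a4 a3 s2 (one_lt_of_sq (by rw [key]; nlinarith [h.2])))
  · have e2 := tendsto_const_nhds.eventually_lt (T.sub_const q).norm (a6 h.1)
    filter_upwards [e1, e2, Ioo_mem_nhdsGT (neg_pos.2 h.2)] with s s1 s2 s3
    exact fin s s1 (sweep a1 a2 a3 a4 (lt_one_of_sq (by rw [key]; nlinarith [s3.1, s3.2])) s2)

theorem ray_or {Q : ℂ} {b c : Fin 5} {μ ψ : ℝ} (hbc : b ≠ c) (hμ : C.Sub2 (Q + ex μ) b c)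
    (h : ∀ᶠ s : ℝ in 𝓝[>] 0, C.Sub2 (Q + s * ex ψ) b c) : C.Ray Q b ψ ∨ C.Ray Q c ψ := by
  obtain ⟨ε, hε, h⟩ := (nhdsGT_basis (0 : ℝ)).eventually_iff.1
    (h.and ((tendsto_ray Q ψ).eventually (near_pure hμ)))
  have := pure_or_pure (C := C) hbc (isPreconnected_Ioo.image (fun x : ℝ => Q + x * ex ψ)
    (s := Ioo 0 ε) (by fun_prop : Continuous _).continuousOn)
    (by rintro _ ⟨x, hx, rfl⟩; exact (h hx).2 (h hx).1)
  exact this.imp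
    (fun h => Filter.Eventually.mono (Ioo_mem_nhdsGT hε) fun s hs => (h _ ⟨s, hs, rfl⟩).mem)
    fun h => Filter.Eventually.mono (Ioo_mem_nhdsGT hε) fun s hs => (h _ ⟨s, hs, rfl⟩).mem

theorem not_two_opposite {Q : ℂ} {b : Fin 5} {μ ψ : ℝ} (hQ : Q ∈ C.G b) (hμ : C.In Q b μ)
    (h1 : C.Ray Q b ψ) (h2 : C.Ray Q b (ψ + π)) : False := by
  have key : ∀ t, cos (t - ψ) ≠ 0 → Q + ex t ∉ C.G b := fun t ht =>
    two_ray hQ h1 h2 (by
      rw [← sub_sub, cos_sub_pi]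
      nlinarith [mul_self_pos.2 ht])
  by_cases h : cos (μ - ψ) = 0
  · exact h1.not_av (hμ.av h)
  · exact key μ h hμ.mem

end Cfg

end Vale.Agent.P032
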