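import Vale.Agent.P032.D4

/-! Part D: endpoints of two-colour arcs carry all five colours. -/

namespace Vale.Agent.P032

open Filter Topology Real Set

theorem words {A B E : ℤ → Prop} (cov : ∀ k, A k ∨ B k ∨ E k) 
    (b1 : ∀ k, B k → ¬ B (k + 1)) (e1 : ∀ k, E k → ¬ E (k + 1)) (a2 : ∀ k, A k → ¬ A (k + 2))
    (b2 : ∀ k, B k → ¬ B (k + 2)) (ab : ∀ k, A k → ¬ B (k + 3))
    (pa : ∀ k, A k → A (k + 6)) : (A 0 → A 3) ∧ (A 0 ∨ A 1 ∨ A 2) := by
  constructor
  · intro h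
    have h2 : ¬ A 2 := a2 0 h
    have h4 : ¬ A 4 := fun h' => a2 4 h' (pa 0 h)
    have h3 : ¬ B 3 := ab 0 h
    by_contra h3'
    have e3 : E 3 := ((cov 3).resolve_left h3').resolve_left h3
    have g2 : B 2 := ((cov 2).resolve_left h2).resolve_right fun h' => e1 2 h' e3
    have g4 : B 4 := ((cov 4).resolve_left h4).resolve_right (e1 3 e3)
    exact b2 2 g2 g4
  · by_contra h
    push Not at h
    obtain ⟨h0, h1, h2⟩ := h
    rcases (cov 1).resolve_left h1 with g | g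
    · have e0 : E 0 := ((cov 0).resolve_left h0).resolve_left fun h' => b1 0 h' g
      have e2 : E 2 := ((cov 2).resolve_left h2).resolve_left (b1 1 g)
      have a3 : A 3 := ((cov 3).resolve_right fun h' => h'.elim (b2 1 g) (e1 2 e2))
      have a5 : A (-1) := ((cov (-1)).resolve_right fun h' =>
        h'.elim (fun h'' => b2 (-1) h'' g) fun h'' => e1 (-1) h'' e0)
      exact a2 3 a3 (pa (-1) a5)
    · exact b2 0 (((cov 0).resolve_left h0).resolve_right fun h' => e1 0 h' g)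
        (((cov 2).resolve_left h2).resolve_right (e1 1 g))

namespace Cfg

structure Four (C : Cfg) (Q : ℂ) (a b c d e : Fin 5) : Prop where
  ab : a ≠ b
  ac : a ≠ c
  ad : a ≠ d
  bc : b ≠ c
  bd : b ≠ d
  cd : c ≠ d
  all : ∀ k, k = a ∨ k = b ∨ k = c ∨ k = d ∨ k = e
  ma : Q ∈ C.G a
  mb : Q ∈ C.G b
  mc : Q ∈ C.G c
  md : Q ∈ C.G d
  me : Q ∉ C.G e
  u1 : ∃ t, C.Sub2 (Q + ex t) b c
  u2 : ∃ t, C.Sub2 (Q + ex t) a d
  nab : ∀ t, ¬ C.Sub2 (Q + ex t) a b
  nac : ∀ t, ¬ C.Sub2 (Q + ex t) a c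
  nbd : ∀ t, ¬ C.Sub2 (Q + ex t) b d

variable {C : Cfg} {Q : ℂ} {a b c d e : Fin 5}

theorem in_add_two_pi {O : ℂ} {i : Fin 5} {t : ℝ} (h : C.In O i t) : C.In O i (t + 2 * π) := by
  have c : ContinuousAt (fun s : ℝ => s - 2 * π) (t + 2 * π) := by fun_prop
  refine (c.eventually (by rw [add_sub_cancel_right]; exact h :
    ∀ᶠ s in 𝓝 (t + 2 * π - 2 * π), O + ex s ∈ C.G i)).mono fun s hs => ?_
  rwa [← ex_add_two_pi, sub_add_cancel] at hs

theorem in_sub_two_pi {O : ℂ} {i : Fin 5} {t : ℝ} (h : C.In O i (t + 2 * π)) : C.In O i t := by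
  have c : ContinuousAt (fun s : ℝ => s + 2 * π) t := by fun_prop
  exact (c.eventually h).mono fun s hs => by rwa [ex_add_two_pi] at hs

theorem Four.swap (F : C.Four Q a b c d e) : C.Four Q b a d c e :=
  ⟨F.ab.symm, F.bd, F.bc, F.ad, F.ac, F.cd.symm, fun k => by have := F.all k; tauto, F.mb, F.ma,
    F.md, F.mc, F.me, F.u2, F.u1, fun t h => F.nab t h.symm, F.nbd, F.nac⟩

theorem Four.all_av (F : C.Four Q a b c d e) {ψ : ℝ} (h1 : C.Av Q a ψ) (h2 : C.Av Q b ψ)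
    (h3 : C.Av Q c ψ) (h4 : C.Av Q d ψ) : False := by
  obtain ⟨s, s1, s2, s3, s4, s5⟩ :=
    (h1.and (h2.and (h3.and (h4.and (av_of_notMem F.me ψ))))).exists
  obtain ⟨k, hk⟩ := C.cover (Q + s * ex ψ)
  rcases F.all k with rfl | rfl | rfl | rfl | rfl <;> contradiction

theorem Four.rays (F : C.Four Q a b c d e) {t : ℝ} (h : C.Sub2 (Q + ex t) a d) :
    ∃ ω, cos (t - ω) = 0 ∧ C.Ray Q b ω ∧ C.Ray Q c (ω + π) := by
  obtain ⟨μ, hμ⟩ := F.u1
  have key : ∀ ψ, cos (t - ψ) = 0 → C.Ray Q b ψ ∨ C.Ray Q c ψ := by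
    intro ψ hψ
    refine ray_or F.bc hμ ?_
    filter_upwards [(h.in F.md).av hψ, (h.symm.in F.ma).av hψ, av_of_notMem F.me ψ] with s s1 s2 s3
    intro k hk
    rcases F.all k with rfl | rfl | rfl | rfl | rfl <;> simp_all
  have c1 : cos (t - (t + π / 2)) = 0 := by simp
  have c2 : cos (t - (t + π / 2 + π)) = 0 := by rw [← sub_sub, cos_sub_pi, c1, neg_zero]
  rcases key _ c1 with h1 | h1 <;> rcases key _ c2 with h2 | h2
  · exact (not_two_opposite F.mb (hμ.in F.mc) h1 h2).elim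
  · exact ⟨_, c1, h1, h2⟩
  · refine ⟨_, c2, h2, ?_⟩
    unfold Ray at h1 ⊢
    rwa [add_assoc, ← two_mul, ex_add_two_pi]
  · exact (not_two_opposite F.mc (hμ.symm.in F.mb) h1 h2).elim

theorem Four.anti (F : C.Four Q a b c d e) {s t : ℝ} (h1 : C.Sub2 (Q + ex s) a d)
    (h2 : C.Sub2 (Q + ex t) b c) : sin (t - s) ≠ 0 := by
  intro h
  have c1 : cos (s - (s + π / 2)) = 0 := by simp
  have c2 : cos (t - (s + π / 2)) = 0 := by rw [← sub_sub, cos_sub_pi_div_two, h]
  exact F.all_av ((h1.in F.md).av c1) ((h2.in F.mc).av c2) ((h2.symm.in F.mb).av c2)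
    ((h1.symm.in F.ma).av c1)

theorem cos_of_perp {t ω : ℝ} (h : cos (t - ω) = 0) (x : ℝ) :
    cos (x - ω) = -(sin (t - ω) * sin (x - t)) := by
  rw [show x - ω = (x - t) + (t - ω) by ring, cos_add, h]; ring

theorem sin_sq_of_perp {x : ℝ} (h : cos x = 0) : sin x ^ 2 = 1 := by
  have := sin_sq_add_cos_sq x
  rw [h] at this
  linarith

theorem Four.ncd (F : C.Four Q a b c d e) (ν : ℝ) : ¬ C.Sub2 (Q + ex ν) c d := by
  intro h0
  obtain ⟨l, hl⟩ := F.u2
  obtain ⟨μ, hμ⟩ := F.u1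
  have hX := F.anti hl hμ
  obtain ⟨ωb, b0, b1, b2⟩ := F.rays hl
  obtain ⟨ωa, a0, a1, a2⟩ := F.swap.rays hμ
  have hcount : ((range fun n : ℤ => l + n * π) ∪ range fun n : ℤ => μ + n * π).Countable :=
    (countable_range _).union (countable_range _)
  obtain ⟨ν, hν', hν⟩ := (hcount.dense_compl ℝ).exists_mem_open
    (U := {t | C.Sub2 (Q + ex t) c d}) (isOpen_iff_mem_nhds.2 fun t ht =>
      (continuous_const.add continuous_ex).continuousAt.eventually (Sub2.eventually ht)) ⟨ν, h0⟩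
  replace hν : C.Sub2 (Q + ex ν) c d := hν
  have hY : sin (ν - l) ≠ 0 := fun h => by
    obtain ⟨n, hn⟩ := sin_eq_zero_iff.1 h
    exact hν' (Or.inl ⟨n, by simp only; linarith⟩)
  have hZ : sin (ν - μ) ≠ 0 := fun h => by
    obtain ⟨n, hn⟩ := sin_eq_zero_iff.1 h
    exact hν' (Or.inr ⟨n, by simp only; linarith⟩)
  have k1 : ¬ 0 < cos (ν - (ωa + π)) * cos (ν - (ωb + π)) := fun h =>
    b2.not_av (side hν F.md a2 h)
  have k2 : ∀ ψ, cos (ν - ψ) = 0 → ¬ (0 < cos (l - (ωa + π)) * cos (l - ψ) ∧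
      0 < cos (μ - (ωb + π)) * cos (μ - ψ)) := fun ψ hψ h =>
    F.all_av (side hl F.md a2 h.1) (side hμ F.mc b2 h.2) ((hν.in F.md).av hψ)
      ((hν.symm.in F.mc).av hψ)
  have c1 : cos (ν - (ν + π / 2)) = 0 := by simp
  have c2 : cos (ν - (ν - π / 2)) = 0 := by simp
  have k3 := k2 _ c1
  have k4 := k2 _ c2
  simp only [← sub_sub, cos_sub_pi, cos_sub_pi_div_two] at k1 k3
  simp only [← sub_sub, ← sub_add, cos_sub_pi, cos_add_pi_div_two] at k4
  rw [cos_of_perp a0, cos_of_perp b0] at k1 k3 k4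
  have ea := sin_sq_of_perp a0
  have eb := sin_sq_of_perp b0
  rw [show l - μ = -(μ - l) by ring, show l - ν = -(ν - l) by ring, show μ - ν = -(ν - μ) by ring,
    sin_neg, sin_neg, sin_neg] at k3 k4
  generalize sin (μ - l) = X at *
  generalize sin (ν - l) = Y at *
  generalize sin (ν - μ) = Z at *
  generalize sin (μ - ωa) = εa at *
  generalize sin (l - ωb) = εb at *
  have hu : εa * X * Y ≠ 0 := mul_ne_zero (mul_ne_zero (fun h => by simp [h] at ea) hX) hY
  have hv : εb * X * Z ≠ 0 := mul_ne_zero (mul_ne_zero (fun h => by simp [h] at eb) hX) hZ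
  have hprod : 0 < (εa * X * Y) * (εb * X * Z) := by
    rcases lt_or_gt_of_ne hu with hu | hu <;> rcases lt_or_gt_of_ne hv with hv | hv
    · exact mul_pos_of_neg_of_neg hu hv
    · exact absurd ⟨by linarith, by linarith⟩ k4
    · exact absurd ⟨by linarith, by linarith⟩ k3
    · exact mul_pos hu hv
  have hX2 : 0 < X ^ 2 := by positivity
  push Not at k1
  nlinarith

theorem Four.cover (F : C.Four Q a b c d e) {t : ℝ} (h : C.Gen Q t) :
    C.Sub2 (Q + ex t) b c ∨ C.Sub2 (Q + ex t) a d ∨ C.In Q e t := by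
  by_cases he : Q + ex t ∈ C.G e
  · exact Or.inr (Or.inr (h e he))
  have np : ∀ i, ¬ C.Pure (Q + ex t) i := by
    intro i hi
    rcases F.all i with rfl | rfl | rfl | rfl | rfl
    · exact not_pure_circle F.ma t hi
    · exact not_pure_circle F.mb t hi
    · exact not_pure_circle F.mc t hi
    · exact not_pure_circle F.md t hi
    · exact he hi.mem
  obtain ⟨i, j, hij, hi, hj, hs⟩ := h.pair np
  have n1 := F.nab t
  have n2 := F.nac t
  have n3 := F.nbd t
  have n4 := F.ncd t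
  have hs' := hs.symm
  rcases F.all i with rfl | rfl | rfl | rfl | rfl <;>
    rcases F.all j with rfl | rfl | rfl | rfl | rfl <;> tauto

theorem ext_left {O : ℂ} {p q x y : Fin 5} (hpq : p ≠ q) (hp : O ∈ C.G p) (hq : O ∈ C.G q)
    {α β : ℝ} (hαβ : α < β) (h1 : C.In O p α) (h2 : C.In O q α) (hxy : x ≠ y)
    (h : ∀ s ∈ Ioo α β, O + ex s ∉ C.G x ∧ O + ex s ∉ C.G y) :
    ∀ s ∈ Icc α β, O + ex s ∈ C.G p ∧ O + ex s ∈ C.G q := by
  obtain ⟨t, ⟨t1, t2⟩, ht⟩ := (((h1.eventually.and h2.eventually).filter_mono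
    (nhdsWithin_le_nhds (s := Ioi α))).and (Ioo_mem_nhdsGT hαβ)).exists
  exact ext_arc hpq hp hq ht t1 t2 fun s hs he => he.good.star hxy (h s hs).1 (h s hs).2

theorem Four.uq (F : C.Four Q a b c d e) {t t' : ℝ} (h : C.Sub2 (Q + ex t) b c)
    (h' : C.Sub2 (Q + ex t') b c) (h1 : t < t') (h2 : t' < t + π) :
    (∀ s ∈ Icc t t', Q + ex s ∈ C.G b ∧ Q + ex s ∈ C.G c) ∨
      ∀ s ∈ Icc t' (t + π), Q + ex s ∈ C.G b ∧ Q + ex s ∈ C.G c := by
  obtain ⟨ω, a0, a1, a2⟩ := F.swap.rays h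
  obtain ⟨ω', b0, b1, b2⟩ := F.swap.rays h'
  have key : ∀ s, sin (t - ω) * sin (t' - ω') * (sin (s - t) * sin (s - t')) < 0 →
      Q + ex s ∉ C.G a ∧ Q + ex s ∉ C.G d := by
    intro s hs
    have : cos (s - ω) * cos (s - ω') < 0 := by
      rw [cos_of_perp a0, cos_of_perp b0]; linarith
    refine ⟨two_ray F.ma a1 b1 this, two_ray F.md a2 b2 ?_⟩
    simp only [← sub_sub, cos_sub_pi]
    linarith
  have hne : sin (t - ω) * sin (t' - ω') ≠ 0 :=
    mul_ne_zero (fun h => by simpa [h] using sin_sq_of_perp a0)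
      fun h => by simpa [h] using sin_sq_of_perp b0
  rcases lt_or_gt_of_ne hne with hn | hn
  · refine Or.inr (ext_left F.bc F.mb F.mc h2 (h'.in F.mc) (h'.symm.in F.mb) F.ad fun s hs => ?_)
    exact key s (mul_neg_of_neg_of_pos hn (mul_pos
      (sin_pos_of_pos_of_lt_pi (by linarith [hs.1]) (by linarith [hs.2]))
      (sin_pos_of_pos_of_lt_pi (by linarith [hs.1]) (by linarith [hs.2]))))
  · refine Or.inl (ext_left F.bc F.mb F.mc h1 (h.in F.mc) (h.symm.in F.mb) F.ad fun s hs => ?_)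
    exact key s (mul_neg_of_pos_of_neg hn (mul_neg_of_pos_of_neg
      (sin_pos_of_pos_of_lt_pi (by linarith [hs.1]) (by linarith [hs.2]))
      (sin_neg_of_neg_of_neg_pi_lt (by linarith [hs.2]) (by linarith [hs.1]))))

theorem Four.dist1 (F : C.Four Q a b c d e) {t : ℝ} (h : C.Sub2 (Q + ex t) b c) :
    ¬ C.Sub2 (Q + ex (t + π / 3)) b c := fun h' => (h.in F.mc).add (h'.in F.mc).mem

theorem Four.dist2 (F : C.Four Q a b c d e) {t : ℝ} (h : C.Sub2 (Q + ex t) b c) :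
    ¬ C.Sub2 (Q + ex (t + 2 * (π / 3))) b c := fun h' => by
  have hp := pi_pos
  rcases F.uq h h' (by linarith) (by linarith) with h1 | h1
  · linarith [arc_le fun s hs => (h1 s hs).1]
  · exact (h'.in F.mc).add (h1 _ ⟨by linarith, by linarith⟩).1

theorem Four.words (F : C.Four Q a b c d e) {t : ℝ} (h : ∀ k : ℤ, C.Gen Q (t + k * (π / 3))) :
    (C.Sub2 (Q + ex t) b c → C.Sub2 (Q + ex (t + π)) b c) ∧
      (C.Sub2 (Q + ex t) b c ∨ C.Sub2 (Q + ex (t + π / 3)) b c ∨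
        C.Sub2 (Q + ex (t + 2 * (π / 3))) b c) := by
  have e0 : ∀ k n : ℤ, t + ((k + n : ℤ) : ℝ) * (π / 3) = t + k * (π / 3) + n * (π / 3) := by
    intro k n; push_cast; ring
  have e1 : ∀ k : ℤ, t + ((k + 1 : ℤ) : ℝ) * (π / 3) = t + k * (π / 3) + π / 3 := by
    intro k; push_cast; ring
  have e2 : ∀ k : ℤ, t + ((k + 2 : ℤ) : ℝ) * (π / 3) = t + k * (π / 3) + 2 * (π / 3) := by
    intro k; push_cast; ring
  have := P032.words (A := fun k => C.Sub2 (Q + ex (t + k * (π / 3))) b c)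
    (B := fun k => C.Sub2 (Q + ex (t + k * (π / 3))) a d)
    (E := fun k => C.In Q e (t + k * (π / 3))) (fun k => F.cover (h k))
    (fun k hk => by rw [e1]; exact F.swap.dist1 hk)
    (fun k hk hk' => hk.add (by rw [e1] at hk'; exact hk'.mem))
    (fun k hk => by rw [e2]; exact F.dist2 hk) (fun k hk => by rw [e2]; exact F.swap.dist2 hk)
    (fun k hk hk' => F.anti hk' hk (by
      rw [e0, show t + k * (π / 3) - (t + k * (π / 3) + (3 : ℤ) * (π / 3)) = -π by push_cast; ring,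
        sin_neg, sin_pi, neg_zero]))
    (fun k hk => by
      rwa [e0, show ((6 : ℤ) : ℝ) * (π / 3) = 2 * π by push_cast; ring, ex_add_two_pi])
  rw [show t + ((3 : ℤ) : ℝ) * (π / 3) = t + π by push_cast; ring] at this
  simpa using this

theorem Four.per (F : C.Four Q a b c d e) {t : ℝ} (h : C.In Q b t ∧ C.In Q c t) :
    C.In Q b (t + π) ∧ C.In Q c (t + π) := by
  have c0 : Continuous fun s => Q + ex (s + π) :=
    continuous_const.add (continuous_ex.comp (continuous_id.add continuous_const))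
  obtain ⟨U, hU, hUo, htU⟩ := _root_.mem_nhds_iff.1 (h.1.and h.2)
  have hsub : U ⊆ {s | Q + ex (s + π) ∈ C.G b ∧ Q + ex (s + π) ∈ C.G c} := by
    refine ((dense_gen (C := C) Q).open_subset_closure_inter hUo).trans
      ((((C.closed b).preimage c0).inter ((C.closed c).preimage c0)).closure_subset_iff.2 ?_)
    rintro s ⟨hs, hg⟩
    have := (F.words hg).1 (Gen.sub2 (by simpa using hg 0) F.bc (hU hs).1 (hU hs).2)
    exact ⟨(this.in F.mc).mem, (this.symm.in F.mb).mem⟩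
  have c1 : ContinuousAt (fun s : ℝ => s - π) (t + π) := by fun_prop
  have := c1.eventually (show ∀ᶠ s in 𝓝 (t + π - π), s ∈ U by simpa using hUo.mem_nhds htU)
  exact eventually_and.1 (this.mono fun s hs => by simpa using hsub hs)

def Full (C : Cfg) (Q : ℂ) (b c : Fin 5) (γ : ℝ) : Prop :=
  ∀ s ∈ Icc γ (γ + π / 3), Q + ex s ∈ C.G b ∧ Q + ex s ∈ C.G c

theorem Full.in {γ t : ℝ} (h : C.Full Q b c γ) (ht : t ∈ Ioo γ (γ + π / 3)) :
    C.In Q b t ∧ C.In Q c t :=
  ⟨in_of_Icc (fun s hs => (h s hs).1) ht, in_of_Icc (fun s hs => (h s hs).2) ht⟩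

theorem Four.exists_full (F : C.Four Q a b c d e) : ∃ γ, C.Full Q b c γ := by
  have hp := pi_pos
  obtain ⟨μ, hμ⟩ := F.u1
  obtain ⟨γ, δ, h1, h2, e1, e2⟩ := max_arc F.bc F.mb F.mc (hμ.in F.mc) (hμ.symm.in F.mb)
  refine ⟨γ, fun s hs => h2 s ⟨hs.1, hs.2.trans ?_⟩⟩
  by_contra h
  obtain ⟨t, ht, hg⟩ := exists_gen6 (C := C) Q (not_le.1 h)
  obtain ⟨t', t1, t2, ht'⟩ : ∃ t', δ < t' ∧ t' < γ + π ∧ C.Sub2 (Q + ex t') b c := by
    rcases (F.words hg).2 with h | h | h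
    · exact ⟨_, by linarith [ht.1], by linarith [ht.2], h⟩
    · exact ⟨_, by linarith [ht.1], by linarith [ht.2], h⟩
    · exact ⟨_, by linarith [ht.1], by linarith [ht.2], h⟩
  obtain ⟨m, hm, hg'⟩ := exists_gen (C := C) Q h1
  have hm' := h2 m ⟨hm.1.le, hm.2.le⟩
  rcases F.uq (hg'.sub2 F.bc hm'.1 hm'.2) ht' (by linarith [hm.2]) (by linarith [hm.1]) with h3 | h3
  · exact e2.nin ⟨in_of_Icc (fun s hs => (h3 s hs).1) ⟨hm.2, t1⟩,
      in_of_Icc (fun s hs => (h3 s hs).2) ⟨hm.2, t1⟩⟩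
  · have := F.per (t := γ + π) ⟨in_of_Icc (fun s hs => (h3 s hs).1) ⟨t2, by linarith [hm.1]⟩,
      in_of_Icc (fun s hs => (h3 s hs).2) ⟨t2, by linarith [hm.1]⟩⟩
    rw [add_assoc, ← two_mul] at this
    exact e1.nin ⟨in_sub_two_pi this.1, in_sub_two_pi this.2⟩

theorem Four.full_add (F : C.Four Q a b c d e) {γ : ℝ} (h : C.Full Q b c γ) :
    C.Full Q b c (γ + π) := by
  have c0 : Continuous fun s => Q + ex s := continuous_const.add continuous_ex
  have hp := pi_pos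
  unfold Full
  rw [← closure_Ioo (by linarith)]
  refine (((C.closed b).preimage c0).inter ((C.closed c).preimage c0)).closure_subset_iff.2
    fun s hs => ?_
  have := F.per (h.in (t := s - π) ⟨by linarith [hs.1], by linarith [hs.2]⟩)
  rw [sub_add_cancel] at this
  exact ⟨this.1.mem, this.2.mem⟩

theorem Four.full_zsmul (F : C.Four Q a b c d e) {γ : ℝ} (h : C.Full Q b c γ) (n : ℤ) :
    C.Full Q b c (γ + n * π) := by
  induction n using Int.induction_on with
  | zero => simpa using h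
  | succ k ih =>
    have := F.full_add ih
    rwa [show γ + ((k : ℤ) : ℝ) * π + π = γ + (((k : ℤ) + 1 : ℤ) : ℝ) * π by
      push_cast; ring] at this
  | pred k ih =>
    intro s hs
    have := F.full_add ih (s + 2 * π)
    push_cast at this hs
    rw [ex_add_two_pi] at this
    exact this ⟨by linarith [hs.1], by linarith [hs.2]⟩

theorem Four.full_av (F : C.Four Q a b c d e) {γ x : ℝ} (h : C.Full Q b c γ)
    (hx : x ∈ Icc γ (γ + π / 3)) : C.Av Q b (x + π / 2) ∧ C.Av Q c (x + π / 2) := by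
  have hp := pi_pos
  rcases hx.2.lt_or_eq with h1 | h1
  · have a0 : ∀ s ∈ uIcc (γ + π / 3) x, s ∈ Icc γ (γ + π / 3) := by
      rw [uIcc_of_ge h1.le]; exact fun s hs => ⟨hx.1.trans hs.1, hs.2⟩
    have a1 : 0 < cos (γ + π / 3 - (x + π / 2)) := by
      rw [← sub_sub, cos_sub_pi_div_two]
      exact sin_pos_of_pos_of_lt_pi (by linarith) (by linarith [hx.1])
    have a2 : cos (x - (x + π / 2)) ≤ 0 := by simp
    exact ⟨av_of_arc (fun s hs => (h s (a0 s hs)).1) a1 a2,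
      av_of_arc (fun s hs => (h s (a0 s hs)).2) a1 a2⟩
  · have h' := F.full_add h
    have a0 : ∀ s ∈ uIcc (γ + π) (x + π), s ∈ Icc (γ + π) (γ + π + π / 3) := by
      rw [uIcc_of_le (by linarith)]; exact fun s hs => ⟨hs.1, by linarith [hs.2]⟩
    have a1 : 0 < cos (γ + π - (x + π / 2)) :=
      cos_pos_of_mem_Ioo ⟨by linarith, by linarith⟩
    have a2 : cos (x + π - (x + π / 2)) ≤ 0 := by
      rw [show x + π - (x + π / 2) = π / 2 by ring, cos_pi_div_two]
    exact ⟨av_of_arc (fun s hs => (h' s (a0 s hs)).1) a1 a2,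
      av_of_arc (fun s hs => (h' s (a0 s hs)).2) a1 a2⟩

theorem Four.false (F : C.Four Q a b c d e) : False := by
  have hp := pi_pos
  obtain ⟨γ, hγ⟩ := F.exists_full
  obtain ⟨l, hl⟩ := F.u2
  obtain ⟨α, β, h1, h2, e1, e2⟩ := max_arc F.ad F.ma F.md (hl.in F.md) (hl.symm.in F.ma)
  have h3 := arc_le fun s hs => (h2 s hs).1
  have pos : ∀ x y : ℝ, C.EndPt Q a d x → (y = x ∨ y = x - π) → C.Av Q a (y + π / 2) →
      C.Av Q d (y + π / 2) → ∃ n : ℤ, x = γ + n * π + 2 * (π / 3) := by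
    intro x y hx hy v1 v2
    obtain ⟨n, n1, n2⟩ : ∃ n : ℤ, γ + n * π ≤ x ∧ x < γ + n * π + π := by
      refine ⟨⌊(x - γ) / π⌋, ?_, ?_⟩
      · have := (le_div_iff₀ hp).1 (Int.floor_le ((x - γ) / π))
        linarith
      · have := (div_lt_iff₀ hp).1 (Int.lt_floor_add_one ((x - γ) / π))
        linarith
    have f0 := F.full_zsmul hγ n
    have n3 : γ + n * π + π / 3 < x := by
      by_contra n3
      rcases hy with rfl | rfl
      · have := F.full_av f0 ⟨n1, not_lt.1 n3⟩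
        exact F.all_av v1 this.1 this.2 v2
      · have := F.full_av (F.full_zsmul hγ (n - 1)) (x := x - π)
          ⟨by push_cast; linarith, by push_cast; linarith⟩
        exact F.all_av v1 this.1 this.2 v2
    refine ⟨n, le_antisymm (not_lt.1 fun h => ?_) (not_lt.1 fun h => ?_)⟩
    · have := (F.full_add f0).in (t := x + π / 3) ⟨by linarith, by linarith⟩
      exact hx.good.star F.bc (by simpa using this.1.sub) (by simpa using this.2.sub)
    · have := f0.in (t := x - π / 3) ⟨by linarith, by linarith⟩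
      exact hx.good.star F.bc (by simpa using this.1.add) (by simpa using this.2.add)
  have hs : 0 < sin (β - α) := sin_pos_of_pos_of_lt_pi (by linarith) (by linarith)
  have a1 : 0 < cos (β - (α + π / 2)) := by rwa [← sub_sub, cos_sub_pi_div_two]
  have a2 : cos (α - (α + π / 2)) ≤ 0 := by simp
  have b1 : 0 < cos (α - (β - π + π / 2)) := by
    rwa [show α - (β - π + π / 2) = π / 2 - (β - α) by ring, cos_pi_div_two_sub]
  have b2 : cos (β - (β - π + π / 2)) ≤ 0 := by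
    rw [show β - (β - π + π / 2) = π / 2 by ring, cos_pi_div_two]
  have i1 : ∀ s ∈ uIcc β α, s ∈ Icc α β := by rw [uIcc_of_ge h1.le]; exact fun _ h => h
  have i2 : ∀ s ∈ uIcc α β, s ∈ Icc α β := by rw [uIcc_of_le h1.le]; exact fun _ h => h
  obtain ⟨n, hn⟩ := pos α α e1 (Or.inl rfl) (av_of_arc (fun s hs => (h2 s (i1 s hs)).1) a1 a2)
    (av_of_arc (fun s hs => (h2 s (i1 s hs)).2) a1 a2)
  obtain ⟨m, hm⟩ := pos β _ e2 (Or.inr rfl) (av_of_arc (fun s hs => (h2 s (i2 s hs)).1) b1 b2)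
    (av_of_arc (fun s hs => (h2 s (i2 s hs)).2) b1 b2)
  have hnm : n < m := by
    by_contra h
    have : (m : ℝ) ≤ n := by exact_mod_cast not_lt.1 h
    nlinarith
  have : (n : ℝ) + 1 ≤ m := by exact_mod_cast hnm
  nlinarith

theorem Good.not_both (h : C.Good Q a b) (hac : a ≠ c) (had : a ≠ d)
    (hall : ∀ k, k = a ∨ k = b ∨ k = c ∨ k = d ∨ k = e) (he : Q ∉ C.G e) {s t : ℝ}
    (h1 : C.Sub2 (Q + ex s) a c) (h2 : C.Sub2 (Q + ex t) a d) : False := by
  have e1 : ∀ᶠ z in 𝓝 Q, C.Sub2 (z + ex s) a c :=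
    (by fun_prop : ContinuousAt (fun z : ℂ => z + ex s) Q).eventually h1.eventually
  obtain ⟨z, ⟨z1, z2, z3⟩, z4, z5⟩ := (h.na.and_eventually
    (e1.and ((near_pure h2).and (notMem_eventually he)).eventually_nhds)).exists
  have key : ∀ w, w ∈ C.G a → w ∉ C.G b → ¬ C.Pure w a → w ∉ C.G c →
      (C.Sub2 w a d → C.Pure w a ∨ C.Pure w d) ∧ w ∉ C.G e → False := by
    intro w w1 w2 w3 w4 w5
    refine (w5.1 fun k hk => ?_).elim w3 fun h8 => had (h8 a w1)
    rcases hall k with rfl | rfl | rfl | rfl | rfl <;> simp_all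
  by_cases hc : z ∈ C.G c
  · obtain ⟨w, ⟨w1, w2⟩, w3, w4, w5⟩ := gLemma hac (by rw [add_sub_cancel_left, norm_ex]) z4 z1 hc
      (z5.and (notMem_eventually z2))
    exact key w w3 w2 w4 w5 w1
  · exact key z z1 z2 z3 hc z5.self_of_nhds

theorem Good.five (h : C.Good Q a b) (e : Fin 5) : Q ∈ C.G e := by
  by_contra he
  have hae : a ≠ e := fun h' => he (h' ▸ h.ma)
  have hbe : b ≠ e := fun h' => he (h' ▸ h.symm.ma)
  obtain ⟨c, d, cd, ca, cb, ce, da, db, de, hall⟩ := two_others h.ne hae hbe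
  have mc : Q ∈ C.G c := by_contra fun h' => h.star ce h' he
  have md : Q ∈ C.G d := by_contra fun h' => h.star de h' he
  obtain ⟨s, ⟨s1, s2⟩, s3⟩ := h.exists_gen ca.symm hae cb.symm hbe ce
  obtain ⟨t, ⟨t1, t2⟩, t3⟩ := h.exists_gen da.symm hae db.symm hbe de
  have k1 := (s3.three h.ne da.symm db.symm (fun k => by have := hall k; tauto) s1 s2).resolve_left
    (h.not_sub s)
  have k2 := (t3.three h.ne ca.symm cb.symm (fun k => by have := hall k; tauto) t1 t2).resolve_left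
    (h.not_sub t)
  have na : ∀ {s t}, C.Sub2 (Q + ex s) a c → C.Sub2 (Q + ex t) a d → False :=
    h.not_both ca.symm da.symm (fun k => by have := hall k; tauto) he
  have nb : ∀ {s t}, C.Sub2 (Q + ex s) b c → C.Sub2 (Q + ex t) b d → False :=
    h.symm.not_both cb.symm db.symm (fun k => by have := hall k; tauto) he
  rcases k1 with k1 | k1 <;> rcases k2 with k2 | k2
  · exact na k2 k1
  · exact Four.false (e := e) ⟨h.ne, ca.symm, da.symm, cb.symm, db.symm, cd,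
      fun k => by have := hall k; tauto, h.ma, h.symm.ma, mc, md, he, ⟨_, k2⟩, ⟨_, k1⟩, h.not_sub,
      fun _ h' => na h' k1, fun _ h' => nb k2 h'⟩
  · exact Four.false (e := e) ⟨h.ne, da.symm, ca.symm, db.symm, cb.symm, cd.symm,
      fun k => by have := hall k; tauto, h.ma, h.symm.ma, md, mc, he, ⟨_, k1⟩, ⟨_, k2⟩, h.not_sub,
      fun _ h' => na k2 h', fun _ h' => nb h' k1⟩
  · exact nb k2 k1

end Cfg

end Vale.Agent.P032
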