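import Vale.Agent.P032.D5
import Vale.Agent.P032.Continuum

/-! Part D: points with five colours, and the contradiction. -/

namespace Vale.Agent.P032

open Filter Topology Real Set

theorem six_colours {p₀ q₀ p₁ q₁ p₂ q₂ : Fin 5} (h0 : p₀ ≠ q₀) (h1 : p₁ ≠ q₁) (h2 : p₂ ≠ q₂) :
    (∃ i, (i = p₀ ∨ i = q₀) ∧ (i = p₁ ∨ i = q₁)) ∨ (∃ i, (i = p₁ ∨ i = q₁) ∧ (i = p₂ ∨ i = q₂)) ∨
      ∃ i, (i = p₂ ∨ i = q₂) ∧ (i = p₀ ∨ i = q₀) := by
  by_contra h
  simp only [not_or, not_exists, not_and] at h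
  obtain ⟨a, b, c⟩ := h
  have a1 := a p₀ (Or.inl rfl)
  have a2 := a q₀ (Or.inr rfl)
  have b1 := b p₁ (Or.inl rfl)
  have b2 := b q₁ (Or.inr rfl)
  have c1 := c p₂ (Or.inl rfl)
  have c2 := c q₂ (Or.inr rfl)
  omega

namespace Cfg

def Five (C : Cfg) (P : ℂ) : Prop := ∀ i, P ∈ C.G i

def Left (C : Cfg) (P : ℂ) (θ : ℝ) : Prop :=
  C.Five P ∧ C.Five (P + ex θ) ∧ ∃ p q, p ≠ q ∧ ∃ ε > 0,
    ∀ s ∈ Icc (θ - ε) θ, P + ex s ∈ C.G p ∧ P + ex s ∈ C.G q

variable {C : Cfg}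

theorem tame {P : ℂ} (hP : C.Five P) {α β : ℝ} (h : α < β)
    (hn : ∀ t ∈ Ioo α β, ¬ C.Five (P + ex t)) :
    ∃ p q, p ≠ q ∧ ∀ s ∈ Icc α β, P + ex s ∈ C.G p ∧ P + ex s ∈ C.G q := by
  obtain ⟨t, ht, hg⟩ := exists_gen (C := C) P h
  obtain ⟨p, q, hpq, hp, hq, -⟩ := hg.pair fun i => not_pure_circle (hP i) t
  exact ⟨p, q, hpq, ext_arc hpq (hP p) (hP q) ht (hg p hp) (hg q hq)
    fun s hs he => hn s hs he.good.five⟩

theorem Left.shift {P : ℂ} {θ x : ℝ} (h : C.Left P θ) (hx : x = π / 3 ∨ x = -(π / 3)) :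
    C.Left P (θ + x) := by
  obtain ⟨hP, hQ, p, q, -, ε, hε, h⟩ := h
  obtain ⟨p', q', hpq, h'⟩ := tame hP (show θ + x - ε < θ + x by linarith) fun t ht h5 => by
    have := in_of_Icc (fun s hs => (h s hs).1) (t := t - x) ⟨by linarith [ht.1], by linarith [ht.2]⟩
    rcases hx with rfl | rfl
    · exact this.add (by simpa using h5 p)
    · exact this.sub (by simpa using h5 p)
  refine ⟨hP, EndPt.good (a := p') (b := q') ⟨hpq, hP _, hP _, ⟨θ + x - ε, by linarith, ?_⟩, ?_⟩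
    |>.five, p', q', hpq, ε, hε, h'⟩
  · rwa [uIcc_of_le (by linarith)]
  · rintro ⟨h1, -⟩
    rcases hx with rfl | rfl
    · exact h1.sub (by simpa using hQ p')
    · exact h1.add (by simpa using hQ p')

theorem Left.add {P : ℂ} {θ : ℝ} (h : C.Left P θ) : C.Left P (θ + π / 3) := h.shift (Or.inl rfl)

theorem Left.flip {P : ℂ} {θ : ℝ} (h : C.Left P θ) : C.Left (P + ex θ) (θ + π) := by
  have hp := pi_pos
  obtain ⟨-, -, p, q, -, ε, hε, h2⟩ := h.add.add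
  obtain ⟨η, η0, η1, η2⟩ : ∃ η : ℝ, 0 < η ∧ η < ε ∧ η < π / 3 :=
    exists_small ((gt_mem_nhds hε).and (gt_mem_nhds (by linarith)))
  have e1 : P + ex θ + ex (θ + π / 3 + π / 3) = P + ex (θ + π / 3) := by
    rw [← ex_hex (θ + π / 3), add_sub_cancel_right, add_assoc]
  have c : Continuous fun s => ‖P + ex θ + ex s - (P + ex (θ + π / 3 + π / 3 - η))‖ := by
    have := continuous_ex
    fun_prop
  have e2 : ∀ᶠ s in 𝓝 (θ + π / 3 + π / 3),
      ‖P + ex θ + ex s - (P + ex (θ + π / 3 + π / 3 - η))‖ < 1 := by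
    refine c.continuousAt.eventually_lt continuousAt_const (lt_one_of_sq ?_)
    rw [e1, nsq_chord]
    have := cos_lt_cos_of_nonneg_of_le_pi (x := θ + π / 3 + π / 3 - η - (θ + π / 3)) (y := π / 3)
      (by linarith) (by linarith) (by linarith)
    rw [cos_pi_div_three] at this
    linarith
  obtain ⟨δ, δ0, δ1⟩ := Metric.eventually_nhds_iff.1 e2
  obtain ⟨κ, κ0, κ1, κ2⟩ : ∃ κ : ℝ, 0 < κ ∧ κ < δ ∧ κ < π / 3 :=
    exists_small ((gt_mem_nhds δ0).and (gt_mem_nhds (by linarith)))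
  obtain ⟨p', q', hpq, h'⟩ := tame h.2.1 (show θ + π / 3 + π / 3 - κ < θ + π / 3 + π / 3 by linarith)
    fun t ht h5 => by
      refine sweep_arc (p := P) (s := θ + π / 3 + π / 3 - η) (t := θ + π / 3 + π / 3)
        (fun x hx => (h2 x ?_).1) (δ1 (abs_lt.2 ⟨by linarith [ht.1], by linarith [ht.2]⟩))
        (one_lt_of_sq ?_) (h5 p)
      · rw [uIcc_of_le (by linarith)] at hx
        exact ⟨by linarith [hx.1], hx.2⟩
      · have e : P + ex θ + ex t - (P + ex (θ + π / 3 + π / 3)) = ((1 : ℝ) : ℂ) * ex θ +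
            ((1 : ℝ) : ℂ) * ex t + ((-1 : ℝ) : ℂ) * ex (θ + π / 3 + π / 3) := by
          push_cast; ring
        obtain ⟨u, rfl⟩ : ∃ u, t = θ + π / 3 + π / 3 - u := ⟨θ + π / 3 + π / 3 - t, by ring⟩
        have u0 : 0 < u := by linarith [ht.2]
        have u1 : u < π / 3 := by linarith [ht.1]
        rw [e, nsq3, show θ - (θ + π / 3 + π / 3 - u) = -(π - (π / 3 + u)) by ring,
          show θ - (θ + π / 3 + π / 3) = -(π - π / 3) by ring,
          show θ + π / 3 + π / 3 - u - (θ + π / 3 + π / 3) = -u by ring, cos_neg, cos_neg, cos_neg,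
          cos_pi_sub, cos_pi_sub, cos_pi_div_three]
        have a1 := cos_lt_cos_of_nonneg_of_le_pi (x := π / 3) (y := π / 3 + u) (by linarith)
          (by linarith) (by linarith)
        rw [cos_pi_div_three] at a1
        linarith [cos_le_one u]
  have : C.Left (P + ex θ) (θ + π / 3 + π / 3) :=
    ⟨h.2.1, by rw [e1]; exact h.add.2.1, p', q', hpq, κ, κ0, h'⟩
  have := this.add
  rwa [show θ + π / 3 + π / 3 + π / 3 = θ + π by ring] at this

def Br (C : Cfg) (P : ℂ) (θ : ℝ) (i : Fin 5) : Prop :=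
  ∃ ε > 0, ∀ s ∈ Icc 0 ε, P + ex θ + ex (θ + π - s) ∈ C.G i

theorem Left.br {P : ℂ} {θ : ℝ} (h : C.Left P θ) :
    ∃ p q, p ≠ q ∧ ∀ i, i = p ∨ i = q → C.Br P θ i := by
  obtain ⟨-, -, p, q, hpq, ε, hε, h⟩ := h.flip
  refine ⟨p, q, hpq, ?_⟩
  rintro i (rfl | rfl)
  · exact ⟨ε, hε, fun s hs => (h _ ⟨by linarith [hs.2], by linarith [hs.1]⟩).1⟩
  · exact ⟨ε, hε, fun s hs => (h _ ⟨by linarith [hs.2], by linarith [hs.1]⟩).2⟩

theorem Br.conflict {P : ℂ} {θ : ℝ} {i : Fin 5} (h1 : C.Br P θ i)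
    (h2 : C.Br P (θ + π / 3 + π / 3) i) : P + ex (θ + π / 3) ∉ C.G i := by
  have hp := pi_pos
  obtain ⟨ε₁, a0, a1⟩ := h1
  obtain ⟨ε₂, b0, b1⟩ := h2
  obtain ⟨η, η0, η1, η2, η3⟩ : ∃ η : ℝ, 0 < η ∧ η < ε₁ ∧ η < ε₂ ∧ η < π / 3 :=
    exists_small ((gt_mem_nhds a0).and ((gt_mem_nhds b0).and (gt_mem_nhds (by linarith))))
  have pc : ∀ t : ℝ, IsPreconnected ((fun s => P + ex t + ex (t + π - s)) '' Icc 0 η) := fun t =>
    isPreconnected_Icc.image _ (by have := continuous_ex; fun_prop : Continuous _).continuousOn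
  have pm : ∀ t : ℝ, P ∈ (fun s => P + ex t + ex (t + π - s)) '' Icc 0 η := fun t =>
    ⟨0, ⟨le_rfl, η0.le⟩, by simp [ex_add_pi]⟩
  refine sweep ((pc θ).union P (pm _) (pm _) (pc (θ + π / 3 + π / 3))) (union_subset ?_ ?_)
    (Or.inl ⟨η, ⟨η0.le, le_rfl⟩, rfl⟩) (Or.inr ⟨η, ⟨η0.le, le_rfl⟩, rfl⟩) (lt_one_of_sq ?_)
    (one_lt_of_sq ?_)
  · rintro _ ⟨s, hs, rfl⟩
    exact a1 s ⟨hs.1, by linarith [hs.2]⟩
  · rintro _ ⟨s, hs, rfl⟩
    exact b1 s ⟨hs.1, by linarith [hs.2]⟩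
  · rw [← ex_hex (θ + π / 3), add_sub_cancel_right, ← add_assoc, nsq_chord]
    have := cos_lt_cos_of_nonneg_of_le_pi (x := θ + π - η - (θ + π / 3 + π / 3)) (y := π / 3)
      (by linarith) (by linarith) (by linarith)
    rw [cos_pi_div_three] at this
    linarith
  · rw [← ex_hex (θ + π / 3), add_sub_cancel_right, add_comm (ex θ), ← add_assoc,
      ← ex_add_two_pi θ, nsq_chord, show θ + π / 3 + π / 3 + π - η - (θ + 2 * π) = -(π / 3 + η) by
        ring, cos_neg]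
    have := cos_lt_cos_of_nonneg_of_le_pi (x := π / 3) (y := π / 3 + η) (by linarith) (by linarith)
      (by linarith)
    rw [cos_pi_div_three] at this
    linarith

theorem Left.false {P : ℂ} {θ : ℝ} (h : C.Left P θ) : False := by
  obtain ⟨p₀, q₀, n0, b0⟩ := h.br
  obtain ⟨p₁, q₁, n1, b1⟩ := h.add.add.br
  obtain ⟨p₂, q₂, n2, b2⟩ := h.add.add.add.add.br
  rcases six_colours n0 n1 n2 with ⟨i, i1, i2⟩ | ⟨i, i1, i2⟩ | ⟨i, i1, i2⟩
  · exact (b0 i i1).conflict (b1 i i2) (h.add.2.1 i)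
  · exact (b1 i i1).conflict (b2 i i2) (h.add.add.add.2.1 i)
  · refine (b2 i i1).conflict ?_ (h.add.add.add.add.add.2.1 i)
    obtain ⟨ε, hε, h'⟩ := b0 i i2
    refine ⟨ε, hε, fun s hs => ?_⟩
    rw [show θ + π / 3 + π / 3 + π / 3 + π / 3 + π / 3 + π / 3 = θ + 2 * π by ring,
      show θ + 2 * π + π - s = θ + π - s + 2 * π by ring, ex_add_two_pi, ex_add_two_pi]
    exact h' s hs

theorem not_five (P : ℂ) : ¬ C.Five P := fun hP => by
  obtain ⟨t, -, hg⟩ := exists_gen (C := C) P zero_lt_one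
  obtain ⟨p, q, hpq, hp, hq, -⟩ := hg.pair fun i => not_pure_circle (hP i) t
  obtain ⟨α, β, h1, h2, -, e⟩ := max_arc hpq (hP p) (hP q) (hg p hp) (hg q hq)
  exact Left.false (C := C) (P := P) (θ := β)
    ⟨hP, e.good.five, p, q, hpq, β - α, by linarith, by simpa using h2⟩

theorem false (C : Cfg) : False := by
  obtain ⟨a, b, c, O, q, Γ, ab, ac, bc, hΓ, hO, hq, hqO, ha, hb, hc⟩ :=
    exists_continuum C.G C.closed C.cover fun i Γ h1 h2 p hp q hq => diam_le h1 h2 hp hq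
  obtain ⟨d, e, de, da, db, -, ea, eb, -, hall⟩ := two_others ab ac bc
  obtain ⟨t, t1, t2⟩ := caseI ab da.symm ea.symm db.symm eb.symm de hΓ ha hb hO hq hqO
  obtain ⟨s, ⟨s1, s2⟩, hg⟩ := exists_gen_near (C := C) O
    ((continuous_const.add continuous_ex).continuousAt.eventually
      ((notMem_eventually t1).and (notMem_eventually t2)))
  have key : ∀ p q, p ≠ q → O ∈ C.G p → O ∈ C.G q → ¬ C.Sub2 (O + ex s) p q := by
    intro p q hpq hp hq h
    obtain ⟨α, -, -, -, e, -⟩ := max_arc hpq hp hq (h.in hq) (h.symm.in hp)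
    exact not_five _ e.good.five
  rcases hg.three ab ac bc (fun k => by have := hall k; tauto) s1 s2 with h | h | h
  · exact key a b ab (ha hO) (hb hO) h
  · exact key a c ac (ha hO) hc h
  · exact key b c bc (hb hO) hc h

end Cfg

theorem partD : ¬ COut := by
  rintro ⟨O, ho, hd, hu, hdense⟩
  have hp : ∀ i, O i ⊆ {y | ∀ k, y ∈ closure (O k) → k = i} := fun i y hy k hk =>
    by_contra fun h => Set.disjoint_left.1 ((hd k i h).closure_left (ho i)) hk hy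
  have hcov : ∀ x, ∃ i, x ∈ closure (O i) := fun x => by
    have := hdense x
    rwa [closure_iUnion_of_finite, mem_iUnion] at this
  refine Cfg.false ⟨fun i => closure (O i), fun _ => isClosed_closure, hcov,
    fun i x hx => closure_mono (hp i) hx, fun i x y hx hy hxy => ?_⟩
  have hU : ∀ᶠ z in 𝓝 y, ∀ k, z ∈ closure (O k) → k = i := by
    rw [eventually_all]
    intro k
    by_cases h : y ∈ closure (O k)
    · exact Eventually.of_forall fun _ _ => hy k h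
    · exact Filter.Eventually.mono (isClosed_closure.isOpen_compl.mem_nhds h)
        fun z hz h' => absurd h' hz
  have c : Tendsto (fun z : ℂ => z + (y - x)) (𝓝 x) (𝓝 y) :=
    (by fun_prop : Continuous fun z : ℂ => z + (y - x)).tendsto' _ _ (by simp)
  obtain ⟨x', h1, h2⟩ := mem_closure_iff_nhds.1 hx _ (c.eventually hU.eventually_nhds)
  have c' : Tendsto (fun z : ℂ => z - (y - x)) (𝓝 (x' + (y - x))) (𝓝 x') :=
    (by fun_prop : Continuous fun z : ℂ => z - (y - x)).tendsto' _ _ (by simp)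
  obtain ⟨y', ⟨h3, h4⟩, h5⟩ := mem_closure_iff_nhds.1 (hdense (x' + (y - x))) _
    (Filter.Eventually.and h1 (c'.eventually ((ho i).mem_nhds h2)))
  obtain ⟨k, hk⟩ := mem_iUnion.1 h5
  obtain rfl := h3 k (subset_closure hk)
  exact hu k _ h4 _ hk (by rw [← hxy]; congr 1; ring)

end Vale.Agent.P032
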