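import Mathlib

/-! P032 blueprint: shared definitions (see docs/P032.md). -/

namespace Vale.Agent.P032

open Filter Topology

/-- bounded real function -/
def Bdd {X : Type*} (f : X → ℝ) : Prop := ∃ B, ∀ x, |f x| ≤ B

/-- invariant mean on an abelian group: a linear functional on all real functions that is
normalised, and positive and translation invariant on bounded functions -/
structure IsInvMean {G : Type*} [AddCommGroup G] (M : (G → ℝ) →ₗ[ℝ] ℝ) : Prop where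
  one : M (fun _ => 1) = 1
  nonneg : ∀ f, Bdd f → (∀ x, 0 ≤ f x) → 0 ≤ M f
  inv : ∀ f, Bdd f → ∀ g, M (fun x => f (x + g)) = M f

/-- approximately invariant mean that lives on `[0,1]` -/
structure IsLocMean (L : (ℝ → ℝ) →ₗ[ℝ] ℝ) : Prop where
  one : L (fun _ => 1) = 1
  nonneg : ∀ f, Bdd f → (∀ x ∈ Set.Icc (0 : ℝ) 1, 0 ≤ f x) → 0 ≤ L f
  shift : ∃ C : ℝ, 0 ≤ C ∧ ∀ (f : ℝ → ℝ) (B : ℝ), (∀ x, |f x| ≤ B) → ∀ h : ℝ,
    |L (fun x => f (x + h)) - L f| ≤ C * |h| * B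

/-- orthogonal representation of an abelian group, no continuity assumed -/
structure IsRep {G H : Type*} [AddCommGroup G] [NormedAddCommGroup H] [InnerProductSpace ℝ H]
    (ρ : G → H →L[ℝ] H) : Prop where
  zero : ∀ ξ, ρ 0 ξ = ξ
  add : ∀ x y ξ, ρ (x + y) ξ = ρ x (ρ y ξ)
  inner_map : ∀ x ξ η, inner ℝ (ρ x ξ) (ρ x η) = inner ℝ ξ η

/-- vectors whose orbit map is continuous at `0` -/
def contVec {G H : Type*} [AddCommGroup G] [TopologicalSpace G] [NormedAddCommGroup H]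
    [InnerProductSpace ℝ H] (ρ : G → H →L[ℝ] H) : Submodule ℝ H where
  carrier := {ξ | ContinuousAt (fun x => ρ x ξ) 0}
  add_mem' := by
    intro a b ha hb
    simp only [Set.mem_ofPred_eq, map_add] at *
    exact ha.add hb
  zero_mem' := by
    simp only [Set.mem_ofPred_eq, map_zero]
    exact continuousAt_const
  smul_mem' := by
    intro c a ha
    simp only [Set.mem_ofPred_eq, map_smul] at *
    exact ha.const_smul c

/-- positive semidefinite real kernel -/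
def PSD {X : Type*} (k : X → X → ℝ) : Prop :=
  ∀ (s : Finset X) (c : X → ℝ), 0 ≤ ∑ x ∈ s, ∑ y ∈ s, c x * c y * k x y

/-- the unit vector of angle `t` -/
noncomputable def ex (t : ℝ) : ℂ := Complex.exp (t * Complex.I)

/-- output of part A -/
def AOut : Prop :=
  ∃ a : ℂ → ℝ, (∀ x, 0 ≤ a x) ∧ (∀ ε > 0, ∃ δ > 0, ∀ x, |‖x‖ - 1| < δ → a x < ε) ∧
    ∀ (s : Finset (ℂ × ℂ)) (w : ℂ × ℂ → ℝ), (∀ z, 0 ≤ w z) →
      ∃ c : ℂ → Fin 5, ∑ z ∈ s, w z * (if c z.1 = c z.2 then 1 else 0) ≤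
        ∑ z ∈ s, w z * a (z.2 - z.1)

/-- almost everywhere proper colouring -/
def AEProper (c : ℂ → Fin 5) : Prop :=
  ∀ᵐ p : ℝ × ℂ, c p.2 ≠ c (p.2 + ex p.1)

/-- output of part B -/
def BOut : Prop := ∃ c : ℂ → Fin 5, Measurable c ∧ AEProper c

/-- output of part C -/
def COut : Prop :=
  ∃ O : Fin 5 → Set ℂ, (∀ i, IsOpen (O i)) ∧ (∀ i j, i ≠ j → Disjoint (O i) (O j)) ∧
    (∀ i, ∀ x ∈ O i, ∀ y ∈ O i, ‖x - y‖ ≠ 1) ∧ Dense (⋃ i, O i)

end Vale.Agent.P032
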