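import Vale.Agent.P032.Defs

/-! Task A2a: the Hilbert space of a positive semidefinite kernel. -/

namespace Vale.Agent.P032

open UniformSpace in
theorem gns_ext {E : Type} [SeminormedAddCommGroup E] [InnerProductSpace ℝ E] (T : E →ₗ[ℝ] E)
    (hT : ∀ u v, inner ℝ (T u) (T v) = inner ℝ u v) :
    ∃ U : Completion E →L[ℝ] Completion E, (∀ u : E, U u = T u) ∧
      ∀ ξ η, inner ℝ (U ξ) (U η) = inner ℝ ξ η := by
  let T' : E →L[ℝ] E := T.mkContinuous 1 fun u => by
    rw [one_mul, norm_eq_sqrt_real_inner, hT, ← norm_eq_sqrt_real_inner]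
  have h : ∀ u : E, T'.completion u = T u := fun u => T'.completion_apply_coe u
  refine ⟨T'.completion, h, fun ξ η => ?_⟩
  induction ξ, η using Completion.induction_on₂ with
  | hp => exact isClosed_eq (by fun_prop) (by fun_prop)
  | ih u v => rw [h, h, Completion.inner_coe, Completion.inner_coe, hT]

/-- Completion of `X →₀ ℝ` with the semi-inner product given by `k`
(`PreInnerProductSpace.Core`, `UniformSpace.Completion`); a map `s` that preserves `k` induces
`Finsupp.lmapDomain`, an isometry for the seminorm, extended by `ContinuousLinearMap.completion`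
(for other `s` put `U s = 0`). -/
theorem gns {X : Type} (k : X → X → ℝ) (hs : ∀ x y, k x y = k y x) (hp : PSD k) :
    ∃ (H : Type) (_ : NormedAddCommGroup H) (_ : InnerProductSpace ℝ H) (_ : CompleteSpace H)
      (φ : X → H) (U : (X → X) → H →L[ℝ] H),
      (∀ x y, inner ℝ (φ x) (φ y) = k x y) ∧
      (∀ A B : H →L[ℝ] H, (∀ x, A (φ x) = B (φ x)) → A = B) ∧
      ∀ s : X → X, (∀ x y, k (s x) (s y) = k x y) →
        (∀ x, U s (φ x) = φ (s x)) ∧ ∀ ξ η, inner ℝ (U s ξ) (U s η) = inner ℝ ξ η := by
  classical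
  let B : (X →₀ ℝ) →ₗ[ℝ] (X →₀ ℝ) →ₗ[ℝ] ℝ :=
    Finsupp.linearCombination ℝ fun x => Finsupp.linearCombination ℝ (k x)
  have hB : ∀ x y, B (Finsupp.single x 1) (Finsupp.single y 1) = k x y := fun x y => by simp [B]
  have hsym : B.flip = B := by
    ext x y; simp [B, hs x y]
  letI c : PreInnerProductSpace.Core ℝ (X →₀ ℝ) :=
    { inner := fun f g => B f g
      conj_inner_symm := fun f g => by
        simpa using LinearMap.congr_fun (LinearMap.congr_fun hsym f) g
      re_inner_nonneg := fun f => by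
        refine (hp f.support f).trans (le_of_eq ?_)
        simp [B, Finsupp.linearCombination_apply, Finsupp.sum, Finset.mul_sum, mul_assoc]
      add_left := fun f g h => by simp
      smul_left := fun f g r => by simp }
  letI : SeminormedAddCommGroup (X →₀ ℝ) :=
    InnerProductSpace.Core.toSeminormedAddCommGroup (𝕜 := ℝ)
  letI : InnerProductSpace ℝ (X →₀ ℝ) := .ofCore c
  have hU : ∀ s : X → X, ∃ U : UniformSpace.Completion (X →₀ ℝ) →L[ℝ]
      UniformSpace.Completion (X →₀ ℝ), (∀ x y, k (s x) (s y) = k x y) →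
      (∀ u : X →₀ ℝ, U u = (Finsupp.lmapDomain ℝ ℝ s u : X →₀ ℝ)) ∧
        ∀ ξ η, inner ℝ (U ξ) (U η) = inner ℝ ξ η := fun s => by
    by_cases h : ∀ x y, k (s x) (s y) = k x y
    · have h1 : B.compl₁₂ (Finsupp.lmapDomain ℝ ℝ s) (Finsupp.lmapDomain ℝ ℝ s) = B := by
        ext x y; simp [hB, h]
      obtain ⟨U, hU⟩ := gns_ext (Finsupp.lmapDomain ℝ ℝ s) fun u v =>
        LinearMap.congr_fun (LinearMap.congr_fun h1 u) v
      exact ⟨U, fun _ => hU⟩
    · exact ⟨0, fun h' => absurd h' h⟩
  choose U hU using hU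
  refine ⟨UniformSpace.Completion (X →₀ ℝ), inferInstance, inferInstance, inferInstance,
    fun x => (Finsupp.single x (1 : ℝ) : X →₀ ℝ), U, fun x y => ?_, fun A A' h => ?_,
    fun s h => ⟨fun x => ?_, (hU s h).2⟩⟩
  · rw [UniformSpace.Completion.inner_coe]; exact hB x y
  · have h1 : (A.comp UniformSpace.Completion.toComplL).toLinearMap =
        (A'.comp UniformSpace.Completion.toComplL).toLinearMap := by
      ext x; exact h x
    refine ContinuousLinearMap.ext fun ξ => ?_
    induction ξ using UniformSpace.Completion.induction_on with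
    | hp => exact isClosed_eq A.continuous A'.continuous
    | ih u => exact LinearMap.congr_fun h1 u
  · rw [(hU s h).1]; simp

end Vale.Agent.P032
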