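import Vale.Agent.P032.Defs

/-! Task B: a measurable almost everywhere proper colouring (see docs/P032.md, part B). -/

namespace Vale.Agent.P032

open Filter Topology MeasureTheory Metric

namespace PB

theorem exists_round (R η : ℝ) (hη : 0 < η) :
    ∃ (τ : ℂ → ℂ) (T : Finset ℂ), Measurable τ ∧ (∀ x, τ x ∈ T) ∧
      ∀ x, ‖x‖ ≤ R → ‖τ x - x‖ ≤ η := by
  obtain ⟨t, ht⟩ := (isCompact_closedBall (0 : ℂ) R).elim_finite_subcover
    (fun k : ℕ => ball (TopologicalSpace.denseSeq ℂ k) η) (fun _ => isOpen_ball) (by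
      intro x _
      obtain ⟨k, hk⟩ := (TopologicalSpace.denseRange_denseSeq ℂ).exists_dist_lt x hη
      exact Set.mem_iUnion.2 ⟨k, by simpa [mem_ball] using hk⟩)
  let s := SimpleFunc.nearestPt (TopologicalSpace.denseSeq ℂ) (t.sup id)
  refine ⟨s, s.range, s.measurable, fun x => s.mem_range_self x, fun x hx => ?_⟩
  have hx' : x ∈ closedBall (0 : ℂ) R := by simpa using hx
  obtain ⟨k, hk, hxk⟩ := Set.mem_iUnion₂.1 (ht hx')
  have h1 := SimpleFunc.edist_nearestPt_le (TopologicalSpace.denseSeq ℂ) x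
    (Finset.le_sup (f := id) hk)
  rw [edist_dist, edist_dist, ENNReal.ofReal_le_ofReal_iff dist_nonneg] at h1
  rw [← dist_eq_norm]
  have h2 : dist (TopologicalSpace.denseSeq ℂ k) x < η := by
    rw [dist_comm]; exact mem_ball.1 hxk
  exact (le_trans h1 h2.le)

/-- average over the closed ball of radius `r` -/
noncomputable def Av (r : ℝ) (f : ℂ → ℝ) (x : ℂ) : ℝ :=
  (volume.real (closedBall (0 : ℂ) r))⁻¹ * ∫ y in closedBall x r, f y

theorem Av_eq (r : ℝ) (f : ℂ → ℝ) (x : ℂ) : Av r f x = ⨍ y in closedBall x r, f y := by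
  rw [setAverage_eq, Av, Measure.addHaar_real_closedBall_center volume x, smul_eq_mul]

theorem measurable_Av (r : ℝ) {f : ℂ → ℝ} (hf : Measurable f) : Measurable (Av r f) := by
  have h1 : Measurable (fun p : ℂ × ℂ => if dist p.2 p.1 ≤ r then f p.2 else 0) :=
    Measurable.ite (measurableSet_le (measurable_snd.dist measurable_fst) measurable_const)
      (hf.comp measurable_snd) measurable_const
  have h2 := (h1.stronglyMeasurable.integral_prod_right' (ν := volume)).measurable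
  have h3 : (fun x : ℂ => ∫ y in closedBall x r, f y) =
      fun x : ℂ => ∫ y : ℂ, (if dist y x ≤ r then f y else 0) := by
    funext x
    rw [← integral_indicator measurableSet_closedBall]
    congr 1
  unfold Av
  exact (h3 ▸ h2).const_mul _

theorem intOn {f : ℂ → ℝ} (hf : Measurable f) (h0 : ∀ y, 0 ≤ f y) (h1 : ∀ y, f y ≤ 1) (x : ℂ)
    (r : ℝ) : IntegrableOn f (closedBall x r) :=
  Measure.integrableOn_of_bounded (M := 1) (measure_closedBall_lt_top).ne hf.aestronglyMeasurable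
    (Eventually.of_forall fun y => by rw [Real.norm_eq_abs, abs_of_nonneg (h0 y)]; exact h1 y)

theorem Av_nonneg (r : ℝ) {f : ℂ → ℝ} (h0 : ∀ y, 0 ≤ f y) (x : ℂ) : 0 ≤ Av r f x :=
  mul_nonneg (inv_nonneg.2 measureReal_nonneg) (integral_nonneg h0)

theorem Av_mono (r : ℝ) {f g : ℂ → ℝ} (x : ℂ) (hf : IntegrableOn f (closedBall x r))
    (hg : IntegrableOn g (closedBall x r)) (h : ∀ y, f y ≤ g y) : Av r f x ≤ Av r g x :=
  mul_le_mul_of_nonneg_left (integral_mono hf hg h) (inv_nonneg.2 measureReal_nonneg)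

theorem Av_one_le (r : ℝ) (x : ℂ) : Av r (fun _ => 1) x ≤ 1 := by
  unfold Av
  rw [setIntegral_const, Measure.addHaar_real_closedBall_center volume x, smul_eq_mul, mul_one]
  exact inv_mul_le_one_of_le₀ le_rfl measureReal_nonneg

theorem Av_le_one (r : ℝ) {f : ℂ → ℝ} (hf : Measurable f) (h0 : ∀ y, 0 ≤ f y) (h1 : ∀ y, f y ≤ 1)
    (x : ℂ) : Av r f x ≤ 1 :=
  (Av_mono r x (intOn hf h0 h1 x r) (intOn measurable_const (fun _ => zero_le_one)
    (fun _ => le_rfl) x r) h1).trans (Av_one_le r x)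

theorem Av_sum {ι : Type*} (r : ℝ) (s : Finset ι) (f : ι → ℂ → ℝ) (x : ℂ)
    (hf : ∀ i ∈ s, IntegrableOn (f i) (closedBall x r)) :
    Av r (fun y => ∑ i ∈ s, f i y) x = ∑ i ∈ s, Av r (f i) x := by
  unfold Av
  rw [integral_finsetSum s hf, Finset.mul_sum]

theorem Av_mul (r c : ℝ) (f : ℂ → ℝ) (x : ℂ) : Av r (fun y => c * f y) x = c * Av r f x := by
  unfold Av
  rw [integral_const_mul]; ring

theorem Av_ne (r : ℝ) {f : ℂ → ℝ} {x : ℂ} (h : Av r f x ≠ 0) :
    ∃ y, ‖y - x‖ ≤ r ∧ f y ≠ 0 := by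
  by_contra hc
  push Not at hc
  apply h
  unfold Av
  rw [setIntegral_eq_zero_of_forall_eq_zero, mul_zero]
  intro y hy
  exact hc y (by simpa [mem_closedBall, dist_eq_norm] using hy)

/-- abstract form of the finite step -/
theorem finite_step {a : ℂ → ℝ}
    (hA : ∀ (s : Finset (ℂ × ℂ)) (w : ℂ × ℂ → ℝ), (∀ z, 0 ≤ w z) →
      ∃ c : ℂ → Fin 5, ∑ z ∈ s, w z * (if c z.1 = c z.2 then 1 else 0) ≤
        ∑ z ∈ s, w z * a (z.2 - z.1))
    {Z : Type*} [MeasurableSpace Z] (ν : Measure Z) [IsProbabilityMeasure ν] (T : Finset ℂ) (n : ℕ)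
    (γ : ℕ → ℂ × ℂ → Z → ℝ) (hm : ∀ k p, Measurable (γ k p)) (h0 : ∀ k p z, 0 ≤ γ k p z)
    (h1 : ∀ k p z, γ k p z ≤ 1)
    (hs : ∀ k z, ∑ p ∈ T ×ˢ T, γ k p z ≤ 1)
    (ha : ∀ k ≤ n, ∀ z, ∀ p, γ k p z ≠ 0 → a (p.2 - p.1) ≤ (1 / 4) ^ k) :
    ∃ c : ℂ → Fin 5, ∀ k ≤ n,
      ∫ z, ∑ p ∈ T ×ˢ T, γ k p z * (if c p.1 = c p.2 then 1 else 0) ∂ν ≤ 2 * (1 / 2) ^ k := by
  have hint : ∀ k p, Integrable (γ k p) ν := fun k p =>
    Integrable.of_bound (hm k p).aestronglyMeasurable 1
      (Eventually.of_forall fun z => by rw [Real.norm_eq_abs, abs_of_nonneg (h0 k p z)]; exact h1 k p z)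
  obtain ⟨c, hc⟩ := hA (T ×ˢ T) (fun p => ∑ k ∈ Finset.range (n + 1), 2 ^ k * ∫ z, γ k p z ∂ν)
    (fun p => Finset.sum_nonneg fun k _ => mul_nonneg (by positivity)
      (integral_nonneg (h0 k p)))
  refine ⟨c, fun k hk => ?_⟩
  have key : ∀ (φ : ℂ × ℂ → ℝ),
      ∑ p ∈ T ×ˢ T, (∑ k ∈ Finset.range (n + 1), 2 ^ k * ∫ z, γ k p z ∂ν) * φ p =
        ∑ k ∈ Finset.range (n + 1), 2 ^ k * ∫ z, ∑ p ∈ T ×ˢ T, γ k p z * φ p ∂ν := by
    intro φ
    simp_rw [Finset.sum_mul]
    rw [Finset.sum_comm]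
    refine Finset.sum_congr rfl fun k _ => ?_
    rw [integral_finsetSum _ (fun p _ => (hint k p).mul_const _), Finset.mul_sum]
    refine Finset.sum_congr rfl fun p _ => ?_
    rw [integral_mul_const]; ring
  rw [key, key] at hc
  have hR : ∑ k ∈ Finset.range (n + 1), (2 : ℝ) ^ k *
      ∫ z, ∑ p ∈ T ×ˢ T, γ k p z * a (p.2 - p.1) ∂ν ≤ 2 := by
    refine le_trans (Finset.sum_le_sum (g := fun k => (1 / 2 : ℝ) ^ k) fun k hk => ?_)
      (sum_geometric_two_le _)
    have hk' : k ≤ n := Nat.lt_succ_iff.1 (Finset.mem_range.1 hk)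
    have h2 : ∫ z, ∑ p ∈ T ×ˢ T, γ k p z * a (p.2 - p.1) ∂ν ≤ (1 / 4) ^ k := by
      have h3 : ∫ _ : Z, ((1 / 4 : ℝ) ^ k) ∂ν = (1 / 4) ^ k := by simp
      rw [← h3]
      refine integral_mono (integrable_finsetSum _ fun p _ => (hint k p).mul_const _)
        (integrable_const _) fun z => ?_
      calc ∑ p ∈ T ×ˢ T, γ k p z * a (p.2 - p.1) ≤ ∑ p ∈ T ×ˢ T, γ k p z * (1 / 4) ^ k := by
            refine Finset.sum_le_sum fun p _ => ?_
            by_cases hz : γ k p z = 0
            · simp [hz]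
            · exact mul_le_mul_of_nonneg_left (ha k hk' z p hz) (h0 k p z)
        _ = (∑ p ∈ T ×ˢ T, γ k p z) * (1 / 4) ^ k := by rw [Finset.sum_mul]
        _ ≤ 1 * (1 / 4) ^ k := mul_le_mul_of_nonneg_right (hs k z) (by positivity)
        _ = (1 / 4) ^ k := one_mul _
    calc (2 : ℝ) ^ k * ∫ z, ∑ p ∈ T ×ˢ T, γ k p z * a (p.2 - p.1) ∂ν ≤ 2 ^ k * (1 / 4) ^ k :=
          mul_le_mul_of_nonneg_left h2 (by positivity)
      _ = (1 / 2) ^ k := by rw [← mul_pow]; norm_num
  have hL := Finset.single_le_sum (f := fun k => (2 : ℝ) ^ k *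
      ∫ z, ∑ p ∈ T ×ˢ T, γ k p z * (if c p.1 = c p.2 then 1 else 0) ∂ν)
    (fun k _ => mul_nonneg (by positivity) (integral_nonneg fun z =>
      Finset.sum_nonneg fun p _ => mul_nonneg (h0 k p z) (by split_ifs <;> norm_num)))
    (Finset.mem_range.2 (Nat.lt_succ_of_le hk))
  have h5 := hL.trans (hc.trans hR)
  have h6 : (0 : ℝ) < 2 ^ k := by positivity
  have h7 : (2 : ℝ) * (1 / 2) ^ k = 2 / 2 ^ k := by rw [one_div, inv_pow]; rfl
  rw [h7, le_div_iff₀ h6, mul_comm]
  exact h5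

theorem norm_ex (t : ℝ) : ‖ex t‖ = 1 := by
  unfold ex
  exact Complex.norm_exp_ofReal_mul_I t

theorem measurable_sh : Measurable (fun p : ℝ × ℂ => p.2 + ex p.1) := by
  unfold ex
  fun_prop

/-- indicator of a colour class -/
noncomputable def ind (c : ℂ → Fin 5) (i : Fin 5) (y : ℂ) : ℝ := if c y = i then 1 else 0

theorem ind_nonneg (c : ℂ → Fin 5) (i : Fin 5) (y : ℂ) : 0 ≤ ind c i y := by
  unfold ind; split_ifs <;> norm_num

theorem ind_le_one (c : ℂ → Fin 5) (i : Fin 5) (y : ℂ) : ind c i y ≤ 1 := by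
  unfold ind; split_ifs <;> norm_num

theorem measurable_ind {c : ℂ → Fin 5} (hc : Measurable c) (i : Fin 5) : Measurable (ind c i) :=
  Measurable.ite (hc (measurableSet_singleton i)) measurable_const measurable_const

theorem sum_ind (c : ℂ → Fin 5) (y : ℂ) : ∑ i, ind c i y = 1 := by
  unfold ind; simp

/-- cut-off -/
noncomputable def cut (k : ℕ) (z : ℝ × ℂ) : ℝ := if ‖z.2‖ ≤ k then 1 else 0

theorem cut_nonneg (k : ℕ) (z : ℝ × ℂ) : 0 ≤ cut k z := by
  unfold cut; split_ifs <;> norm_num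

theorem cut_le_one (k : ℕ) (z : ℝ × ℂ) : cut k z ≤ 1 := by
  unfold cut; split_ifs <;> norm_num

theorem measurable_cut (k : ℕ) : Measurable (cut k) :=
  Measurable.ite (measurableSet_le measurable_snd.norm measurable_const) measurable_const
    measurable_const

theorem step1 (h : AOut) (ν : Measure (ℝ × ℂ)) [IsProbabilityMeasure ν] :
    ∃ r : ℕ → ℝ, (∀ k, 0 < r k) ∧ Tendsto r atTop (𝓝 0) ∧ ∀ n : ℕ, ∃ c : ℂ → Fin 5,
      Measurable c ∧ ∀ k ≤ n, ∫ z, cut k z * ∑ i, Av (r k) (ind c i) z.2 *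
        Av (r k) (ind c i) (z.2 + ex z.1) ∂ν ≤ 2 * (1 / 2) ^ k := by
  classical
  obtain ⟨a, -, ha, hA⟩ := h
  choose δ hδ hδa using fun k : ℕ => ha ((1 / 4) ^ k) (by positivity)
  let r : ℕ → ℝ := fun k => min (δ k / 5) (1 / (k + 1))
  have hr : ∀ k, 0 < r k := fun k => lt_min (by have := hδ k; positivity) (by positivity)
  have hr1 : ∀ k, r k ≤ 1 := fun k => (min_le_right _ _).trans (by
    rw [div_le_one (by positivity)]; have : (0 : ℝ) ≤ k := Nat.cast_nonneg k; linarith)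
  refine ⟨r, hr, squeeze_zero (fun k => (hr k).le) (fun k => min_le_right _ _)
    tendsto_one_div_add_atTop_nhds_zero_nat, fun n => ?_⟩
  obtain ⟨η, hη, hηr⟩ : ∃ η > 0, ∀ k ≤ n, η ≤ r k := by
    refine ⟨(Finset.range (n + 1)).inf' (by simp) r, ?_, fun k hk => ?_⟩
    · show 0 < _
      rw [Finset.lt_inf'_iff]
      exact fun k _ => hr k
    · exact Finset.inf'_le _ (Finset.mem_range.2 (Nat.lt_succ_of_le hk))
  obtain ⟨τ, T, hτ, hT, hτη⟩ := exists_round (n + 2) η hη
  let e : ℂ → ℂ → ℝ := fun p y => if τ y = p then 1 else 0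
  have he0 : ∀ p y, 0 ≤ e p y := fun p y => by simp only [e]; split_ifs <;> norm_num
  have he1 : ∀ p y, e p y ≤ 1 := fun p y => by simp only [e]; split_ifs <;> norm_num
  have hem : ∀ p, Measurable (e p) := fun p =>
    Measurable.ite (hτ (measurableSet_singleton p)) measurable_const measurable_const
  have hes : ∀ k x, ∑ p ∈ T, Av (r k) (e p) x ≤ 1 := by
    intro k x
    rw [← Av_sum _ _ _ _ (fun p _ => intOn (hem p) (he0 p) (he1 p) x _)]
    have : (fun y => ∑ p ∈ T, e p y) = fun _ => 1 := by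
      funext y
      simp [e, hT y]
    rw [this]
    exact Av_one_le _ _
  obtain ⟨c, hc⟩ := finite_step hA ν T n
    (fun k p z => cut k z * (Av (r k) (e p.1) z.2 * Av (r k) (e p.2) (z.2 + ex z.1)))
    (fun k p => (measurable_cut k).mul (((measurable_Av _ (hem _)).comp measurable_snd).mul
      ((measurable_Av _ (hem _)).comp measurable_sh)))
    (fun k p z => mul_nonneg (cut_nonneg k z) (mul_nonneg (Av_nonneg _ (he0 _) _)
      (Av_nonneg _ (he0 _) _)))
    (fun k p z => mul_le_one₀ (cut_le_one k z) (mul_nonneg (Av_nonneg _ (he0 _) _)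
      (Av_nonneg _ (he0 _) _)) (mul_le_one₀ (Av_le_one _ (hem _) (he0 _) (he1 _) _)
        (Av_nonneg _ (he0 _) _) (Av_le_one _ (hem _) (he0 _) (he1 _) _)))
    (fun k z => by
      rw [← Finset.mul_sum, Finset.sum_product]
      dsimp only
      rw [← Finset.sum_mul_sum]
      have g1 := hes k z.2
      have g2 := hes k (z.2 + ex z.1)
      have g3 : 0 ≤ ∑ p ∈ T, Av (r k) (e p) (z.2 + ex z.1) :=
        Finset.sum_nonneg fun p _ => Av_nonneg _ (he0 _) _
      have g4 : 0 ≤ ∑ p ∈ T, Av (r k) (e p) z.2 :=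
        Finset.sum_nonneg fun p _ => Av_nonneg _ (he0 _) _
      exact mul_le_one₀ (cut_le_one k z) (mul_nonneg g4 g3) (mul_le_one₀ g1 g3 g2))
    (fun k hk z p hz => by
      have g0 : cut k z ≠ 0 := left_ne_zero_of_mul hz
      have g1 := left_ne_zero_of_mul (right_ne_zero_of_mul hz)
      have g2 := right_ne_zero_of_mul (right_ne_zero_of_mul hz)
      have hzk : ‖z.2‖ ≤ k := by
        by_contra hh
        exact g0 (by simp [cut, hh])
      obtain ⟨y1, hy1, hp1⟩ := Av_ne _ g1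
      obtain ⟨y2, hy2, hp2⟩ := Av_ne _ g2
      have hp1' : τ y1 = p.1 := by
        by_contra hh
        exact hp1 (by simp [e, hh])
      have hp2' : τ y2 = p.2 := by
        by_contra hh
        exact hp2 (by simp [e, hh])
      have hkn : (k : ℝ) ≤ n := by exact_mod_cast hk
      have hn1 : ‖y1‖ ≤ n + 2 := by
        have := norm_add_le (y1 - z.2) z.2
        rw [sub_add_cancel] at this
        linarith [hr1 k]
      have hn2 : ‖y2‖ ≤ n + 2 := by
        have t1 := norm_add_le (y2 - (z.2 + ex z.1)) (z.2 + ex z.1)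
        have t2 := norm_add_le z.2 (ex z.1)
        rw [sub_add_cancel] at t1
        rw [norm_ex] at t2
        linarith [hr1 k]
      have u1 := hτη y1 hn1
      have u2 := hτη y2 hn2
      rw [hp1'] at u1
      rw [hp2'] at u2
      refine (hδa k _ ?_).le
      have u3 : ‖p.2 - p.1 - ex z.1‖ ≤ 4 * r k := by
        have : p.2 - p.1 - ex z.1 =
            ((p.2 - y2) + (y2 - (z.2 + ex z.1))) - ((p.1 - y1) + (y1 - z.2)) := by ring
        rw [this]
        have v1 := norm_sub_le ((p.2 - y2) + (y2 - (z.2 + ex z.1))) ((p.1 - y1) + (y1 - z.2))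
        have v2 := norm_add_le (p.2 - y2) (y2 - (z.2 + ex z.1))
        have v3 := norm_add_le (p.1 - y1) (y1 - z.2)
        linarith [hηr k hk]
      have u4 := abs_norm_sub_norm_le (p.2 - p.1) (ex z.1)
      rw [norm_ex] at u4
      have u5 : r k ≤ δ k / 5 := min_le_left _ _
      linarith [hδ k])
  have hcm : Measurable (fun y => c (τ y)) := by
    refine measurable_to_countable' fun i => ?_
    have : (fun y => c (τ y)) ⁻¹' {i} = τ ⁻¹' (↑(T.filter fun p => c p = i)) := by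
      ext y
      simp [hT y]
    rw [this]
    exact hτ (Finset.measurableSet _)
  refine ⟨fun y => c (τ y), hcm, fun k hk => le_trans (le_of_eq ?_) (hc k hk)⟩
  congr 1
  funext z
  have hdec : ∀ i x, Av (r k) (ind (fun y => c (τ y)) i) x =
      ∑ p ∈ T, (if c p = i then 1 else 0) * Av (r k) (e p) x := by
    intro i x
    have : ind (fun y => c (τ y)) i = fun y => ∑ p ∈ T, (if c p = i then 1 else 0) * e p y := by
      funext y
      simp [ind, e, hT y]
    rw [this, Av_sum _ _ _ _ (fun p _ => (intOn (hem p) (he0 p) (he1 p) x _).const_mul _)]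
    simp_rw [Av_mul]
  simp_rw [hdec, Finset.sum_mul_sum]
  rw [Finset.sum_product, Finset.sum_comm, Finset.mul_sum]
  refine Finset.sum_congr rfl fun p _ => ?_
  rw [Finset.sum_comm, Finset.mul_sum]
  refine Finset.sum_congr rfl fun q _ => ?_
  rw [Finset.sum_eq_single (c p)]
  · by_cases hpq : c p = c q
    · simp [hpq]
    · have : ¬ c q = c p := fun h => hpq h.symm
      simp [hpq, this]
  · intro i _ hi
    simp [Ne.symm hi]
  · simp

theorem weak_subseq {H : Type*} [NormedAddCommGroup H] [InnerProductSpace ℝ H] [CompleteSpace H]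
    [TopologicalSpace.SeparableSpace H] (u : ℕ → H) (C : ℝ) (hu : ∀ n, ‖u n‖ ≤ C) :
    ∃ φ : ℕ → ℕ, StrictMono φ ∧ ∃ v : H, ∀ w,
      Tendsto (fun n => inner ℝ (u (φ n)) w) atTop (𝓝 (inner ℝ v w)) := by
  have h := WeakDual.isSeqCompact_closedBall ℝ H (0 : StrongDual ℝ H) C
  obtain ⟨L, -, φ, hφ, hL⟩ := h
    (x := fun n => StrongDual.toWeakDual (InnerProductSpace.toDual ℝ H (u n)))
    (fun n => by simpa using hu n)
  refine ⟨φ, hφ, (InnerProductSpace.toDual ℝ H).symm (WeakDual.toStrongDual L), fun w => ?_⟩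
  have h2 := ((WeakDual.eval_continuous w).tendsto L).comp hL
  rw [InnerProductSpace.toDual_symm_apply]
  exact h2

theorem weak_subseq_fin {H ι : Type*} [NormedAddCommGroup H] [InnerProductSpace ℝ H]
    [CompleteSpace H] [TopologicalSpace.SeparableSpace H] (u : ι → ℕ → H) (C : ℝ)
    (hu : ∀ i n, ‖u i n‖ ≤ C) (s : Finset ι) :
    ∃ φ : ℕ → ℕ, StrictMono φ ∧ ∀ i ∈ s, ∃ v : H, ∀ w,
      Tendsto (fun n => inner ℝ (u i (φ n)) w) atTop (𝓝 (inner ℝ v w)) := by
  classical
  induction s using Finset.induction_on with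
  | empty => exact ⟨id, strictMono_id, by simp⟩
  | insert j s _ ih =>
    obtain ⟨φ, hφ, hs⟩ := ih
    obtain ⟨ψ, hψ, v, hv⟩ := weak_subseq (fun n => u j (φ n)) C (fun n => hu j _)
    refine ⟨φ ∘ ψ, hφ.comp hψ, fun i hi => ?_⟩
    rcases Finset.mem_insert.1 hi with rfl | hi
    · exact ⟨v, hv⟩
    · obtain ⟨v', hv'⟩ := hs i hi
      exact ⟨v', fun w => (hv' w).comp hψ.tendsto_atTop⟩

/-- a positive square integrable weight -/
noncomputable def wt (y : ℂ) : ℝ := (1 + ‖y‖) ^ (-(3 : ℝ))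

theorem wt_pos (y : ℂ) : 0 < wt y := Real.rpow_pos_of_pos (by positivity) _

theorem wt_le_one (y : ℂ) : wt y ≤ 1 :=
  Real.rpow_le_one_of_one_le_of_nonpos (by linarith [norm_nonneg y]) (by norm_num)

theorem measurable_wt : Measurable wt := by
  unfold wt
  fun_prop

theorem integrable_wt : Integrable wt := by
  unfold wt
  exact integrable_one_add_norm (by simp; norm_num)

theorem memLp_wt : MemLp wt 2 := by
  rw [memLp_two_iff_integrable_sq measurable_wt.aestronglyMeasurable]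
  refine integrable_wt.mono' (measurable_wt.pow_const 2).aestronglyMeasurable
    (Eventually.of_forall fun y => ?_)
  have h1 := wt_pos y
  have h2 := wt_le_one y
  rw [Real.norm_eq_abs, abs_of_nonneg (by positivity)]
  nlinarith

theorem step2 (c : ℕ → ℂ → Fin 5) (hc : ∀ n, Measurable (c n)) :
    ∃ φ : ℕ → ℕ, StrictMono φ ∧ ∃ R : Fin 5 → ℂ → ℝ, (∀ i, Measurable (R i)) ∧
      (∀ i, LocallyIntegrable (R i)) ∧ ∀ i r x,
        Tendsto (fun n => Av r (fun y => wt y * ind (c (φ n)) i y) x) atTop (𝓝 (Av r (R i) x)) := by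
  have hle : ∀ n i y, ‖wt y * ind (c n) i y‖ ≤ ‖wt y‖ := fun n i y => by
    rw [norm_mul]
    refine mul_le_of_le_one_right (norm_nonneg _) ?_
    rw [Real.norm_eq_abs, abs_of_nonneg (ind_nonneg _ _ _)]
    exact ind_le_one _ _ _
  have hm : ∀ i n, MemLp (fun y => wt y * ind (c n) i y) 2 := fun i n =>
    memLp_wt.of_le (measurable_wt.mul (measurable_ind (hc n) i)).aestronglyMeasurable
      (Eventually.of_forall (hle n i))
  have : Fact ((2 : ENNReal) ≠ ⊤) := ⟨by simp⟩
  obtain ⟨φ, hφ, hv⟩ := weak_subseq_fin (H := Lp ℝ 2 (volume : Measure ℂ))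
    (fun i n => (hm i n).toLp _) ‖memLp_wt.toLp _‖ (fun i n => by
      refine Lp.norm_le_norm_of_ae_le ?_
      filter_upwards [(hm i n).coeFn_toLp, memLp_wt.coeFn_toLp] with y h1 h2
      rw [h1, h2]
      exact hle n i y) Finset.univ
  choose v hv using fun i => hv i (Finset.mem_univ i)
  refine ⟨φ, hφ, fun i => (Lp.aestronglyMeasurable (v i)).mk _,
    fun i => (Lp.aestronglyMeasurable (v i)).stronglyMeasurable_mk.measurable, fun i => ?_,
    fun i r x => ?_⟩
  · exact ((Lp.memLp (v i)).ae_eq (Lp.aestronglyMeasurable (v i)).ae_eq_mk).locallyIntegrable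
      (by norm_num)
  · have h1 := hv i (indicatorConstLp 2 (measurableSet_closedBall (x := x) (ε := r))
      measure_closedBall_lt_top.ne (1 : ℝ))
    simp_rw [real_inner_comm _ (v i), real_inner_comm _ (MemLp.toLp _ _),
      L2.inner_indicatorConstLp_one] at h1
    unfold Av
    refine Tendsto.const_mul _ ?_
    rw [← setIntegral_congr_ae measurableSet_closedBall
      ((Lp.aestronglyMeasurable (v i)).ae_eq_mk.mono fun y hy _ => hy)]
    refine h1.congr fun n => ?_
    exact setIntegral_congr_ae measurableSet_closedBall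
      ((hm i (φ n)).coeFn_toLp.mono fun y hy _ => hy)

theorem ae_sh {p : ℂ → Prop} (h : ∀ᵐ z : ℂ, p z) : ∀ᵐ q : ℝ × ℂ, p (q.2 + ex q.1) := by
  obtain ⟨N, hN, hNm, hN0⟩ := exists_measurable_superset_of_null (ae_iff.1 h)
  have h1 : ∀ᵐ q : ℝ × ℂ, q.2 + ex q.1 ∉ N := by
    rw [Measure.volume_eq_prod]
    refine (Measure.ae_prod_iff_ae_ae (measurable_sh hNm).compl).2
      (Eventually.of_forall fun t => ?_)
    have := (measurePreserving_add_right (volume : Measure ℂ) (ex t)).quasiMeasurePreserving.ae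
      (measure_eq_zero_iff_ae_notMem.1 hN0)
    exact this
  filter_upwards [h1] with q hq
  by_contra hh
  exact hq (hN hh)

theorem ae_snd {p : ℂ → Prop} (h : ∀ᵐ z : ℂ, p z) : ∀ᵐ q : ℝ × ℂ, p q.2 := by
  rw [Measure.volume_eq_prod]
  exact Measure.quasiMeasurePreserving_snd.ae h

end PB

open PB in
theorem partB (h : AOut) : BOut := by
  classical
  let ν : Measure (ℝ × ℂ) := (volume : Measure (ℝ × ℂ)).toFinite
  obtain ⟨r, hr, hr0, hc⟩ := step1 h ν
  choose c hcm hc using hc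
  obtain ⟨φ, hφ, R, hRm, hRl, hR⟩ := step2 c hcm
  let g : ℕ → Fin 5 → ℂ → ℝ := fun n i y => wt y * ind (c (φ n)) i y
  have hgm : ∀ n i, Measurable (g n i) := fun n i => measurable_wt.mul (measurable_ind (hcm _) i)
  have hg0 : ∀ n i y, 0 ≤ g n i y := fun n i y => mul_nonneg (wt_pos y).le (ind_nonneg _ _ _)
  have hgi : ∀ n i y, g n i y ≤ ind (c (φ n)) i y := fun n i y =>
    mul_le_of_le_one_left (ind_nonneg _ _ _) (wt_le_one y)
  have hg1 : ∀ n i y, g n i y ≤ 1 := fun n i y => (hgi n i y).trans (ind_le_one _ _ _)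
  have hA0 : ∀ i k x, 0 ≤ Av (r k) (R i) x := fun i k x =>
    ge_of_tendsto' (hR i (r k) x) fun n => Av_nonneg _ (hg0 n i) x
  have hA1 : ∀ i k x, Av (r k) (R i) x ≤ 1 := fun i k x =>
    le_of_tendsto' (hR i (r k) x) fun n => Av_le_one _ (hgm n i) (hg0 n i) (hg1 n i) x
  have hAs : ∀ k x, ∑ i, Av (r k) (R i) x = Av (r k) wt x := by
    intro k x
    refine tendsto_nhds_unique (tendsto_finsetSum _ fun i _ => hR i (r k) x)
      (tendsto_const_nhds.congr fun n => ?_)
    rw [← Av_sum _ _ _ _ (fun i _ => intOn (hgm n i) (hg0 n i) (hg1 n i) x _)]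
    congr 1
    funext y
    rw [← Finset.mul_sum, sum_ind, mul_one]
  have bd : ∀ (k : ℕ) (z : ℝ × ℂ) (u v : Fin 5 → ℝ), (∀ i, 0 ≤ u i) → (∀ i, u i ≤ 1) →
      (∀ i, 0 ≤ v i) → (∀ i, v i ≤ 1) → ‖cut k z * ∑ i, u i * v i‖ ≤ 5 := by
    intro k z u v hu0 hu1 hv0 hv1
    have t0 : 0 ≤ ∑ i, u i * v i := Finset.sum_nonneg fun i _ => mul_nonneg (hu0 i) (hv0 i)
    have t1 : ∑ i, u i * v i ≤ ∑ _i : Fin 5, (1 : ℝ) :=
      Finset.sum_le_sum fun i _ => mul_le_one₀ (hu1 i) (hv0 i) (hv1 i)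
    rw [Real.norm_eq_abs, abs_of_nonneg (mul_nonneg (cut_nonneg k z) t0)]
    have t2 := mul_le_of_le_one_left t0 (cut_le_one k z)
    simp at t1
    linarith
  have ms : ∀ (k : ℕ) (u : Fin 5 → ℂ → ℝ), (∀ i, Measurable (u i)) →
      Measurable fun z : ℝ × ℂ => cut k z * ∑ i, Av (r k) (u i) z.2 *
        Av (r k) (u i) (z.2 + ex z.1) := fun k u hu =>
    (measurable_cut k).mul (Finset.measurable_sum _ fun i _ =>
      ((measurable_Av _ (hu i)).comp measurable_snd).mul
        ((measurable_Av _ (hu i)).comp measurable_sh))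
  have hF : ∀ k, ∫ z, cut k z * ∑ i, Av (r k) (R i) z.2 * Av (r k) (R i) (z.2 + ex z.1) ∂ν ≤
      2 * (1 / 2) ^ k := by
    intro k
    have t1 := tendsto_integral_of_dominated_convergence (μ := ν)
      (F := fun n z => cut k z * ∑ i, Av (r k) (g n i) z.2 * Av (r k) (g n i) (z.2 + ex z.1))
      (f := fun z => cut k z * ∑ i, Av (r k) (R i) z.2 * Av (r k) (R i) (z.2 + ex z.1))
      (fun _ => 5) (fun n => (ms k (g n) (hgm n)).aestronglyMeasurable) (integrable_const _)
      (fun n => Eventually.of_forall fun z => bd k z _ _ (fun i => Av_nonneg _ (hg0 n i) _)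
        (fun i => Av_le_one _ (hgm n i) (hg0 n i) (hg1 n i) _) (fun i => Av_nonneg _ (hg0 n i) _)
        (fun i => Av_le_one _ (hgm n i) (hg0 n i) (hg1 n i) _))
      (Eventually.of_forall fun z => Tendsto.const_mul _ (tendsto_finsetSum _ fun i _ =>
        (hR i (r k) _).mul (hR i (r k) _)))
    refine le_of_tendsto t1 ?_
    filter_upwards [eventually_ge_atTop k] with n hn
    refine le_trans ?_ (hc (φ n) k (hn.trans (hφ.id_le n)))
    have hi0 := ind_nonneg (c (φ n))
    have hi1 := ind_le_one (c (φ n))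
    have him := measurable_ind (hcm (φ n))
    refine integral_mono_of_nonneg (Eventually.of_forall fun z => mul_nonneg (cut_nonneg k z)
      (Finset.sum_nonneg fun i _ => mul_nonneg (Av_nonneg _ (hg0 n i) _)
        (Av_nonneg _ (hg0 n i) _)))
      (Integrable.of_bound (ms k _ him).aestronglyMeasurable 5 (Eventually.of_forall fun z =>
        bd k z _ _ (fun i => Av_nonneg _ (hi0 i) _)
        (fun i => Av_le_one _ (him i) (hi0 i) (hi1 i) _) (fun i => Av_nonneg _ (hi0 i) _)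
        (fun i => Av_le_one _ (him i) (hi0 i) (hi1 i) _)))
      (Eventually.of_forall fun z => ?_)
    have hmono : ∀ i x, Av (r k) (g n i) x ≤ Av (r k) (ind (c (φ n)) i) x := fun i x =>
      Av_mono _ x (intOn (hgm n i) (hg0 n i) (hg1 n i) x _) (intOn (him i) (hi0 i) (hi1 i) x _)
        (hgi n i)
    exact mul_le_mul_of_nonneg_left (Finset.sum_le_sum fun i _ => mul_le_mul (hmono i _)
      (hmono i _) (Av_nonneg _ (hg0 n i) _) (Av_nonneg _ (hi0 i) _)) (cut_nonneg k z)
  have hrr : Tendsto r atTop (𝓝[>] 0) :=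
    tendsto_nhdsWithin_iff.2 ⟨hr0, Eventually.of_forall hr⟩
  have leb : ∀ f : ℂ → ℝ, LocallyIntegrable f →
      ∀ᵐ x : ℂ, Tendsto (fun k => Av (r k) f x) atTop (𝓝 (f x)) := by
    intro f hf
    filter_upwards [IsUnifLocDoublingMeasure.ae_tendsto_average volume hf 1] with x hx
    simp_rw [Av_eq]
    exact hx (fun _ => x) r hrr (Eventually.of_forall fun k => by simp [(hr k).le])
  have good : ∀ᵐ x : ℂ, (∀ i, Tendsto (fun k => Av (r k) (R i) x) atTop (𝓝 (R i x))) ∧
      (∀ i, 0 ≤ R i x) ∧ (∀ i, R i x ≤ 1) ∧ ∃ i, 0 < R i x := by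
    filter_upwards [ae_all_iff.2 fun i => leb (R i) (hRl i),
      leb wt integrable_wt.locallyIntegrable] with x h1 h2
    refine ⟨h1, fun i => ge_of_tendsto' (h1 i) fun k => hA0 i k x,
      fun i => le_of_tendsto' (h1 i) fun k => hA1 i k x, ?_⟩
    have h3 : ∑ i, R i x = wt x :=
      tendsto_nhds_unique (tendsto_finsetSum _ fun i _ => h1 i) (h2.congr fun k => (hAs k x).symm)
    by_contra hh
    push Not at hh
    have h4 : ∑ i, R i x ≤ 0 := Finset.sum_nonpos fun i _ => hh i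
    linarith [wt_pos x]
  have good2 := (ae_snd good).and (ae_sh good)
  have hae : ae ν = ae volume := ae_toFinite
  have hlim := tendsto_integral_of_dominated_convergence (μ := ν)
    (F := fun k z => cut k z * ∑ i, Av (r k) (R i) z.2 * Av (r k) (R i) (z.2 + ex z.1))
    (f := fun z => ∑ i, R i z.2 * R i (z.2 + ex z.1))
    (fun _ => 5) (fun k => (ms k R hRm).aestronglyMeasurable) (integrable_const _)
    (fun k => Eventually.of_forall fun z => bd k z _ _ (fun i => hA0 i k _) (fun i => hA1 i k _)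
      (fun i => hA0 i k _) (fun i => hA1 i k _))
    (by
      rw [hae]
      filter_upwards [good2] with z hz
      refine (tendsto_finsetSum _ fun i _ => (hz.1.1 i).mul (hz.2.1 i)).congr' ?_
      filter_upwards [(tendsto_natCast_atTop_atTop (R := ℝ)).eventually_ge_atTop ‖z.2‖] with k hk
      simp [cut, hk])
  have hz0 : Tendsto (fun k : ℕ => 2 * (1 / 2 : ℝ) ^ k) atTop (𝓝 0) := by
    simpa using (tendsto_pow_atTop_nhds_zero_of_lt_one (r := (1 / 2 : ℝ)) (by norm_num)
      (by norm_num)).const_mul 2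
  have hle := le_of_tendsto_of_tendsto' hlim hz0 hF
  have hnn : 0 ≤ᵐ[ν] fun z : ℝ × ℂ => ∑ i, R i z.2 * R i (z.2 + ex z.1) := by
    rw [hae]
    filter_upwards [good2] with z hz
    exact Finset.sum_nonneg fun i _ => mul_nonneg (hz.1.2.1 i) (hz.2.2.1 i)
  have hint : Integrable (fun z : ℝ × ℂ => ∑ i, R i z.2 * R i (z.2 + ex z.1)) ν := by
    refine Integrable.of_bound (Finset.measurable_sum _ fun i _ =>
      ((hRm i).comp measurable_snd).mul ((hRm i).comp measurable_sh)).aestronglyMeasurable 5 ?_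
    rw [hae]
    filter_upwards [good2] with z hz
    have := bd 0 0 _ _ hz.1.2.1 hz.1.2.2.1 hz.2.2.1 hz.2.2.2.1
    simpa [cut] using this
  have hzero := (integral_eq_zero_iff_of_nonneg_ae hnn hint).1
    (le_antisymm hle (integral_nonneg_of_ae hnn))
  rw [hae] at hzero
  let cs : ℂ → Fin 5 := fun x => if 0 < R 0 x then 0 else if 0 < R 1 x then 1 else
    if 0 < R 2 x then 2 else if 0 < R 3 x then 3 else 4
  have hms : ∀ i, MeasurableSet {x | 0 < R i x} := fun i =>
    measurableSet_lt measurable_const (hRm i)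
  have hcs : ∀ x, (∃ i, 0 < R i x) → 0 < R (cs x) x := by
    rintro x ⟨i, hi⟩
    simp only [cs]
    split_ifs with h0 h1 h2 h3
    · exact h0
    · exact h1
    · exact h2
    · exact h3
    · fin_cases i
      · exact absurd hi h0
      · exact absurd hi h1
      · exact absurd hi h2
      · exact absurd hi h3
      · exact hi
  refine ⟨cs, Measurable.ite (hms 0) measurable_const (Measurable.ite (hms 1) measurable_const
    (Measurable.ite (hms 2) measurable_const (Measurable.ite (hms 3) measurable_const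
      measurable_const))), ?_⟩
  filter_upwards [good2, hzero] with z hz h0 heq
  have p1 := hcs _ hz.1.2.2.2
  have p2 := hcs _ hz.2.2.2.2
  rw [← heq] at p2
  have p3 := Finset.single_le_sum (f := fun i => R i z.2 * R i (z.2 + ex z.1))
    (fun i _ => mul_nonneg (hz.1.2.1 i) (hz.2.2.1 i)) (Finset.mem_univ (cs z.2))
  have p4 := mul_pos p1 p2
  simp only [Pi.zero_apply] at h0
  linarith

end Vale.Agent.P032
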