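import Vale.Agent.P032.Null

/-! Task C2: Baire recolouring (see docs/P032.md, part C). -/

namespace Vale.Agent.P032

open Filter Topology MeasureTheory

namespace PC

theorem norm_ex (t : ℝ) : ‖ex t‖ = 1 := by
  unfold ex
  exact Complex.norm_exp_ofReal_mul_I t

theorem continuous_ex : Continuous ex := by
  unfold ex
  fun_prop

theorem continuous_sh : Continuous (fun p : ℝ × ℂ => p.2 + ex p.1) :=
  continuous_snd.add (continuous_ex.comp continuous_fst)

theorem measurable_sh : Measurable (fun p : ℝ × ℂ => p.2 + ex p.1) := continuous_sh.measurable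

theorem ae_ae_of {p : ℝ × ℂ → Prop} (h : ∀ᵐ q : ℝ × ℂ, p q) : ∀ᵐ x : ℂ, ∀ᵐ t : ℝ, p (t, x) := by
  rw [Measure.volume_eq_prod] at h
  exact Measure.ae_ae_of_ae_prod
    ((Measure.measurePreserving_swap (μ := (volume : Measure ℂ))
      (ν := (volume : Measure ℝ))).quasiMeasurePreserving.ae h)

theorem of_ae_ae {p : ℝ × ℂ → Prop} (hm : MeasurableSet {q | p q})
    (h : ∀ x : ℂ, ∀ᵐ t : ℝ, p (t, x)) : ∀ᵐ q : ℝ × ℂ, p q := by
  rw [Measure.volume_eq_prod]
  refine (Measure.ae_prod_iff_ae_ae hm).2 ?_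
  exact (Measure.ae_ae_comm (p := fun t x => p (t, x)) hm).2 (Eventually.of_forall h)

theorem ae_snd {p : ℂ → Prop} (h : ∀ᵐ z : ℂ, p z) : ∀ᵐ q : ℝ × ℂ, p q.2 := by
  rw [Measure.volume_eq_prod]
  exact Measure.quasiMeasurePreserving_snd.ae h

theorem exists_choice (A : Fin 5 → Set ℂ) (hA : ∀ j, MeasurableSet (A j)) (d : Fin 5) :
    ∃ J : ℂ → Fin 5, Measurable J ∧ (∀ y, (∃ j, y ∈ A j) → y ∈ A (J y)) ∧
      ∀ y, (¬ ∃ j, y ∈ A j) → J y = d := by
  classical
  refine ⟨fun y => if y ∈ A 0 then 0 else if y ∈ A 1 then 1 else if y ∈ A 2 then 2 else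
    if y ∈ A 3 then 3 else if y ∈ A 4 then 4 else d,
    Measurable.ite (hA 0) measurable_const (Measurable.ite (hA 1) measurable_const
      (Measurable.ite (hA 2) measurable_const (Measurable.ite (hA 3) measurable_const
        (Measurable.ite (hA 4) measurable_const measurable_const)))), ?_, ?_⟩
  · rintro y ⟨j, hj⟩
    dsimp only
    split_ifs with h0 h1 h2 h3 h4
    · exact h0
    · exact h1
    · exact h2
    · exact h3
    · exact h4
    · fin_cases j
      · exact absurd hj h0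
      · exact absurd hj h1
      · exact absurd hj h2
      · exact absurd hj h3
      · exact absurd hj h4
  · intro y hy
    push Not at hy
    simp [hy]

theorem measurableSet_free {c : ℂ → Fin 5} (hc : Measurable c) (j : Fin 5) :
    MeasurableSet {y : ℂ | ∀ᵐ φ : ℝ, c (y + ex φ) ≠ j} := by
  have h1 : MeasurableSet {q : ℂ × ℝ | ¬ c (q.1 + ex q.2) ≠ j} := by
    have h0 : Measurable fun q : ℂ × ℝ => c (q.1 + ex q.2) :=
      hc.comp (measurable_sh.comp measurable_swap)
    simp only [not_not]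
    exact h0 (measurableSet_singleton j)
  have h2 := measurable_measure_prodMk_left (ν := (volume : Measure ℝ)) h1
  have h3 := h2 (measurableSet_singleton 0)
  convert h3 using 1
  ext y
  simp only [Set.mem_ofPred_eq, ae_iff, Set.mem_preimage, Set.mem_singleton_iff]
  rfl

end PC

open PC in
/-- one recolouring step -/
theorem recolour_step {c : ℂ → Fin 5} (hc : Measurable c) (hp : AEProper c) {W : Fin 5 → Set ℂ}
    (hW : ∀ i, IsOpen (W i)) (hcW : ∀ i, ∀ x ∈ W i, c x = i) {B : Set ℂ} (hB : IsOpen B)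
    (hne : B.Nonempty) :
    ∃ (c' : ℂ → Fin 5) (W' : Fin 5 → Set ℂ), Measurable c' ∧ AEProper c' ∧ (∀ i, IsOpen (W' i)) ∧
      (∀ i, ∀ x ∈ W' i, c' x = i) ∧ (∀ i, W i ⊆ W' i) ∧ ∃ i, (W' i ∩ B).Nonempty := by
  classical
  by_cases hmeet : ∃ i, (W i ∩ B).Nonempty
  · exact ⟨c, W, hc, hp, hW, hcW, fun _ => le_rfl, hmeet⟩
  have hdis : ∀ i, ∀ x ∈ B, x ∉ W i := fun i x hx hxW => hmeet ⟨i, x, hxW, hx⟩
  let F : Fin 5 → Set ℂ := fun i =>
    {x : ℂ | ∀ᵐ θ : ℝ, ∃ j, j ≠ i ∧ ∀ᵐ φ : ℝ, c (x + ex θ + ex φ) ≠ j} ∩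
      ⋂ θ : ℝ, {x | x + ex θ ∉ W i}
  have hF : ∀ i, IsClosed (F i) := fun i => (isClosed_free hc i).inter
    (isClosed_iInter fun θ => ((hW i).preimage (continuous_id.add continuous_const)).isClosed_compl)
  have hG : ∀ᵐ x : ℂ, ∀ᵐ φ : ℝ, c x ≠ c (x + ex φ) := ae_ae_of hp
  have hG2 : ∀ᵐ x : ℂ, ∀ᵐ θ : ℝ, ∀ᵐ φ : ℝ, c (x + ex θ) ≠ c (x + ex θ + ex φ) :=
    ae_ae_of (ae_swap (p := fun x _ => ∀ᵐ φ : ℝ, c x ≠ c (x + ex φ)) (ae_snd hG))
  have hFae : ∀ᵐ x : ℂ, x ∈ ⋃ i, F i := by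
    filter_upwards [hG, hG2] with x h1 h2
    refine Set.mem_iUnion.2 ⟨c x, ?_, Set.mem_iInter.2 fun θ hθ => ?_⟩
    · filter_upwards [h1, h2] with θ h3 h4
      exact ⟨c (x + ex θ), h3.symm, h4.mono fun φ h5 => h5.symm⟩
    · have ho : IsOpen {t : ℝ | x + ex t ∈ W (c x)} :=
        (hW _).preimage (continuous_const.add continuous_ex)
      have := ho.measure_ne_zero volume ⟨θ, hθ⟩
      refine this (measure_mono_null (fun t ht => ?_) (ae_iff.1 h1))
      simp only [Set.mem_ofPred_eq, not_not]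
      exact (hcW _ _ ht).symm
  have hFu : ⋃ i, F i = Set.univ := by
    rw [← (isClosed_iUnion_of_finite hF).closure_eq]
    exact (Measure.dense_of_ae hFae).closure_eq
  obtain ⟨x0, hx0⟩ := hne
  obtain ⟨x1, hx1, hx1F⟩ := (dense_iUnion_interior_of_closed hF hFu).inter_open_nonempty
    (B ∩ Metric.ball x0 (1 / 4)) (hB.inter Metric.isOpen_ball)
    ⟨x0, hx0, Metric.mem_ball_self (by norm_num)⟩
  obtain ⟨i, hi⟩ := Set.mem_iUnion.1 hx1F
  let B' : Set ℂ := (B ∩ Metric.ball x0 (1 / 4)) ∩ interior (F i)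
  have hB' : IsOpen B' := (hB.inter Metric.isOpen_ball).inter isOpen_interior
  let A : Fin 5 → Set ℂ := fun j => {y | j ≠ i ∧ ∀ᵐ φ : ℝ, c (y + ex φ) ≠ j}
  have hA : ∀ j, MeasurableSet (A j) := fun j =>
    (MeasurableSet.const (j ≠ i)).inter (measurableSet_free hc j)
  obtain ⟨J, hJ, hJ1, hJ2⟩ := exists_choice A hA i
  let S : Set ℂ := ⋃ j, A j
  have hS : MeasurableSet S := MeasurableSet.iUnion hA
  let c' : ℂ → Fin 5 := fun y => if y ∈ B' then i else if y ∉ W i ∧ c y = i then J y else c y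
  have hc' : Measurable c' := Measurable.ite hB'.measurableSet measurable_const
    (Measurable.ite ((hW i).measurableSet.compl.inter (hc (measurableSet_singleton i))) hJ hc)
  let P : ℂ → ℂ → Prop := fun x y => (x ∈ B' → y ∉ B' ∧ y ∉ W i ∧ y ∈ S) ∧ (x ∈ S → c y ≠ J x)
  have hP : ∀ᵐ q : ℝ × ℂ, P q.2 (q.2 + ex q.1) := by
    refine of_ae_ae (p := fun q => P q.2 (q.2 + ex q.1)) ?_ fun x => ?_
    · refine MeasurableSet.inter (MeasurableSet.imp (measurable_snd hB'.measurableSet)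
        ((measurable_sh hB'.measurableSet).compl.inter
          ((measurable_sh (hW i).measurableSet).compl.inter (measurable_sh hS))))
        (MeasurableSet.imp (measurable_snd hS) ?_)
      exact (measurableSet_eq_fun (hc.comp measurable_sh) (hJ.comp measurable_snd)).compl
    · refine Eventually.and ?_ ?_
      · by_cases hx : x ∈ B'
        · have hxF : x ∈ F i := interior_subset hx.2
          filter_upwards [hxF.1] with θ hθ _
          refine ⟨fun hy => ?_, Set.mem_iInter.1 hxF.2 θ, Set.mem_iUnion.2 hθ⟩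
          have t1 := hx.1.2
          have t2 := hy.1.2
          rw [Metric.mem_ball, dist_eq_norm] at t1 t2
          have t3 := norm_sub_le (x + ex θ - x0) (x - x0)
          have t4 : x + ex θ - x0 - (x - x0) = ex θ := by ring
          rw [t4, norm_ex] at t3
          linarith
        · exact Eventually.of_forall fun θ h => absurd h hx
      · by_cases hx : x ∈ S
        · filter_upwards [(hJ1 x (Set.mem_iUnion.1 hx)).2] with θ hθ _
          exact hθ
        · exact Eventually.of_forall fun θ h => absurd h hx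
  have half1 : ∀ x y, P x y → x ∈ B' → c' x ≠ c' y := by
    intro x y hxy hx
    obtain ⟨t1, t2, t3⟩ := hxy.1 hx
    by_cases hy : c y = i
    · have := (hJ1 y (Set.mem_iUnion.1 t3)).1
      simp only [c', hx, t1, t2, hy, if_true, if_false, not_false_eq_true, and_self]
      exact this.symm
    · simp only [c', hx, t1, hy, if_true, if_false, and_false]
      exact fun h => hy h.symm
  have half2 : ∀ x y, c x ≠ c y → P x y → x ∉ B' → y ∉ B' → (x ∉ W i ∧ c x = i) →
      c' x ≠ c' y := by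
    intro x y hne hxy hx hy hr
    have hyi : ¬ c y = i := fun h => hne (hr.2.trans h.symm)
    simp only [c', hx, hy, hr, hyi, if_true, if_false, and_false, not_false_eq_true, and_self]
    by_cases hxS : x ∈ S
    · exact (hxy.2 hxS).symm
    · rw [hJ2 x fun h => hxS (Set.mem_iUnion.2 h)]
      exact fun h => hyi h.symm
  refine ⟨c', fun k => if k = i then W i ∪ B' else W k, hc', ?_, fun k => ?_, fun k x hx => ?_,
    fun k => ?_, ⟨i, x1, ?_, hx1.1⟩⟩
  · filter_upwards [hp, hP, ae_swap hP] with q h1 h2 h3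
    by_cases hx : q.2 ∈ B'
    · exact half1 _ _ h2 hx
    by_cases hy : q.2 + ex q.1 ∈ B'
    · exact (half1 _ _ h3 hy).symm
    by_cases hrx : q.2 ∉ W i ∧ c q.2 = i
    · exact half2 _ _ h1 h2 hx hy hrx
    by_cases hry : q.2 + ex q.1 ∉ W i ∧ c (q.2 + ex q.1) = i
    · exact (half2 _ _ h1.symm h3 hy hx hry).symm
    simp only [c', hx, hy, hrx, hry, if_false]
    exact h1
  · dsimp only
    split_ifs
    · exact (hW i).union hB'
    · exact hW k
  · by_cases hk : k = i
    · subst hk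
      simp only [if_true] at hx
      by_cases hxB : x ∈ B'
      · simp only [c', hxB, if_true]
      · have hxW : x ∈ W k := hx.resolve_right hxB
        simp only [c', hxB, hxW, if_false, not_true_eq_false, false_and]
        exact hcW k x hxW
    · simp only [hk, if_false] at hx
      have hxB : x ∉ B' := fun h => hdis k x h.1.1 hx
      have hxi : ¬ c x = i := by rw [hcW k x hx]; exact hk
      simp only [c', hxB, hxi, if_false, and_false]
      exact hcW k x hx
  · by_cases hk : k = i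
    · subst hk
      simp only [if_true]
      exact Set.subset_union_left
    · simp only [hk, if_false]
      exact le_rfl
  · simp only [if_true]
    exact Or.inr ⟨hx1, hi⟩

open PC in
/-- an open set on which an a.e. proper colouring is constant has no unit distance -/
theorem no_unit_of_open {c : ℂ → Fin 5} (hp : AEProper c) {W : Set ℂ} (hW : IsOpen W) {i : Fin 5}
    (hcW : ∀ x ∈ W, c x = i) : ∀ x ∈ W, ∀ y ∈ W, ‖x - y‖ ≠ 1 := by
  intro x hx y hy hxy
  obtain ⟨θ, hθ⟩ := (Complex.norm_eq_one_iff _).1 hxy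
  have ho : IsOpen {q : ℝ × ℂ | q.2 ∈ W ∧ q.2 + ex q.1 ∈ W} :=
    (hW.preimage continuous_snd).inter (hW.preimage continuous_sh)
  have hxe : y + ex θ = x := by
    unfold ex
    rw [hθ]; ring
  have := ho.measure_ne_zero volume ⟨(θ, y), hy, by simpa [hxe] using hx⟩
  refine this (measure_mono_null (fun q hq => ?_) (ae_iff.1 hp))
  simp only [Set.mem_ofPred_eq, not_not]
  rw [hcW _ hq.1, hcW _ hq.2]

theorem partC (h : BOut) : COut := by
  obtain ⟨c0, hc0, hp0⟩ := h
  obtain ⟨b, hbc, hb0, hb⟩ := TopologicalSpace.exists_countable_basis ℂ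
  obtain ⟨u, hu, -⟩ := hb.exists_subset_of_mem_open (Set.mem_univ (0 : ℂ)) isOpen_univ
  obtain ⟨e, he⟩ := hbc.exists_eq_range ⟨u, hu⟩
  have heb : ∀ n, e n ∈ b := fun n => he ▸ Set.mem_range_self n
  let St := {s : (ℂ → Fin 5) × (Fin 5 → Set ℂ) //
    Measurable s.1 ∧ AEProper s.1 ∧ (∀ i, IsOpen (s.2 i)) ∧ ∀ i, ∀ x ∈ s.2 i, s.1 x = i}
  have step : ∀ (n : ℕ) (s : St), ∃ s' : St, (∀ i, s.1.2 i ⊆ s'.1.2 i) ∧
      ∃ i, (s'.1.2 i ∩ e n).Nonempty := by
    intro n s
    obtain ⟨c', W', h1, h2, h3, h4, h5, h6⟩ := recolour_step s.2.1 s.2.2.1 s.2.2.2.1 s.2.2.2.2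
      (hb.isOpen (heb n)) (Set.nonempty_iff_ne_empty.2 fun h => hb0 (h ▸ heb n))
    exact ⟨⟨(c', W'), h1, h2, h3, h4⟩, h5, h6⟩
  choose f hf1 hf2 using step
  let s : ℕ → St := fun n => Nat.rec ⟨(c0, fun _ => ∅), hc0, hp0, fun _ => isOpen_empty,
    fun _ _ h => h.elim⟩ (fun n s => f n s) n
  have hs : ∀ n, s (n + 1) = f n (s n) := fun n => rfl
  have hmono : ∀ i, Monotone fun n => (s n).1.2 i := fun i =>
    monotone_nat_of_le_succ fun n => by rw [hs]; exact hf1 n (s n) i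
  refine ⟨fun i => ⋃ n, (s n).1.2 i, fun i => isOpen_iUnion fun n => (s n).2.2.2.1 i,
    fun i j hij => ?_, fun i x hx y hy => ?_, ?_⟩
  · rw [Set.disjoint_left]
    intro x hx hy
    obtain ⟨n, hn⟩ := Set.mem_iUnion.1 hx
    obtain ⟨m, hm⟩ := Set.mem_iUnion.1 hy
    have h1 := (s (max n m)).2.2.2.2 i x (hmono i (le_max_left n m) hn)
    have h2 := (s (max n m)).2.2.2.2 j x (hmono j (le_max_right n m) hm)
    exact hij (h1.symm.trans h2)
  · obtain ⟨n, hn⟩ := Set.mem_iUnion.1 hx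
    obtain ⟨m, hm⟩ := Set.mem_iUnion.1 hy
    exact no_unit_of_open (s (max n m)).2.2.1 ((s (max n m)).2.2.2.1 i)
      ((s (max n m)).2.2.2.2 i) x (hmono i (le_max_left n m) hn) y
      (hmono i (le_max_right n m) hm)
  · rw [hb.dense_iff]
    intro o ho _
    rw [he] at ho
    obtain ⟨n, rfl⟩ := ho
    obtain ⟨i, x, hx1, hx2⟩ := hf2 n (s n)
    exact ⟨x, hx2, Set.mem_iUnion.2 ⟨i, Set.mem_iUnion.2 ⟨n + 1, hx1⟩⟩⟩

end Vale.Agent.P032
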