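import Vale.Agent.P032.PartA
import Vale.Agent.P032.PartB
import Vale.Agent.P032.PartC
import Vale.Agent.P032.D6

namespace Vale.Agent.P032

theorem not_five_colourable_complex (c : ℂ → Fin 5) : ∃ x y, ‖x - y‖ = 1 ∧ c x = c y := by
  by_contra h
  exact partD (partC (partB (partA c fun x y hxy e => h ⟨x, y, hxy, e⟩)))

theorem not_five_colourable (c : EuclideanSpace ℝ (Fin 2) → Fin 5) :
    ∃ x y, ‖x - y‖ = 1 ∧ c x = c y := by
  obtain ⟨x, y, h1, h2⟩ :=
    not_five_colourable_complex fun z => c (Complex.orthonormalBasisOneI.repr z)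
  exact ⟨_, _, by rw [← map_sub, LinearIsometryEquiv.norm_map, h1], h2⟩

theorem six_le (k : ℕ) (c : EuclideanSpace ℝ (Fin 2) → Fin k)
    (hc : ∀ x y, ‖x - y‖ = 1 → c x ≠ c y) : 6 ≤ k := by
  by_contra h
  obtain ⟨x, y, h1, h2⟩ := not_five_colourable fun z => Fin.castLE (by omega) (c z)
  exact hc x y h1 (Fin.castLE_injective _ h2)

end Vale.Agent.P032
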