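import Vale.Agent.P032.Defs

/-! Task A1: invariant means. -/

namespace Vale.Agent.P032

open Filter Topology

theorem meanBdd_const {X : Type*} (c : ℝ) : Bdd (fun _ : X => c) := ⟨|c|, fun _ => le_rfl⟩

theorem meanBdd_sub {X : Type*} {f g : X → ℝ} (hf : Bdd f) (hg : Bdd g) :
    Bdd (fun x => f x - g x) := by
  obtain ⟨A, hA⟩ := hf
  obtain ⟨B, hB⟩ := hg
  exact ⟨A + B, fun x => (abs_sub _ _).trans (add_le_add (hA x) (hB x))⟩

theorem meanBdd_mul {X : Type*} {f g : X → ℝ} (hf : Bdd f) (hg : Bdd g) :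
    Bdd (fun x => f x * g x) := by
  obtain ⟨A, hA⟩ := hf
  obtain ⟨B, hB⟩ := hg
  refine ⟨A * B, fun x => ?_⟩
  rw [abs_mul]
  exact mul_le_mul (hA x) (hB x) (abs_nonneg _) ((abs_nonneg _).trans (hA x))

theorem meanBdd_comp {X Y : Type*} {f : X → ℝ} (hf : Bdd f) (u : Y → X) :
    Bdd (fun y => f (u y)) := by
  obtain ⟨A, hA⟩ := hf
  exact ⟨A, fun y => hA (u y)⟩

/-- the submodule of bounded functions -/
def meanSub (X : Type*) : Submodule ℝ (X → ℝ) where
  carrier := {f | Bdd f}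
  add_mem' := by
    rintro f g ⟨A, hA⟩ ⟨B, hB⟩
    exact ⟨A + B, fun x => (abs_add_le _ _).trans (add_le_add (hA x) (hB x))⟩
  zero_mem' := meanBdd_const 0
  smul_mem' := fun c _ hf => meanBdd_mul (meanBdd_const c) hf

theorem mean_ulim {X ι : Type*} (U : Ultrafilter ι) (A : ι → (X → ℝ) →ₗ[ℝ] ℝ)
    (hA : ∀ (f : X → ℝ) (B : ℝ), (∀ x, |f x| ≤ B) → ∀ i, |A i f| ≤ B) :
    ∃ M : (X → ℝ) →ₗ[ℝ] ℝ, ∀ f, Bdd f → Tendsto (fun i => A i f) U (𝓝 (M f)) := by
  have h1 : ∀ f : meanSub X, ∃ m : ℝ, Tendsto (fun i => A i f) U (𝓝 m) := by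
    rintro ⟨f, B, hB⟩
    obtain ⟨m, -, hm⟩ := (isCompact_Icc (a := -B) (b := B)).ultrafilter_le_nhds
      (U.map fun i => A i f) (by
        rw [Ultrafilter.coe_map, le_principal_iff, mem_map]
        exact univ_mem' fun i => abs_le.1 (hA f B hB i))
    exact ⟨m, hm⟩
  choose m hm using h1
  let M₀ : meanSub X →ₗ[ℝ] ℝ :=
    { toFun := m
      map_add' := fun f g => by
        refine tendsto_nhds_unique (hm (f + g)) ?_
        simpa only [Submodule.coe_add, map_add] using (hm f).add (hm g)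
      map_smul' := fun c f => by
        refine tendsto_nhds_unique (hm (c • f)) ?_
        simpa only [Submodule.coe_smul, map_smul, RingHom.id_apply] using (hm f).const_smul c }
  obtain ⟨M, hM⟩ := LinearMap.exists_extend M₀
  refine ⟨M, fun f hf => ?_⟩
  have h2 : M f = m ⟨f, hf⟩ := LinearMap.congr_fun hM ⟨f, hf⟩
  rw [h2]
  exact hm ⟨f, hf⟩

/-- average over an arithmetic progression -/
noncomputable def meanStep {G : Type*} [AddCommGroup G] (N : ℕ) (g : G) :
    (G → ℝ) →ₗ[ℝ] (G → ℝ) where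
  toFun f x := (∑ k ∈ Finset.range (N + 1), f (x + k • g)) / (N + 1)
  map_add' f f' := by
    funext x
    simp only [Pi.add_apply, Finset.sum_add_distrib, add_div]
  map_smul' c f := by
    funext x
    simp only [Pi.smul_apply, smul_eq_mul, RingHom.id_apply, ← Finset.mul_sum, mul_div_assoc]

theorem meanStep_apply {G : Type*} [AddCommGroup G] (N : ℕ) (g : G) (f : G → ℝ) (x : G) :
    meanStep N g f x = (∑ k ∈ Finset.range (N + 1), f (x + k • g)) / (N + 1) := rfl

theorem meanStep_abs_le {G : Type*} [AddCommGroup G] (N : ℕ) (g : G) {f : G → ℝ} {B : ℝ}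
    (h : ∀ x, |f x| ≤ B) (x : G) : |meanStep N g f x| ≤ B := by
  have hN : (0 : ℝ) < N + 1 := by positivity
  rw [meanStep_apply, abs_div, abs_of_pos hN, div_le_iff₀ hN]
  refine (Finset.abs_sum_le_sum_abs _ _).trans ?_
  refine (Finset.sum_le_sum fun k _ => h _).trans (le_of_eq ?_)
  simp [mul_comm]

/-- iterated averages -/
noncomputable def meanAv {G : Type*} [AddCommGroup G] (N : ℕ) :
    List G → (G → ℝ) →ₗ[ℝ] (G → ℝ)
  | [] => LinearMap.id
  | g :: l => meanStep N g ∘ₗ meanAv N l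

theorem meanAv_abs_le {G : Type*} [AddCommGroup G] (N : ℕ) (l : List G) {f : G → ℝ} {B : ℝ}
    (h : ∀ x, |f x| ≤ B) (x : G) : |meanAv N l f x| ≤ B := by
  induction l generalizing x with
  | nil => exact h x
  | cons g l ih => exact meanStep_abs_le N g ih x

theorem meanAv_nonneg {G : Type*} [AddCommGroup G] (N : ℕ) (l : List G) {f : G → ℝ}
    (h : ∀ x, 0 ≤ f x) (x : G) : 0 ≤ meanAv N l f x := by
  induction l generalizing x with
  | nil => exact h x
  | cons g l ih =>
    change 0 ≤ meanStep N g (meanAv N l f) x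
    rw [meanStep_apply]
    exact div_nonneg (Finset.sum_nonneg fun k _ => ih _) (by positivity)

theorem meanAv_one {G : Type*} [AddCommGroup G] (N : ℕ) (l : List G) (x : G) :
    meanAv N l (fun _ => 1) x = 1 := by
  induction l generalizing x with
  | nil => rfl
  | cons g l ih =>
    change meanStep N g (meanAv N l fun _ => 1) x = 1
    have hN : (0 : ℝ) < N + 1 := by positivity
    rw [meanStep_apply, div_eq_one_iff_eq hN.ne']
    simp [ih]

theorem meanAv_shift {G : Type*} [AddCommGroup G] (N : ℕ) (l : List G) (f : G → ℝ) (h x : G) :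
    meanAv N l (fun y => f (y + h)) x = meanAv N l f (x + h) := by
  induction l generalizing x with
  | nil => rfl
  | cons g l ih =>
    change meanStep N g (meanAv N l fun y => f (y + h)) x = meanStep N g (meanAv N l f) (x + h)
    simp only [meanStep_apply, ih, add_right_comm x h]

theorem meanAv_inv {G : Type*} [AddCommGroup G] (N : ℕ) (l : List G) {f : G → ℝ} {B : ℝ}
    (h : ∀ x, |f x| ≤ B) {g : G} (hg : g ∈ l) (x : G) :
    |meanAv N l f (x + g) - meanAv N l f x| ≤ 2 * B / (N + 1) := by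
  have hN : (0 : ℝ) < N + 1 := by positivity
  induction l generalizing x with
  | nil => simp at hg
  | cons g' l ih =>
    change |meanStep N g' (meanAv N l f) (x + g) - meanStep N g' (meanAv N l f) x| ≤ _
    rcases List.mem_cons.1 hg with rfl | hg
    · have h1 := meanAv_abs_le N l h
      generalize meanAv N l f = F at h1
      rw [meanStep_apply, meanStep_apply, ← sub_div, ← Finset.sum_sub_distrib, abs_div,
        abs_of_pos hN]
      have h2 : ∀ k : ℕ, x + g + k • g = x + (k + 1) • g := fun k => by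
        rw [succ_nsmul]; abel
      simp only [h2]
      rw [Finset.sum_range_sub (fun k => F (x + k • g))]
      gcongr
      exact (abs_sub _ _).trans (by linarith [h1 (x + (N + 1) • g), h1 (x + 0 • g)])
    · have h1 := meanStep_abs_le N g' (ih hg) x
      have h2 : meanStep N g' (fun y => meanAv N l f (y + g) - meanAv N l f y) x =
          meanStep N g' (meanAv N l f) (x + g) - meanStep N g' (meanAv N l f) x := by
        simp only [meanStep_apply, Finset.sum_sub_distrib, sub_div, add_right_comm x g]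
      rwa [h2] at h1

/-- Every abelian group has an invariant mean.  Proof: Foelner boxes
`{∑ n_g g : 0 ≤ n_g < N}` indexed by `(S, N) : Finset G × ℕ`, averages over `S → Fin N`, limit along an
ultrafilter finer than `atTop`; the limit is linear on the submodule of bounded functions, extend
by `LinearMap.exists_extend`. -/
theorem exists_invMean (G : Type*) [AddCommGroup G] :
    ∃ M : (G → ℝ) →ₗ[ℝ] ℝ, IsInvMean M := by
  classical
  let U : Ultrafilter (Finset G × ℕ) := Ultrafilter.of atTop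
  have hU : (U : Filter (Finset G × ℕ)) ≤ atTop := Ultrafilter.of_le _
  obtain ⟨M, hM⟩ := mean_ulim U
    (fun i => LinearMap.proj (0 : G) ∘ₗ meanAv i.2 i.1.toList)
    (fun f B h i => meanAv_abs_le i.2 i.1.toList h 0)
  simp only [LinearMap.comp_apply, LinearMap.proj_apply] at hM
  refine ⟨M, ?_, fun f hf h => ?_, fun f hf g => ?_⟩
  · refine tendsto_nhds_unique (hM _ (meanBdd_const 1)) ?_
    simp only [meanAv_one]
    exact tendsto_const_nhds
  · exact ge_of_tendsto' (hM f hf) fun i => meanAv_nonneg _ _ h 0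
  · have h1 := (hM _ (meanBdd_comp hf fun x => x + g)).sub (hM f hf)
    obtain ⟨B, hB⟩ := hf
    have h2 : Tendsto (fun i : Finset G × ℕ => 2 * B / ((i.2 : ℝ) + 1)) U (𝓝 0) := by
      have h3 : Tendsto (fun n : ℕ => 2 * B / ((n : ℝ) + 1)) atTop (𝓝 0) :=
        tendsto_const_nhds.div_atTop
          (tendsto_atTop_add_const_right _ _ tendsto_natCast_atTop_atTop)
      refine (h3.comp ?_).mono_left hU
      rw [← prod_atTop_atTop_eq]
      exact tendsto_snd
    have h4 : ∀ᶠ i : Finset G × ℕ in U,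
        |meanAv i.2 i.1.toList (fun x => f (x + g)) 0 - meanAv i.2 i.1.toList f 0| ≤
          2 * B / ((i.2 : ℝ) + 1) := by
      refine ((eventually_ge_atTop (({g} : Finset G), 0)).filter_mono hU).mono fun i hi => ?_
      rw [meanAv_shift]
      refine meanAv_inv _ _ hB ?_ 0
      rw [Finset.mem_toList]
      exact hi.1 (Finset.mem_singleton_self g)
    have h5 := le_of_tendsto_of_tendsto h1.abs h2 h4
    exact sub_eq_zero.1 (abs_nonpos_iff.1 h5)

theorem IsInvMean.const {G : Type*} [AddCommGroup G] {M : (G → ℝ) →ₗ[ℝ] ℝ} (hM : IsInvMean M)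
    (c : ℝ) : M (fun _ => c) = c := by
  have h : (fun _ : G => c) = c • fun _ : G => (1 : ℝ) := by
    funext x
    simp
  rw [h, map_smul, hM.one, smul_eq_mul, mul_one]

theorem IsInvMean.mono {G : Type*} [AddCommGroup G] {M : (G → ℝ) →ₗ[ℝ] ℝ} (hM : IsInvMean M)
    {f g : G → ℝ} (hf : Bdd f) (hg : Bdd g) (h : ∀ x, f x ≤ g x) : M f ≤ M g := by
  have h1 := hM.nonneg (g - f) (meanBdd_sub hg hf) fun x => sub_nonneg.2 (h x)
  rw [map_sub] at h1
  linarith

theorem IsInvMean.abs_le {G : Type*} [AddCommGroup G] {M : (G → ℝ) →ₗ[ℝ] ℝ} (hM : IsInvMean M)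
    {f : G → ℝ} {B : ℝ} (h : ∀ x, |f x| ≤ B) : |M f| ≤ B := by
  have h1 := hM.mono ⟨B, h⟩ (meanBdd_const B) fun x => (_root_.abs_le.1 (h x)).2
  have h2 := hM.mono (meanBdd_const (-B)) ⟨B, h⟩ fun x => (_root_.abs_le.1 (h x)).1
  rw [hM.const] at h1 h2
  exact _root_.abs_le.2 ⟨h2, h1⟩

/-- unnormalised weight -/
noncomputable def meanW (x : ℝ) : ℝ := max 0 (|x - round x| - 1 / 3)

theorem meanW_nonneg (x : ℝ) : 0 ≤ meanW x := le_max_left _ _

theorem meanW_bdd : Bdd meanW := by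
  refine ⟨1, fun x => ?_⟩
  rw [abs_of_nonneg (meanW_nonneg x)]
  exact max_le zero_le_one (by linarith [abs_sub_round x])

theorem meanW_le (x h : ℝ) : meanW (x + h) ≤ meanW x + |h| := by
  have h1 : |x + h - round (x + h)| ≤ |x - round x| + |h| := by
    refine (round_le (x + h) (round x)).trans ?_
    rw [add_sub_right_comm]
    exact abs_add_le _ _
  refine max_le (add_nonneg (meanW_nonneg x) (abs_nonneg h)) ?_
  have h2 : |x - round x| - 1 / 3 ≤ meanW x := le_max_right _ _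
  linarith

theorem meanW_lip (x h : ℝ) : |meanW (x + h) - meanW x| ≤ |h| := by
  have h1 := meanW_le x h
  have h2 := meanW_le (x + h) (-h)
  rw [add_neg_cancel_right, abs_neg] at h2
  exact abs_le.2 ⟨by linarith, by linarith⟩

theorem meanW_ge (y : ℝ) (z : ℤ) : 1 / 6 - |y - z - 1 / 2| ≤ meanW y := by
  have h1 : |y - round y| - 1 / 3 ≤ meanW y := le_max_right _ _
  have h2 : 1 / 2 ≤ |(round y : ℝ) - z - 1 / 2| := by
    rcases le_or_gt (round y) z with h | h
    · have : (round y : ℝ) ≤ z := by exact_mod_cast h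
      exact le_abs.2 (Or.inr (by linarith))
    · have : (z : ℝ) + 1 ≤ round y := by exact_mod_cast h
      exact le_abs.2 (Or.inl (by linarith))
  have h3 : |(round y : ℝ) - z - 1 / 2| ≤ |y - z - 1 / 2| + |y - round y| := by
    have : (round y : ℝ) - z - 1 / 2 = (y - z - 1 / 2) - (y - round y) := by ring
    rw [this]
    exact abs_sub _ _
  linarith

theorem meanW_cover (x : ℝ) :
    1 / 12 ≤ ∑ k ∈ Finset.range 7, meanW (x + ((k : ℝ) / 6 - 1 / 2)) := by
  have h0 := Int.fract_nonneg x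
  have h1 := Int.fract_lt_one x
  have h2 : x - ⌊x⌋ = Int.fract x := Int.self_sub_floor x
  obtain ⟨k, hk, h⟩ : ∃ k ∈ Finset.range 7, |Int.fract x + (k : ℝ) / 6 - 1| ≤ 1 / 12 := by
    have h3 := Nat.floor_le (by linarith : 0 ≤ 6 * (1 - Int.fract x) + 1 / 2)
    have h4 := Nat.lt_floor_add_one (6 * (1 - Int.fract x) + 1 / 2)
    refine ⟨⌊6 * (1 - Int.fract x) + 1 / 2⌋₊, ?_, abs_le.2 ⟨by linarith, by linarith⟩⟩
    rw [Finset.mem_range, Nat.floor_lt (by linarith)]
    push_cast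
    linarith
  refine le_trans ?_ (Finset.single_le_sum
    (f := fun k : ℕ => meanW (x + ((k : ℝ) / 6 - 1 / 2))) (fun k _ => meanW_nonneg _) hk)
  refine le_trans ?_ (meanW_ge _ ⌊x⌋)
  have h5 : x + ((k : ℝ) / 6 - 1 / 2) - ⌊x⌋ - 1 / 2 = Int.fract x + (k : ℝ) / 6 - 1 := by
    linarith
  rw [h5]
  linarith

theorem meanW_pos {M : (ℝ → ℝ) →ₗ[ℝ] ℝ} (hM : IsInvMean M) : 0 < M meanW := by
  have h1 : (fun x => ∑ k ∈ Finset.range 7, meanW (x + ((k : ℝ) / 6 - 1 / 2))) =
      ∑ k ∈ Finset.range 7, fun x => meanW (x + ((k : ℝ) / 6 - 1 / 2)) := by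
    funext x
    rw [Finset.sum_apply]
  have h2 : Bdd (fun x => ∑ k ∈ Finset.range 7, meanW (x + ((k : ℝ) / 6 - 1 / 2))) := by
    rw [h1]
    exact (meanSub ℝ).sum_mem fun k _ => meanBdd_comp meanW_bdd _
  have h3 := hM.mono (meanBdd_const (1 / 12)) h2 meanW_cover
  rw [hM.const, h1, map_sum] at h3
  simp only [hM.inv meanW meanW_bdd, Finset.sum_const, Finset.card_range, nsmul_eq_mul] at h3
  push_cast at h3
  linarith

/-- A Lipschitz weight of mean one supported where the fractional part is in the middle third,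
for instance a multiple of `max 0 (- cos (2 π x) - 1/2)`; its mean is positive because finitely
many translates add up to at least a positive constant. -/
theorem exists_weight {M : (ℝ → ℝ) →ₗ[ℝ] ℝ} (hM : IsInvMean M) :
    ∃ ψ : ℝ → ℝ, Bdd ψ ∧ (∀ x, 0 ≤ ψ x) ∧ M ψ = 1 ∧
      (∀ x, ψ x ≠ 0 → 1 / 3 ≤ Int.fract x ∧ Int.fract x ≤ 2 / 3) ∧
      ∃ C : ℝ, 0 ≤ C ∧ ∀ x h, |ψ (x + h) - ψ x| ≤ C * |h| := by
  have hm := meanW_pos hM
  refine ⟨(M meanW)⁻¹ • meanW, meanBdd_mul (meanBdd_const _) meanW_bdd,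
    fun x => mul_nonneg (inv_nonneg.2 hm.le) (meanW_nonneg x), ?_, fun x hx => ?_,
    (M meanW)⁻¹, inv_nonneg.2 hm.le, fun x h => ?_⟩
  · rw [map_smul, smul_eq_mul, inv_mul_cancel₀ hm.ne']
  · have h1 : meanW x ≠ 0 := fun h => hx (by simp [h])
    have h2 : 1 / 3 < |x - round x| := by
      by_contra h3
      exact h1 (max_eq_left (by linarith [not_lt.1 h3]))
    rw [abs_sub_round_eq_min, lt_min_iff] at h2
    exact ⟨h2.1.le, by linarith [h2.2]⟩
  · simp only [Pi.smul_apply, smul_eq_mul]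
    rw [← mul_sub, abs_mul, abs_of_nonneg (inv_nonneg.2 hm.le)]
    exact mul_le_mul_of_nonneg_left (meanW_lip x h) (inv_nonneg.2 hm.le)

/-- `L f = M (fun t => ψ t * f (fract t))`.  For `|h| < 1/3` and `ψ t ≠ 0` one has
`fract (t + h) = fract t + h`, so `L (f (· + h)) = M (fun t => ψ (t - h) * f (fract t))`;
for `|h| ≥ 1/3` the bound is trivial with `C ≥ 6`. -/
theorem exists_locMean : ∃ L : (ℝ → ℝ) →ₗ[ℝ] ℝ, IsLocMean L := by
  obtain ⟨M, hM⟩ := exists_invMean ℝ
  obtain ⟨ψ, hψb, hψ0, hψ1, hψs, C, hC, hψl⟩ := exists_weight hM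
  let T : (ℝ → ℝ) →ₗ[ℝ] (ℝ → ℝ) :=
    { toFun := fun f t => ψ t * f (Int.fract t)
      map_add' := fun f g => by
        funext t
        simp only [Pi.add_apply, mul_add]
      map_smul' := fun c f => by
        funext t
        simp only [Pi.smul_apply, smul_eq_mul, RingHom.id_apply, mul_left_comm] }
  have hT : ∀ f, (M ∘ₗ T) f = M fun t => ψ t * f (Int.fract t) := fun f => rfl
  have hb : ∀ (f : ℝ → ℝ) (B : ℝ), (∀ x, |f x| ≤ B) → |(M ∘ₗ T) f| ≤ B := by
    intro f B h
    have h0 : Bdd fun t => ψ t * f (Int.fract t) := meanBdd_mul hψb (meanBdd_comp ⟨B, h⟩ _)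
    have h1 := hM.mono h0 (g := B • ψ) (meanBdd_mul (meanBdd_const B) hψb) fun t => by
      simp only [Pi.smul_apply, smul_eq_mul]
      nlinarith [hψ0 t, (abs_le.1 (h (Int.fract t))).2]
    have h2 := hM.mono (f := (-B) • ψ) (meanBdd_mul (meanBdd_const (-B)) hψb) h0 fun t => by
      simp only [Pi.smul_apply, smul_eq_mul]
      nlinarith [hψ0 t, (abs_le.1 (h (Int.fract t))).1]
    rw [map_smul, hψ1, smul_eq_mul, mul_one] at h1 h2
    rw [hT]
    exact abs_le.2 ⟨h2, h1⟩
  refine ⟨M ∘ₗ T, ?_, fun f hf h => ?_, max C 6, le_max_of_le_left hC, fun f B hB h => ?_⟩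
  · rw [hT]
    simpa only [mul_one] using hψ1
  · rw [hT]
    exact hM.nonneg _ (meanBdd_mul hψb (meanBdd_comp hf _)) fun t =>
      mul_nonneg (hψ0 t) (h _ ⟨Int.fract_nonneg t, (Int.fract_lt_one t).le⟩)
  · have hB0 : 0 ≤ B := (abs_nonneg _).trans (hB 0)
    rcases lt_or_ge |h| (1 / 3) with hh | hh
    · have hf : Bdd fun t => f (Int.fract t) := meanBdd_comp ⟨B, hB⟩ _
      have h0 : Bdd fun t => ψ (t + -h) * f (Int.fract t) := meanBdd_mul (meanBdd_comp hψb _) hf
      have h1 : (fun t => ψ t * f (Int.fract t + h)) =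
          fun t => ψ (t + h + -h) * f (Int.fract (t + h)) := by
        funext t
        rw [add_neg_cancel_right]
        by_cases ht : ψ t = 0
        · rw [ht, zero_mul, zero_mul]
        · obtain ⟨h2, h3⟩ := hψs t ht
          obtain ⟨h4, h5⟩ := abs_lt.1 hh
          have h6 : Int.fract (t + h) = Int.fract t + h :=
            Int.fract_eq_iff.2 ⟨by linarith, by linarith, ⌊t⌋, by
              rw [← Int.self_sub_floor]; ring⟩
          rw [h6]
      rw [hT, hT, h1, hM.inv _ h0 h, ← map_sub]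
      refine hM.abs_le fun t => ?_
      simp only [Pi.sub_apply]
      rw [← sub_mul, abs_mul]
      have h7 := hψl t (-h)
      rw [abs_neg] at h7
      have h8 : C * |h| ≤ max C 6 * |h| := by gcongr; exact le_max_left _ _
      exact mul_le_mul (h7.trans h8) (hB _) (abs_nonneg _) (by positivity)
    · have h1 := hb (fun x => f (x + h)) B fun x => hB _
      have h2 := hb f B hB
      have h3 : 6 * (1 / 3) * B ≤ max C 6 * |h| * B := by gcongr; exact le_max_right _ _
      exact (abs_sub _ _).trans (by linarith)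

theorem IsLocMean.const {L : (ℝ → ℝ) →ₗ[ℝ] ℝ} (hL : IsLocMean L) (c : ℝ) :
    L (fun _ => c) = c := by
  have h : (fun _ : ℝ => c) = c • fun _ : ℝ => (1 : ℝ) := by
    funext x
    simp
  rw [h, map_smul, hL.one, smul_eq_mul, mul_one]

theorem IsLocMean.mono {L : (ℝ → ℝ) →ₗ[ℝ] ℝ} (hL : IsLocMean L) {f g : ℝ → ℝ} (hf : Bdd f)
    (hg : Bdd g) (h : ∀ x ∈ Set.Icc (0 : ℝ) 1, f x ≤ g x) : L f ≤ L g := by
  have h1 := hL.nonneg (g - f) (meanBdd_sub hg hf) fun x hx => sub_nonneg.2 (h x hx)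
  rw [map_sub] at h1
  linarith

theorem IsLocMean.congr {L : (ℝ → ℝ) →ₗ[ℝ] ℝ} (hL : IsLocMean L) {f g : ℝ → ℝ} (hf : Bdd f)
    (hg : Bdd g) (h : ∀ x ∈ Set.Icc (0 : ℝ) 1, f x = g x) : L f = L g := by
  exact le_antisymm (hL.mono hf hg fun x hx => (h x hx).le) (hL.mono hg hf fun x hx => (h x hx).ge)

theorem IsLocMean.abs_le {L : (ℝ → ℝ) →ₗ[ℝ] ℝ} (hL : IsLocMean L) {f : ℝ → ℝ} (hf : Bdd f)
    {B : ℝ} (h : ∀ x ∈ Set.Icc (0 : ℝ) 1, |f x| ≤ B) : |L f| ≤ B := by
  have h1 := hL.mono hf (meanBdd_const B) fun x hx => (_root_.abs_le.1 (h x hx)).2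
  have h2 := hL.mono (meanBdd_const (-B)) hf fun x hx => (_root_.abs_le.1 (h x hx)).1
  rw [hL.const] at h1 h2
  exact _root_.abs_le.2 ⟨h2, h1⟩

/-- a bounded function continuous at `a` whose local means at all small scales vanish is zero
at `a` -/
theorem IsLocMean.eq_zero {L : (ℝ → ℝ) →ₗ[ℝ] ℝ} (hL : IsLocMean L) {f : ℝ → ℝ} (hf : Bdd f)
    {a : ℝ} (hc : ContinuousAt f a) (h : ∀ᶠ l in 𝓝[>] (0 : ℝ), L (fun s => f (a + l * s)) = 0) :
    f a = 0 := by
  refine abs_nonpos_iff.1 (le_of_forall_pos_le_add fun ε hε => ?_)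
  obtain ⟨δ, hδ, h1⟩ := Metric.continuousAt_iff.1 hc ε hε
  obtain ⟨l, h2, h3, h4⟩ := (h.and (Ioo_mem_nhdsGT hδ)).exists
  have h5 : Bdd fun s : ℝ => f (a + l * s) := meanBdd_comp hf _
  have h6 := hL.abs_le (f := (fun s : ℝ => f (a + l * s)) - fun _ => f a)
    (meanBdd_sub h5 (meanBdd_const _)) (B := ε) fun s hs => by
      refine (h1 ?_).le
      rw [Real.dist_eq, add_sub_cancel_left, abs_of_nonneg (mul_nonneg h3.le hs.1)]
      nlinarith [hs.2]
  rw [map_sub, h2, hL.const, zero_sub, abs_neg] at h6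
  linarith

end Vale.Agent.P032
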