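import Vale.Agent.P032.Defs

/-! Task C1: measure theoretic lemmas for part C. -/

namespace Vale.Agent.P032

open Filter Topology MeasureTheory

/-- preimages of null sets are null where the derivative is invertible -/
theorem null_preimage_of_det {f : ℂ → ℂ} {f' : ℂ → ℂ →L[ℝ] ℂ}
    (hf : ∀ x, HasStrictFDerivAt f (f' x) x) {N : Set ℂ} (hN : volume N = 0) :
    volume (f ⁻¹' N ∩ {x | (f' x).det ≠ 0}) = 0 := by
  have hc : Continuous f := continuous_iff_continuousAt.2 fun x => (hf x).continuousAt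
  apply measure_null_of_locally_null
  intro x hx
  set e := (f' x).toContinuousLinearEquivOfDetNeZero hx.2 with he
  have hfx : HasStrictFDerivAt f (e : ℂ →L[ℝ] ℂ) x := by
    rw [he, ContinuousLinearMap.coe_toContinuousLinearEquivOfDetNeZero]
    exact hf x
  set h := hfx.toOpenPartialHomeomorph f with hh
  have hxs : x ∈ h.source := hfx.mem_toOpenPartialHomeomorph_source
  have hinj : Set.InjOn f h.source := by
    have := h.injOn
    rwa [hh, HasStrictFDerivAt.toOpenPartialHomeomorph_coe] at this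
  set u : Set ℂ := h.source ∩ f ⁻¹' (toMeasurable volume N) with hu
  have hum : MeasurableSet u :=
    h.open_source.measurableSet.inter (hc.measurable (measurableSet_toMeasurable _ _))
  have hder : ∀ y ∈ u, HasFDerivWithinAt f (f' y) u y :=
    fun y _ => (hf y).hasFDerivAt.hasFDerivWithinAt
  have h1 := lintegral_abs_det_fderiv_eq_addHaar_image volume hum hder
    (hinj.mono Set.inter_subset_left)
  have h2 : volume (f '' u) = 0 := by
    apply measure_mono_null (t := toMeasurable volume N)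
    · rintro _ ⟨y, hy, rfl⟩
      exact hy.2
    · rw [measure_toMeasurable]; exact hN
  rw [h2, lintegral_eq_zero_iff' (aemeasurable_ofReal_abs_det_fderivWithin volume hum hder)] at h1
  have h3 := (ae_restrict_iff' hum).1 h1
  refine ⟨u ∩ {y | (f' y).det ≠ 0}, ?_, ?_⟩
  · have : h.source ∈ 𝓝 x := h.open_source.mem_nhds hxs
    filter_upwards [self_mem_nhdsWithin, mem_nhdsWithin_of_mem_nhds this] with y hy hy'
    exact ⟨⟨hy', subset_toMeasurable _ _ hy.1⟩, hy.2⟩
  · refine measure_mono_null ?_ (ae_iff.1 h3)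
    intro y hy hy'
    have := hy' hy.1
    simp only [Pi.zero_apply, ENNReal.ofReal_eq_zero] at this
    exact hy.2 (abs_nonpos_iff.1 this)

theorem hasStrictDerivAt_ex (t : ℝ) : HasStrictDerivAt ex (ex t * Complex.I) t := by
  have h1 : HasStrictDerivAt (fun s : ℝ => (s : ℂ) * Complex.I) Complex.I t := by
    simpa using (Complex.ofRealCLM.hasStrictDerivAt (x := t)).mul_const Complex.I
  have h2 := (Complex.hasStrictDerivAt_exp ((t : ℂ) * Complex.I)).hasStrictFDerivAt.restrictScalars ℝ
  have h3 := h2.comp_hasStrictDerivAt t h1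
  have h4 : HasStrictDerivAt ex
      ((ContinuousLinearMap.toSpanSingleton ℂ (Complex.exp ((t : ℂ) * Complex.I))).restrictScalars ℝ
        Complex.I) t := h3
  simpa [ex, mul_comm] using h4

theorem continuous_ex : Continuous ex :=
  continuous_iff_continuousAt.2 fun t => (hasStrictDerivAt_ex t).hasDerivAt.continuousAt

theorem ex_re (t : ℝ) : (ex t).re = Real.cos t := Complex.exp_ofReal_mul_I_re t

theorem ex_im (t : ℝ) : (ex t).im = Real.sin t := Complex.exp_ofReal_mul_I_im t

theorem ex_add_pi (t : ℝ) : ex (t + Real.pi) = - ex t := by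
  apply Complex.ext <;> simp [ex_re, ex_im]

/-- derivative of `w ↦ ex w.re + ex w.im` -/
noncomputable def dsum (w : ℂ) : ℂ →L[ℝ] ℂ :=
  Complex.reCLM.smulRight (ex w.re * Complex.I) + Complex.imCLM.smulRight (ex w.im * Complex.I)

theorem hasStrict_dsum (w : ℂ) :
    HasStrictFDerivAt (fun w : ℂ => ex w.re + ex w.im) (dsum w) w := by
  have h1 := (hasStrictDerivAt_ex w.re).hasStrictFDerivAt.comp w
    (Complex.reCLM.hasStrictFDerivAt (x := w))
  have h2 := (hasStrictDerivAt_ex w.im).hasStrictFDerivAt.comp w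
    (Complex.imCLM.hasStrictFDerivAt (x := w))
  exact h1.add h2

theorem det_dsum (w : ℂ) : (dsum w).det = Real.sin (w.im - w.re) := by
  rw [ContinuousLinearMap.det, ← LinearMap.det_toMatrix Complex.basisOneI, Matrix.det_fin_two]
  simp [LinearMap.toMatrix_apply, dsum, ex_re, ex_im, Real.sin_sub]
  ring

theorem ae_sin_sub_ne (θ : ℝ) : ∀ᵐ φ : ℝ, Real.sin (φ - θ) ≠ 0 := by
  have hc : (Set.range fun n : ℤ => θ + n * Real.pi).Countable := Set.countable_range _
  filter_upwards [hc.ae_notMem volume] with φ hφ h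
  obtain ⟨n, hn⟩ := Real.sin_eq_zero_iff.1 h
  exact hφ ⟨n, by simp only; linarith⟩

/-- the sum of two independent unit vectors has an absolutely continuous law.
(`lintegral_abs_det_fderiv_eq_addHaar_image` or `..._le_...` on sets where
`(θ, φ) ↦ ex θ + ex φ = 2 cos ((θ - φ) / 2) ex ((θ + φ) / 2)` is injective, or polar coordinates.) -/
theorem ae_ex_add_ex {p : ℂ → Prop} (h : ∀ᵐ z : ℂ, p z) :
    ∀ᵐ θ : ℝ, ∀ᵐ φ : ℝ, p (ex θ + ex φ) := by
  have h0 := null_preimage_of_det hasStrict_dsum (ae_iff.1 h)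
  have h1 : ∀ᵐ w : ℂ, Real.sin (w.im - w.re) ≠ 0 → p (ex w.re + ex w.im) := by
    refine ae_iff.2 (measure_mono_null ?_ h0)
    intro w hw
    simp only [Set.mem_ofPred_eq, Classical.not_imp] at hw
    refine ⟨hw.2, ?_⟩
    simp only [Set.mem_ofPred_eq, det_dsum]
    exact hw.1
  have h2 := Complex.volume_preserving_equiv_real_prod.symm.quasiMeasurePreserving.ae h1
  have h3 := Measure.ae_ae_of_ae_prod h2
  filter_upwards [h3] with θ hθ
  filter_upwards [hθ, ae_sin_sub_ne θ] with φ hφ hs
  exact hφ hs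

/-- translation is continuous in measure; pass to an almost everywhere convergent subsequence -/
theorem exists_subseq_translate {c : ℂ → Fin 5} (hc : Measurable c) {x : ℕ → ℂ} {x₀ : ℂ}
    (hx : Tendsto x atTop (𝓝 x₀)) :
    ∃ n : ℕ → ℕ, StrictMono n ∧ ∀ᵐ z : ℂ, ∀ᶠ k in atTop, c (x (n k) + z) = c (x₀ + z) := by
  set T : ℂ → C(ℂ, ℂ) := fun a => ⟨fun z => a + z, by fun_prop⟩ with hT
  have hTc : Continuous T := by
    apply ContinuousMap.continuous_of_continuous_uncurry
    exact continuous_add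
  have hTm : ∀ a, MeasurePreserving (T a) volume volume := fun a => measurePreserving_add_left _ a
  set A : ℕ → Fin 5 → Set ℂ := fun R i => c ⁻¹' {i} ∩ Metric.ball 0 R with hA
  have hAm : ∀ R i, MeasurableSet (A R i) := fun R i =>
    (hc (measurableSet_singleton i)).inter measurableSet_ball
  have hAf : ∀ R i, volume (A R i) ≠ ⊤ := fun R i =>
    ((measure_mono Set.inter_subset_right).trans_lt measure_ball_lt_top).ne
  set E : ℕ → ℕ → Set ℂ := fun R m => ⋃ i, symmDiff (T (x m) ⁻¹' A R i) (T x₀ ⁻¹' A R i) with hE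
  have hlim : ∀ R, Tendsto (fun m => volume (E R m)) atTop (𝓝 0) := by
    intro R
    have h1 : ∀ i, Tendsto (fun m => volume (symmDiff (T (x m) ⁻¹' A R i) (T x₀ ⁻¹' A R i)))
        atTop (𝓝 0) := fun i =>
      tendsto_measure_symmDiff_preimage_nhds_zero ((hTc.tendsto x₀).comp hx)
        (Eventually.of_forall fun m => hTm _) (hTm _) (hAm R i).nullMeasurableSet (hAf R i)
    have h2 := tendsto_finsetSum (Finset.univ : Finset (Fin 5)) fun i _ => h1 i
    rw [Finset.sum_const_zero] at h2
    refine tendsto_of_tendsto_of_tendsto_of_le_of_le tendsto_const_nhds h2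
      (fun _ => bot_le) fun m => ?_
    exact measure_iUnion_fintype_le _ _
  have hev : ∀ R : ℕ, ∀ᶠ m in atTop, volume (E R m) ≤ (2⁻¹ : ENNReal) ^ R := fun R =>
    (hlim R).eventually (eventually_le_nhds (ENNReal.pow_pos (by norm_num) R))
  obtain ⟨n, hn, hnE⟩ := extraction_forall_of_eventually hev
  refine ⟨n, hn, ?_⟩
  have hsum : ∑' k, volume (E k (n k)) ≠ ⊤ := by
    refine ne_top_of_le_ne_top ?_ (ENNReal.tsum_le_tsum hnE)
    rw [ENNReal.tsum_geometric]
    norm_num
  filter_upwards [ae_eventually_notMem hsum] with z hz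
  have hb : ∀ᶠ k : ℕ in atTop, ‖x₀ + z‖ < k :=
    tendsto_natCast_atTop_atTop.eventually (eventually_gt_atTop _)
  filter_upwards [hz, hb] with k hk hk'
  by_contra hne
  apply hk
  refine Set.mem_iUnion.2 ⟨c (x₀ + z), Or.inr ⟨⟨rfl, ?_⟩, fun h => hne h.1⟩⟩
  simpa [hT] using hk'

/-- `(θ, x) ↦ (θ + π, x + ex θ)` preserves the measure (`MeasurePreserving.skew_product`) -/
theorem ae_swap {p : ℂ → ℂ → Prop} (h : ∀ᵐ q : ℝ × ℂ, p q.2 (q.2 + ex q.1)) :
    ∀ᵐ q : ℝ × ℂ, p (q.2 + ex q.1) q.2 := by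
  have hg : Measurable (Function.uncurry fun (θ : ℝ) (x : ℂ) => x + ex θ) :=
    (continuous_snd.add (continuous_ex.comp continuous_fst)).measurable
  have hT := (measurePreserving_add_right (volume : Measure ℝ) Real.pi).skew_product
    (μc := (volume : Measure ℂ)) (μd := (volume : Measure ℂ)) hg
    (Eventually.of_forall fun θ => map_add_right_eq_self _ _)
  have h2 := hT.quasiMeasurePreserving.ae h
  filter_upwards [h2] with q hq
  simpa [ex_add_pi] using hq

/-- the set of centres all of whose circle points almost surely see a free colour `≠ i` is closed: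
take `x n → x₀` in the set, a subsequence from `exists_subseq_translate`, transfer with
`ae_ex_add_ex`, and for fixed good `θ` a colour `j` that works for infinitely many indices -/
theorem isClosed_free {c : ℂ → Fin 5} (hc : Measurable c) (i : Fin 5) :
    IsClosed {x : ℂ | ∀ᵐ θ : ℝ, ∃ j, j ≠ i ∧ ∀ᵐ φ : ℝ, c (x + ex θ + ex φ) ≠ j} := by
  apply IsSeqClosed.isClosed
  intro x x₀ hx hlim
  obtain ⟨n, -, hn⟩ := exists_subseq_translate hc hlim
  have h1 := ae_ex_add_ex hn
  have h2 := ae_all_iff.2 fun k => hx (n k)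
  filter_upwards [h1, h2] with θ hθ1 hθ2
  choose j hj hj' using hθ2
  have hfr : ∃ j₀, ∃ᶠ k in atTop, j k = j₀ := by
    by_contra hcon
    simp only [not_exists, not_frequently] at hcon
    obtain ⟨k, hk⟩ := (eventually_all.2 hcon).exists
    exact hk _ rfl
  obtain ⟨j₀, hj₀⟩ := hfr
  refine ⟨j₀, ?_, ?_⟩
  · obtain ⟨k, hk⟩ := hj₀.exists
    exact hk ▸ hj k
  · filter_upwards [hθ1, ae_all_iff.2 hj'] with φ hφ1 hφ2
    obtain ⟨k, hk, hk'⟩ := (hj₀.and_eventually hφ1).exists
    rw [add_assoc, ← hk', ← add_assoc, ← hk]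
    exact hφ2 k

end Vale.Agent.P032
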