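import Vale.Agent.P032.Radial

/-! Task A5. -/

namespace Vale.Agent.P032

private theorem ex_add (s t : ℝ) : ex (s + t) = ex s * ex t := by
  simp only [ex]
  rw [← Complex.exp_add]
  push_cast
  ring_nf

private theorem norm_ex (t : ℝ) : ‖ex t‖ = 1 := Complex.norm_exp_ofReal_mul_I t

private theorem exists_rot {x y : ℂ} (h : ‖x‖ = ‖y‖) : ∃ φ, y = ex φ * x := by
  refine ⟨Complex.arg y - Complex.arg x, ?_⟩
  have h1 := Complex.norm_mul_exp_arg_mul_I x
  have h2 := Complex.norm_mul_exp_arg_mul_I y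
  have h3 := ex_add (Complex.arg y - Complex.arg x) (Complex.arg x)
  rw [sub_add_cancel] at h3
  change (‖x‖ : ℂ) * ex _ = x at h1
  change (‖y‖ : ℂ) * ex _ = y at h2
  rw [← h, h3] at h2
  linear_combination -h2 + ex (Complex.arg y - Complex.arg x) * h1

/-- `a x = Mθ (fun θ => Mt (fun t => if c t = c (t + ex θ * x) then 1 else 0))` with invariant
means on `ℝ` and `ℂ`.  Radial by invariance of `Mθ`; positive semidefinite because
`∑ c_x c_y 1[c (t + u x) = c (t + u y)] = ∑_i (∑_x c_x 1[c (t + u x) = i]) ^ 2` and invariance of `Mt`;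
`a 1 = 0`; `radial_continuousAt` at `1`.  For the last claim the function
`(θ, t) ↦ ∑ w z 1[c (t + ex θ z.1) = c (t + ex θ z.2)]` takes finitely many values, so its minimum is
attained and is at most its mean. -/
theorem partA (c : ℂ → Fin 5) (hc : ∀ x y, ‖x - y‖ = 1 → c x ≠ c y) : AOut := by
  obtain ⟨Mθ, hθ⟩ := exists_invMean ℝ
  obtain ⟨Mt, ht⟩ := exists_invMean ℂ
  set I : ℂ → ℂ → ℝ := fun p q => if c p = c q then 1 else 0 with hI
  have hI1 : ∀ p q, |I p q| ≤ 1 := by
    intro p q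
    simp only [hI]
    split_ifs <;> simp
  have hI0 : ∀ p q, 0 ≤ I p q := by
    intro p q
    simp only [hI]
    split_ifs <;> simp
  set a : ℂ → ℝ := fun x => Mθ fun θ => Mt fun t => I t (t + ex θ * x) with ha
  have hrad : ∀ x y : ℂ, ‖x‖ = ‖y‖ → a x = a y := by
    intro x y h
    obtain ⟨φ, rfl⟩ := exists_rot h
    simp only [ha]
    rw [← hθ.inv _ ⟨1, fun θ => ht.abs_le fun t => hI1 _ _⟩ φ]
    simp only [ex_add, mul_assoc]
  have key : ∀ (s : Finset (ℂ × ℂ)) (w : ℂ × ℂ → ℝ) (m : ℝ),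
      (∀ θ t, m ≤ ∑ z ∈ s, w z * I (t + ex θ * z.1) (t + ex θ * z.2)) →
      m ≤ ∑ z ∈ s, w z * a (z.2 - z.1) := by
    intro s w m hm
    have hb : ∀ θ t, |∑ z ∈ s, w z * I (t + ex θ * z.1) (t + ex θ * z.2)| ≤ ∑ z ∈ s, |w z| := by
      intro θ t
      refine (Finset.abs_sum_le_sum_abs _ _).trans (Finset.sum_le_sum fun z _ => ?_)
      rw [abs_mul]
      exact mul_le_of_le_one_right (abs_nonneg _) (hI1 _ _)
    have e1 : ∀ θ, (Mt fun t => ∑ z ∈ s, w z * I (t + ex θ * z.1) (t + ex θ * z.2)) =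
        (∑ z ∈ s, w z • fun θ => Mt fun t => I t (t + ex θ * (z.2 - z.1))) θ := by
      intro θ
      have : (fun t => ∑ z ∈ s, w z * I (t + ex θ * z.1) (t + ex θ * z.2)) =
          ∑ z ∈ s, w z • fun t => I (t + ex θ * z.1) (t + ex θ * z.2) := by
        funext t
        simp only [Finset.sum_apply, Pi.smul_apply, smul_eq_mul]
      rw [this, map_sum, Finset.sum_apply]
      refine Finset.sum_congr rfl fun z _ => ?_
      rw [map_smul, Pi.smul_apply]
      congr 1
      rw [← ht.inv (fun t => I t (t + ex θ * (z.2 - z.1))) ⟨1, fun t => hI1 _ _⟩ (ex θ * z.1)]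
      congr 1
      funext t
      congr 1
      ring
    have e2 : (∑ z ∈ s, w z * a (z.2 - z.1)) =
        Mθ fun θ => Mt fun t => ∑ z ∈ s, w z * I (t + ex θ * z.1) (t + ex θ * z.2) := by
      rw [funext e1, map_sum]
      simp only [map_smul, smul_eq_mul, ha]
    rw [e2, ← hθ.const m]
    refine hθ.mono ⟨_, fun _ => le_rfl⟩ ⟨_, fun θ => ht.abs_le (hb θ)⟩ fun θ => ?_
    rw [← ht.const m]
    exact ht.mono ⟨_, fun _ => le_rfl⟩ ⟨_, hb θ⟩ (hm θ)
  have hpsd : PSD fun x y => a (y - x) := by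
    intro s u
    have := key (s ×ˢ s) (fun z => u z.1 * u z.2) 0 fun θ t => by
      rw [Finset.sum_product]
      have e : (∑ x ∈ s, ∑ y ∈ s, u x * u y * I (t + ex θ * x) (t + ex θ * y)) =
          ∑ i : Fin 5, (∑ x ∈ s, if c (t + ex θ * x) = i then u x else 0) ^ 2 := by
        simp only [sq, Finset.sum_mul_sum]
        symm
        rw [Finset.sum_comm]
        refine Finset.sum_congr rfl fun x _ => ?_
        rw [Finset.sum_comm]
        refine Finset.sum_congr rfl fun y _ => ?_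
        simp only [hI, ite_mul, zero_mul, Finset.sum_ite_eq, Finset.mem_univ, if_true]
        by_cases h : c (t + ex θ * x) = c (t + ex θ * y)
        · rw [if_pos h, if_pos h.symm, mul_one]
        · rw [if_neg h, if_neg (Ne.symm h), mul_zero, mul_zero]
      rw [e]
      positivity
    rwa [Finset.sum_product] at this
  have h1 : a 1 = 0 := by
    have : (fun θ => Mt fun t => I t (t + ex θ * 1)) = fun _ => 0 := by
      funext θ
      have : (fun t => I t (t + ex θ * 1)) = fun _ => 0 := by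
        funext t
        refine if_neg (hc _ _ ?_)
        simp [norm_ex]
      rw [this, ht.const]
    simp only [ha]
    rw [this, hθ.const]
  refine ⟨a, fun x => ?_, fun ε hε => ?_, fun s w _ => ?_⟩
  · exact hθ.nonneg _ ⟨1, fun θ => ht.abs_le fun t => hI1 _ _⟩ fun θ =>
      ht.nonneg _ ⟨1, fun t => hI1 _ _⟩ fun t => hI0 _ _
  · obtain ⟨δ, hδ, h⟩ := Metric.continuousAt_iff.1 (radial_continuousAt a hpsd hrad one_ne_zero) ε hε
    refine ⟨δ, hδ, fun x hx => ?_⟩
    have h2 := h (x := (‖x‖ : ℂ)) (by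
      rw [dist_eq_norm, ← Complex.ofReal_one, ← Complex.ofReal_sub, Complex.norm_real]
      exact hx)
    rw [h1, Real.dist_eq, sub_zero] at h2
    rw [hrad x (‖x‖ : ℂ) (by simp)]
    exact (le_abs_self _).trans_lt h2
  · set F : ℝ × ℂ → ℝ := fun p => ∑ z ∈ s, w z * I (p.2 + ex p.1 * z.1) (p.2 + ex p.1 * z.2)
      with hF
    have hfin : (Set.range F).Finite := by
      refine (Set.finite_range fun g : s → Fin 5 × Fin 5 =>
        ∑ z : s, w z * if (g z).1 = (g z).2 then 1 else 0).subset ?_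
      rintro _ ⟨p, rfl⟩
      refine ⟨fun z => (c (p.2 + ex p.1 * z.1.1), c (p.2 + ex p.1 * z.1.2)), ?_⟩
      simp only [hF, hI]
      rw [← Finset.sum_coe_sort s]
    obtain ⟨_, ⟨p, rfl⟩, hp⟩ := Set.exists_min_image _ id hfin (Set.range_nonempty F)
    exact ⟨fun x => c (p.2 + ex p.1 * x), key s w (F p) fun θ t => hp _ ⟨(θ, t), rfl⟩⟩

end Vale.Agent.P032
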