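import Vale.Agent.P032.Vanish

/-! Task A2b: radial positive definite functions on the plane are continuous off `0`
(no measurability). -/

namespace Vale.Agent.P032

open Filter Topology

theorem radial_ex_add (s t : ℝ) : ex (s + t) = ex s * ex t := by
  simp only [ex, ← Complex.exp_add]; push_cast; ring_nf

theorem radial_ex_neg (t : ℝ) (x : ℂ) : ex (-t) * (ex t * x) = x := by
  rw [← mul_assoc, ← radial_ex_add]; simp [ex]

theorem radial_ex_neg' (t : ℝ) (x : ℂ) : ex t * (ex (-t) * x) = x := by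
  rw [mul_left_comm, radial_ex_neg]

section

variable {H : Type*} [NormedAddCommGroup H] [InnerProductSpace ℝ H]

theorem radial_orth_map {G : Type*} [AddCommGroup G] {R : G → H →L[ℝ] H} (hR : IsRep R)
    {V V' : Submodule ℝ H} (θ : G) (h : ∀ v ∈ V', R (-θ) v ∈ V) {w : H} (hw : w ∈ Vᗮ) :
    R θ w ∈ V'ᗮ := by
  intro v hv
  rw [← hR.inner_map (-θ), ← hR.add, neg_add_cancel, hR.zero]
  exact hw _ (h v hv)

theorem radial_line {π : ℂ → H →L[ℝ] H} (hπ : IsRep π) (e : ℂ) :
    IsRep (fun t : ℝ => π (t * e)) where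
  zero ξ := by simp [hπ.zero]
  add x y ξ := by simp [add_mul, hπ.add]
  inner_map x := hπ.inner_map _

theorem radial_line_mem {π : ℂ → H →L[ℝ] H} (hπ : IsRep π) (e x : ℂ) {v : H}
    (hv : v ∈ contVec (fun t : ℝ => π (t * e))) : π x v ∈ contVec (fun t : ℝ => π (t * e)) := by
  have h : (fun t : ℝ => π (t * e) (π x v)) = fun t : ℝ => π x (π (t * e) v) :=
    funext fun t => by rw [← hπ.add, ← hπ.add, add_comm]
  change ContinuousAt (fun t : ℝ => π (t * e) (π x v)) 0
  rw [h]
  exact (π x).continuous.continuousAt.comp hv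

theorem radial_two {π : ℂ → H →L[ℝ] H} (hπ : IsRep π) {θ : ℝ} (hθ : Real.sin θ ≠ 0) {v : H}
    (h1 : v ∈ contVec (fun t : ℝ => π (t * Complex.I)))
    (h2 : v ∈ contVec (fun t : ℝ => π (t * (ex θ * Complex.I)))) : v ∈ contVec π := by
  let b : ℂ → ℝ := fun x => -x.re / Real.sin θ
  let a : ℂ → ℝ := fun x => x.im - b x * Real.cos θ
  have hb : Continuous b := by fun_prop
  have ha : Continuous a := by fun_prop
  have hx : ∀ x : ℂ, x = a x * Complex.I + b x * (ex θ * Complex.I) := fun x => by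
    apply Complex.ext
    · simp [ex, b, Complex.exp_ofReal_mul_I_im, -Complex.ofReal_div, -Complex.ofReal_sin, hθ]
    · simp [ex, a, Complex.exp_ofReal_mul_I_re, -Complex.ofReal_sub]
  have h1' : Continuous fun x => π (a x * Complex.I) v :=
    ((radial_line hπ _).continuous_of_mem h1).comp ha
  have h2' : Continuous fun x => π (b x * (ex θ * Complex.I)) v :=
    ((radial_line hπ _).continuous_of_mem h2).comp hb
  have h3 : Continuous fun x => ‖π (b x * (ex θ * Complex.I)) v - v‖ +
      ‖π (a x * Complex.I) v - v‖ :=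
    (h2'.sub continuous_const).norm.add (h1'.sub continuous_const).norm
  change Tendsto _ _ (𝓝 (π 0 v))
  rw [hπ.zero, tendsto_iff_norm_sub_tendsto_zero]
  refine squeeze_zero (fun _ => norm_nonneg _) (fun x => ?_)
    (h3.tendsto' 0 0 (by simp [a, b, hπ.zero]))
  rw [← hπ.norm_map (a x * Complex.I) (π (b x * _) v - v), map_sub, ← hπ.add, ← hx]
  exact norm_sub_le_norm_sub_add_norm_sub _ _ _

end

/-- A1.  For a unit `e` let `Q e` be the orthogonal projection on
`contVec (fun t : ℝ => π (t * e))`.  It commutes with all `π x`, so `Q e (Q e' w) ∈ contVec π` for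
independent `e, e'` and `⟪Q e w, Q e' w⟫ = 0`; `‖Q e w‖` does not depend on `e` (rotations);
Bessel for `N` pairwise independent directions gives `Q e w = 0`. -/
theorem orth_line {H : Type*} [NormedAddCommGroup H] [InnerProductSpace ℝ H] [CompleteSpace H]
    {π : ℂ → H →L[ℝ] H} (hπ : IsRep π) (R : ℝ → H →L[ℝ] H) (hR : IsRep R)
    (hRπ : ∀ θ x ξ, R θ (π x ξ) = π (ex θ * x) (R θ ξ)) {w : H} (hw : w ∈ (contVec π)ᗮ)
    (hRw : ∀ θ, R θ w = w) : w ∈ (contVec (fun t : ℝ => π (t * Complex.I)))ᗮ := by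
  have hI := radial_line hπ Complex.I
  obtain ⟨u, hu, w', hw', e⟩ := hI.decomp w
  have h1 : ∀ θ, R θ u ∈ contVec (fun t : ℝ => π (t * (ex θ * Complex.I))) := fun θ => by
    have h : (fun t : ℝ => π (t * (ex θ * Complex.I)) (R θ u)) =
        fun t : ℝ => R θ (π (t * Complex.I) u) := funext fun t => by rw [hRπ, mul_left_comm]
    change ContinuousAt (fun t : ℝ => π (t * (ex θ * Complex.I)) (R θ u)) 0
    rw [h]
    exact (R θ).continuous.continuousAt.comp hu
  have h2 : ∀ θ, Real.sin θ ≠ 0 → inner ℝ (R θ u) u = 0 := fun θ hθ => by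
    obtain ⟨a, ha, b, hb, e'⟩ := hI.decomp (R θ u)
    have hc : CompleteSpace (contVec (fun t : ℝ => π (t * Complex.I))) :=
      hI.isClosed_contVec.completeSpace_coe
    have h3 : a ∈ contVec (fun t : ℝ => π (t * (ex θ * Complex.I))) := by
      have h : (fun t : ℝ => π (t * (ex θ * Complex.I)) a) = fun t : ℝ =>
          (contVec (fun t : ℝ => π (t * Complex.I))).starProjection
            (π (t * (ex θ * Complex.I)) (R θ u)) := funext fun t => by
        refine (Submodule.eq_starProjection_of_mem_orthogonal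
          (radial_line_mem hπ _ _ ha) ?_).symm
        rw [e', map_add, add_sub_cancel_left]
        exact radial_orth_map hπ _ (fun v hv => radial_line_mem hπ _ _ hv) hb
      change ContinuousAt (fun t : ℝ => π (t * (ex θ * Complex.I)) a) 0
      rw [h]
      exact (ContinuousLinearMap.continuous _).continuousAt.comp (h1 θ)
    have h4 := hw a (radial_two hπ hθ ha h3)
    rw [e, inner_add_right, hw' a ha, add_zero] at h4
    rw [e', inner_add_left, h4, real_inner_comm, hb u hu, add_zero]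
  by_cases hu0 : u = 0
  · rw [e, hu0, zero_add]; exact hw'
  exfalso
  have hn : ‖u‖ ≠ 0 := norm_ne_zero_iff.2 hu0
  have ho : Orthonormal ℝ fun θ : Set.Ioo (0 : ℝ) 1 => ‖u‖⁻¹ • R θ u := by
    refine ⟨fun θ => ?_, fun θ φ hne => ?_⟩
    · rw [norm_smul, hR.norm_map, norm_inv, norm_norm, inv_mul_cancel₀ hn]
    · have h5 : Real.sin (θ - φ) ≠ 0 := by
        have := Real.pi_gt_three
        rw [Ne, Real.sin_eq_zero_iff_of_lt_of_lt (by linarith [θ.2.1, φ.2.2])
          (by linarith [θ.2.2, φ.2.1]), sub_eq_zero]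
        exact fun h => hne (Subtype.ext h)
      simp only [inner_smul_left, inner_smul_right, hR.inner_sub, h2 _ h5, mul_zero]
  have hs := ho.inner_products_summable w
  have h6 : ∀ θ : Set.Ioo (0 : ℝ) 1, ‖inner ℝ (‖u‖⁻¹ • R θ u) w‖ ^ 2 = ‖u‖ ^ 2 := fun θ => by
    rw [← hRw θ, inner_smul_left, hR.inner_map, e, inner_add_right, hw' u hu, add_zero,
      real_inner_self_eq_norm_sq]
    simp [pow_two, hn]
  have : Infinite (Set.Ioo (0 : ℝ) 1) := Set.Ioo.infinite one_pos
  simp only [h6, summable_const_iff] at hs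
  exact hn (pow_eq_zero_iff two_ne_zero |>.1 hs)

/-- GNS for the kernel `a (y - x)`, `π t = U (· + t)`, `R θ = U (ex θ * ·)`, `v = φ 0 = u + w`;
`R θ w = w` since `R θ` preserves `contVec π` and its complement; `a x = ⟪π x u, u⟫ + ⟪π x w, w⟫`,
the first term is continuous, the second vanishes off `0` by `coeff_eq_zero`. -/
theorem radial_continuousAt (a : ℂ → ℝ) (hp : PSD (fun x y => a (y - x)))
    (hrad : ∀ x y : ℂ, ‖x‖ = ‖y‖ → a x = a y) {x : ℂ} (hx : x ≠ 0) : ContinuousAt a x := by
  obtain ⟨H, _, _, _, φ, U, hφ, hext, hU⟩ := gns (fun x y : ℂ => a (y - x))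
    (fun x y => hrad _ _ (norm_sub_rev _ _)) hp
  have hex : ∀ t, ‖ex t‖ = 1 := fun t => Complex.norm_exp_ofReal_mul_I t
  let π : ℂ → H →L[ℝ] H := fun t => U (fun z => z + t)
  let R : ℝ → H →L[ℝ] H := fun θ => U (fun z => ex θ * z)
  have hπ := fun t : ℂ => hU (fun z => z + t) fun x y => by rw [add_sub_add_right_eq_sub]
  have hR := fun θ : ℝ => hU (fun z => ex θ * z) fun x y =>
    hrad _ _ (by rw [← mul_sub, norm_mul, hex, one_mul])
  have hπ1 : ∀ t z, π t (φ z) = φ (z + t) := fun t => (hπ t).1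
  have hR1 : ∀ θ z, R θ (φ z) = φ (ex θ * z) := fun t => (hR t).1
  have hπr : IsRep π :=
    { zero := fun ξ => by
        rw [hext (π 0) (ContinuousLinearMap.id ℝ H) fun z => by simp [hπ1]]; rfl
      add := fun s t ξ => by
        rw [hext (π (s + t)) ((π s).comp (π t)) fun z => by
          simp [hπ1, add_comm, add_left_comm]]; rfl
      inner_map := fun t => (hπ t).2 }
  have hRr : IsRep R :=
    { zero := fun ξ => by
        rw [hext (R 0) (ContinuousLinearMap.id ℝ H) fun z => by simp [hR1, ex]]; rfl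
      add := fun s t ξ => by
        rw [hext (R (s + t)) ((R s).comp (R t)) fun z => by
          simp [hR1, radial_ex_add, mul_assoc]]; rfl
      inner_map := fun t => (hR t).2 }
  have hRπ : ∀ θ x ξ, R θ (π x ξ) = π (ex θ * x) (R θ ξ) := fun θ x ξ =>
    DFunLike.congr_fun (hext ((R θ).comp (π x)) ((π (ex θ * x)).comp (R θ)) fun z => by
      simp [hR1, hπ1, mul_add]) ξ
  obtain ⟨u, hu, w, hw, e⟩ := hπr.decomp (φ 0)
  have h1 : ∀ θ, ∀ v ∈ contVec π, R θ v ∈ contVec π := fun θ v hv => by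
    have h : (fun x => π x (R θ v)) = fun x => R θ (π (ex (-θ) * x) v) :=
      funext fun x => by rw [hRπ, radial_ex_neg']
    change ContinuousAt (fun x => π x (R θ v)) 0
    rw [h]
    exact ((R θ).continuous.comp ((hπr.continuous_of_mem hv).comp (by fun_prop))).continuousAt
  have h2 : ∀ θ, R θ w = w := fun θ => by
    have h3 : R θ w - w = u - R θ u := by
      have := hR1 θ 0
      rw [mul_zero, e, map_add] at this
      linear_combination (norm := module) this
    have h4 : R θ w - w ∈ (contVec π)ᗮ :=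
      sub_mem (radial_orth_map hRr θ (h1 _) hw) hw
    exact sub_eq_zero.1 (inner_self_eq_zero.1 (h4 _ (h3 ▸ sub_mem hu (h1 θ u hu))))
  have h5 : ∀ x y : ℂ, ‖x‖ = ‖y‖ → inner ℝ (π x w) w = inner ℝ (π y w) w := fun x y hxy => by
    by_cases hx : x = 0
    · rw [hx, norm_zero, eq_comm, norm_eq_zero] at hxy
      rw [hx, hxy]
    obtain ⟨θ, hθ⟩ := (Complex.norm_eq_one_iff (y / x)).1
      (by rw [norm_div, ← hxy, div_self (norm_ne_zero_iff.2 hx)])
    rw [← hRr.inner_map θ, hRπ, h2, ex, hθ, div_mul_cancel₀ _ hx]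
  have h6 : ∀ y, y ≠ 0 → inner ℝ (π y u) u = a y := fun y hy => by
    have h7 := hφ (0 + y) 0
    rw [← hπ1, e, map_add, inner_add_left, inner_add_right, inner_add_right,
      hw _ (hπr.map_mem y hu), real_inner_comm u (π y w), hπr.map_mem_orth y hw u hu,
      coeff_eq_zero hπr (orth_line hπr R hRr hRπ hw h2) h5 hy] at h7
    rw [hrad y (0 - (0 + y)) (by simp), ← h7]; ring
  have h8 : Continuous fun y => inner ℝ (π y u) u :=
    (hπr.continuous_of_mem hu).inner continuous_const
  exact h8.continuousAt.congr ((eventually_ne_nhds hx).mono h6)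

end Vale.Agent.P032
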