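import Vale.Agent.P032.Mean

/-! Task A3: continuous vectors and the van der Corput lemma. -/

namespace Vale.Agent.P032

open Filter Topology

variable {H : Type*} [NormedAddCommGroup H] [InnerProductSpace ℝ H]

theorem IsRep.norm_map {G : Type*} [AddCommGroup G] {ρ : G → H →L[ℝ] H} (hρ : IsRep ρ) (x : G)
    (ξ : H) : ‖ρ x ξ‖ = ‖ξ‖ := by
  rw [@norm_eq_sqrt_real_inner _ _ _ (ρ x ξ), hρ.inner_map, ← norm_eq_sqrt_real_inner]

/-- `⟪ρ x ξ, ρ y η⟫ = ⟪ρ (x - y) ξ, η⟫` -/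
theorem IsRep.inner_sub {G : Type*} [AddCommGroup G] {ρ : G → H →L[ℝ] H} (hρ : IsRep ρ)
    (x y : G) (ξ η : H) : inner ℝ (ρ x ξ) (ρ y η) = inner ℝ (ρ (x - y) ξ) η := by
  rw [← hρ.inner_map y (ρ (x - y) ξ) η, ← hρ.add, add_sub_cancel]

theorem IsRep.isClosed_contVec {G : Type*} [AddCommGroup G] [TopologicalSpace G]
    {ρ : G → H →L[ℝ] H} (hρ : IsRep ρ) : IsClosed (contVec ρ : Set H) := by
  refine isClosed_of_closure_subset fun ξ hξ => ?_
  show ContinuousAt (fun x => ρ x ξ) 0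
  rw [Metric.continuousAt_iff']
  intro ε hε
  obtain ⟨η, hη, hd⟩ := Metric.mem_closure_iff.1 hξ (ε / 3) (by linarith)
  have h1 : ContinuousAt (fun x => ρ x η) 0 := hη
  filter_upwards [Metric.continuousAt_iff'.1 h1 (ε / 3) (by linarith)] with x hx
  have h2 : ∀ y, dist (ρ y ξ) (ρ y η) = dist ξ η := fun y => by
    rw [dist_eq_norm, dist_eq_norm, ← map_sub, hρ.norm_map]
  have h3 := dist_triangle4 (ρ x ξ) (ρ x η) (ρ 0 η) (ρ 0 ξ)
  rw [h2, dist_comm (ρ 0 η), h2] at h3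
  linarith

theorem IsRep.continuous_of_mem {G : Type*} [AddCommGroup G] [TopologicalSpace G]
    [IsTopologicalAddGroup G] {ρ : G → H →L[ℝ] H} (hρ : IsRep ρ) {ξ : H} (hξ : ξ ∈ contVec ρ) :
    Continuous (fun x => ρ x ξ) := by
  refine continuous_iff_continuousAt.2 fun a => ?_
  have h1 : ContinuousAt (fun x => ρ x ξ) (a - a) := by rw [sub_self]; exact hξ
  have h2 := (ρ a).continuous.continuousAt.comp
    (ContinuousAt.comp (f := fun x => x - a) h1 (by fun_prop))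
  refine h2.congr (Eventually.of_forall fun x => ?_)
  show ρ a (ρ (x - a) ξ) = _
  rw [← hρ.add, add_sub_cancel]

theorem IsRep.map_mem {G : Type*} [AddCommGroup G] [TopologicalSpace G]
    {ρ : G → H →L[ℝ] H} (hρ : IsRep ρ) (x : G) {ξ : H} (hξ : ξ ∈ contVec ρ) :
    ρ x ξ ∈ contVec ρ := by
  have h1 : ContinuousAt (fun y => ρ x (ρ y ξ)) 0 := (ρ x).continuous.continuousAt.comp hξ
  show ContinuousAt (fun y => ρ y (ρ x ξ)) 0
  simpa only [← hρ.add, add_comm] using h1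

theorem IsRep.map_mem_orth {G : Type*} [AddCommGroup G] [TopologicalSpace G]
    {ρ : G → H →L[ℝ] H} (hρ : IsRep ρ) (x : G) {ξ : H} (hξ : ξ ∈ (contVec ρ)ᗮ) :
    ρ x ξ ∈ (contVec ρ)ᗮ := by
  rw [Submodule.mem_orthogonal] at hξ ⊢
  intro u hu
  have := hξ _ (hρ.map_mem (-x) hu)
  rwa [← hρ.inner_map x, ← hρ.add, add_neg_cancel, hρ.zero] at this

theorem IsRep.decomp [CompleteSpace H] {G : Type*} [AddCommGroup G] [TopologicalSpace G]
    {ρ : G → H →L[ℝ] H} (hρ : IsRep ρ) (v : H) :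
    ∃ u ∈ contVec ρ, ∃ w ∈ (contVec ρ)ᗮ, v = u + w := by
  have : CompleteSpace (contVec ρ) := hρ.isClosed_contVec.completeSpace_coe
  obtain ⟨u, hu, w, hw, e⟩ := (contVec ρ).exists_add_mem_mem_orthogonal v
  exact ⟨u, hu, w, hw, e⟩

/-- weak mean of a bounded vector valued function (Riesz, `InnerProductSpace.toDual`) -/
theorem IsLocMean.exists_vec [CompleteSpace H] {L : (ℝ → ℝ) →ₗ[ℝ] ℝ} (hL : IsLocMean L)
    (u : ℝ → H) {B : ℝ} (hu : ∀ s, ‖u s‖ ≤ B) :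
    ∃ ξ : H, ∀ η, inner ℝ ξ η = L (fun s => inner ℝ (u s) η) := by
  let φ : H →ₗ[ℝ] ℝ :=
    { toFun := fun η => L (fun s => inner ℝ (u s) η)
      map_add' := fun a b => by
        rw [← map_add]
        exact congrArg L (funext fun s => inner_add_right _ _ _)
      map_smul' := fun c a => by
        rw [RingHom.id_apply, ← map_smul]
        exact congrArg L (funext fun s => real_inner_smul_right _ _ _) }
  have hb : ∀ η s, |inner ℝ (u s) η| ≤ B * ‖η‖ := fun η s =>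
    (abs_real_inner_le_norm _ _).trans (mul_le_mul_of_nonneg_right (hu s) (norm_nonneg _))
  refine ⟨(InnerProductSpace.toDual ℝ H).symm (φ.mkContinuous B fun η =>
    hL.abs_le ⟨_, hb η⟩ fun s _ => hb η s), fun η => ?_⟩
  rw [InnerProductSpace.toDual_symm_apply]
  rfl

/-- Degree one: let `ξ` be the weak mean of `s ↦ ρ (-(a + l s)) η`; the shift bound gives
`‖ρ τ ξ - ξ‖ ≤ C |τ / l| ‖η‖`, so `ξ ∈ contVec ρ` and `⟪ξ, ζ⟫ = 0`. -/
theorem vdc_one [CompleteSpace H] {L : (ℝ → ℝ) →ₗ[ℝ] ℝ} (hL : IsLocMean L) {ρ : ℝ → H →L[ℝ] H}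
    (hρ : IsRep ρ) {ζ : H} (hζ : ζ ∈ (contVec ρ)ᗮ) (η : H) (a l : ℝ) (hl : l ≠ 0) :
    L (fun s => inner ℝ (ρ (a + l * s) ζ) η) = 0 := by
  obtain ⟨ξ, hξ⟩ := hL.exists_vec (fun s => ρ (-(a + l * s)) η) fun s => (hρ.norm_map _ _).le
  obtain ⟨C, hC, hs⟩ := hL.shift
  have key : ∀ τ, ‖ρ τ ξ - ξ‖ ≤ C * |τ / l| * ‖η‖ := by
    intro τ
    have h1 : ∀ θ, inner ℝ (ρ τ ξ - ξ) θ ≤ C * |τ / l| * (‖η‖ * ‖θ‖) := by
      intro θ
      have h2 := hs (fun s => inner ℝ (ρ (-(a + l * s)) η) θ) (‖η‖ * ‖θ‖)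
        (fun s => (abs_real_inner_le_norm _ _).trans (by rw [hρ.norm_map])) (-(τ / l))
      have h3 : inner ℝ (ρ τ ξ) θ =
          L fun s => inner ℝ (ρ (-(a + l * (s + -(τ / l)))) η) θ := by
        rw [← hρ.inner_map (-τ), ← hρ.add, neg_add_cancel, hρ.zero, hξ]
        refine congrArg L (funext fun s => ?_)
        rw [hρ.inner_sub]
        congr 3
        field_simp
        ring
      rw [abs_neg, ← h3, ← hξ] at h2
      rw [inner_sub_left]
      exact (le_abs_self _).trans h2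
    have h4 := h1 (ρ τ ξ - ξ)
    rw [real_inner_self_eq_norm_mul_norm, ← mul_assoc] at h4
    rcases (norm_nonneg (ρ τ ξ - ξ)).eq_or_lt with h5 | h5
    · rw [← h5]; positivity
    · exact le_of_mul_le_mul_right h4 h5
  have hc : ξ ∈ contVec ρ := by
    show ContinuousAt (fun x => ρ x ξ) 0
    rw [ContinuousAt, hρ.zero, tendsto_iff_norm_sub_tendsto_zero]
    have h6 : Continuous fun τ : ℝ => C * |τ / l| * ‖η‖ := by fun_prop
    exact squeeze_zero (fun _ => norm_nonneg _) key (by simpa using h6.tendsto 0)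
  rw [← (Submodule.mem_orthogonal _ _).1 hζ ξ hc, hξ]
  refine congrArg L (funext fun s => ?_)
  rw [real_inner_comm, ← hρ.inner_map (-(a + l * s)), ← hρ.add, neg_add_cancel, hρ.zero]

theorem natDegree_taylor_sub (P : Polynomial ℝ) (hP : 1 < P.natDegree) {h k : ℝ} (hk : h ≠ k) :
    0 < (Polynomial.taylor h P - Polynomial.taylor k P).natDegree ∧
      (Polynomial.taylor h P - Polynomial.taylor k P).natDegree < P.natDegree := by
  have h1 : (Polynomial.hasseDeriv (P.natDegree - 1) P).natDegree = 1 := by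
    rw [Polynomial.natDegree_hasseDeriv]; omega
  obtain ⟨a, ha, b, e⟩ := Polynomial.natDegree_eq_one.1 h1
  have h2 : (Polynomial.taylor h P - Polynomial.taylor k P).coeff (P.natDegree - 1) ≠ 0 := by
    rw [Polynomial.coeff_sub, Polynomial.taylor_coeff, Polynomial.taylor_coeff, ← e]
    simpa [sub_eq_zero, ha] using hk
  have h0 : P ≠ 0 := by rintro rfl; simp at hP
  refine ⟨lt_of_lt_of_le (by omega) (Polynomial.le_natDegree_of_ne_zero h2), ?_⟩
  have h3 := Polynomial.degree_sub_lt_left (p := Polynomial.taylor h P) (q := Polynomial.taylor k P)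
    (by simp) (by simpa using h0) (by simp)
  rw [Polynomial.degree_taylor] at h3
  exact Polynomial.natDegree_lt_natDegree (fun e => h2 (by rw [e]; simp)) h3

/-- Induction on the degree (for all `η`).  With `u s = ρ (P s) ζ`, distinct small shifts
`h_1 .. h_N` and `x s = N⁻¹ ∑ u (s + h_j)`: `L ⟪u, η⟫` is within `C max|h| ‖ζ‖ ‖η‖` of `L ⟪x, η⟫`,
`|⟪x, η⟫| ≤ (ε ‖η‖² + ‖x‖² / ε) / 2` and
`L ‖x‖² = N⁻² ∑_{j,k} L ⟪ρ (P (s + h_j) - P (s + h_k)) ζ, ζ⟫ = ‖ζ‖² / N` by induction, since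
`P (X + h_j) - P (X + h_k)` has degree `deg P - 1 ≥ 1` for `j ≠ k`. -/
theorem vdc [CompleteSpace H] {L : (ℝ → ℝ) →ₗ[ℝ] ℝ} (hL : IsLocMean L) {ρ : ℝ → H →L[ℝ] H}
    (hρ : IsRep ρ) {ζ : H} (hζ : ζ ∈ (contVec ρ)ᗮ) (P : Polynomial ℝ) (hP : 0 < P.natDegree)
    (η : H) : L (fun s => inner ℝ (ρ (P.eval s) ζ) η) = 0 := by
  induction' hn : P.natDegree using Nat.strong_induction_on with n ih generalizing P η
  rcases eq_or_lt_of_le (Nat.succ_le_of_lt hP) with h1 | h1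
  · obtain ⟨a, ha, b, e⟩ := Polynomial.natDegree_eq_one.1 h1.symm
    have := vdc_one hL hρ hζ η b a ha
    simpa [← e, add_comm] using this
  obtain ⟨C, hC, hs⟩ := hL.shift
  have hb : ∀ (x : ℝ) (θ : H), |inner ℝ (ρ x ζ) θ| ≤ ‖ζ‖ * ‖θ‖ := fun x θ =>
    (abs_real_inner_le_norm _ _).trans (by rw [hρ.norm_map])
  have orth : ∀ h k : ℝ, h ≠ k →
      L (fun s => inner ℝ (ρ (P.eval (s + h)) ζ) (ρ (P.eval (s + k)) ζ)) = 0 := by
    intro h k hk
    obtain ⟨d1, d2⟩ := natDegree_taylor_sub P h1 hk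
    have := ih _ (hn ▸ d2) _ d1 ζ rfl
    simpa [Polynomial.taylor_eval, hρ.inner_sub] using this
  obtain ⟨A, hA⟩ : ∃ A, A = L (fun s => inner ℝ (ρ (P.eval s) ζ) η) := ⟨_, rfl⟩
  rw [← hA]
  have main : ∀ (m : ℕ) (δ : ℝ), 0 < δ → 2 * m * ((m : ℝ) ^ 2 * |A|) ≤
      m ^ 2 * (‖ζ‖ ^ 2 + ‖η‖ ^ 2) + 2 * m * (m ^ 2 * (C * m ^ 2 * (‖ζ‖ * ‖η‖))) * δ := by
    intro m δ hδ
    obtain ⟨u, hu⟩ : ∃ u : ℕ → ℝ → H, u = fun (j : ℕ) s => ρ (P.eval (s + j * δ)) ζ := ⟨_, rfl⟩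
    obtain ⟨Y, hY⟩ : ∃ Y, Y = ∑ j ∈ Finset.range (m ^ 2), L fun s => inner ℝ (u j s) η := ⟨_, rfl⟩
    have e1 : |Y - (m : ℝ) ^ 2 * A| ≤ m ^ 2 * (C * m ^ 2 * (‖ζ‖ * ‖η‖)) * δ := by
      have e2 : (m : ℝ) ^ 2 * A = ∑ j ∈ Finset.range (m ^ 2), A := by simp
      rw [hY, e2, ← Finset.sum_sub_distrib]
      refine (Finset.abs_sum_le_sum_abs _ _).trans ((Finset.sum_le_card_nsmul _ _
        (C * m ^ 2 * (‖ζ‖ * ‖η‖) * δ) fun j hj => ?_).trans (le_of_eq (by simp; ring)))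
      have e3 := hs (fun s => inner ℝ (ρ (P.eval s) ζ) η) _ (fun s => hb _ η) (j * δ)
      have e4 : (j : ℝ) ≤ m ^ 2 := by exact_mod_cast (Finset.mem_range.1 hj).le
      rw [hu, hA]
      refine e3.trans ?_
      rw [abs_of_nonneg (by positivity)]
      calc C * (j * δ) * (‖ζ‖ * ‖η‖) ≤ C * (m ^ 2 * δ) * (‖ζ‖ * ‖η‖) := by gcongr
        _ = _ := by ring
    have e5 : ∀ t : ℝ, 2 * t * Y ≤ m ^ 2 * ‖ζ‖ ^ 2 + t ^ 2 * ‖η‖ ^ 2 := by
      intro t
      have e6 : 0 ≤ L fun s => ‖∑ j ∈ Finset.range (m ^ 2), u j s - t • η‖ ^ 2 := by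
        refine hL.nonneg _ ⟨(∑ j ∈ Finset.range (m ^ 2), ‖ζ‖ + ‖t • η‖) ^ 2, fun s => ?_⟩
          fun _ _ => by positivity
        rw [abs_of_nonneg (by positivity)]
        refine pow_le_pow_left₀ (norm_nonneg _) ((norm_sub_le _ _).trans (add_le_add_left
          ((norm_sum_le _ _).trans (Finset.sum_le_sum fun j _ => ?_)) _)) 2
        rw [hu, hρ.norm_map]
      have e7 : (fun s => ‖∑ j ∈ Finset.range (m ^ 2), u j s - t • η‖ ^ 2) =
          ∑ j ∈ Finset.range (m ^ 2), ∑ k ∈ Finset.range (m ^ 2),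
            (fun s => inner ℝ (u k s) (u j s)) -
          (2 * t) • ∑ j ∈ Finset.range (m ^ 2), (fun s => inner ℝ (u j s) η) +
            fun _ => t ^ 2 * ‖η‖ ^ 2 := by
        funext s
        rw [norm_sub_sq_real, ← real_inner_self_eq_norm_sq, real_inner_smul_right, norm_smul,
          mul_pow, Real.norm_eq_abs, sq_abs]
        simp only [Pi.add_apply, Pi.sub_apply, Pi.smul_apply, Finset.sum_apply, smul_eq_mul,
          inner_sum, sum_inner, mul_assoc]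
      have e8 : ∀ j ∈ Finset.range (m ^ 2), L (∑ k ∈ Finset.range (m ^ 2),
          fun s => inner ℝ (u k s) (u j s)) = ‖ζ‖ ^ 2 := by
        intro j hj
        rw [map_sum, Finset.sum_eq_single_of_mem j hj fun k _ hk => ?_]
        · rw [← hL.const (‖ζ‖ ^ 2)]
          refine congrArg L (funext fun s => ?_)
          rw [hu, hρ.inner_map, real_inner_self_eq_norm_sq]
        · rw [hu]
          exact orth _ _ fun e => hk (by exact_mod_cast mul_right_cancel₀ hδ.ne' e)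
      rw [e7, map_add, map_sub, map_smul, map_sum, map_sum, Finset.sum_congr rfl e8, hL.const,
        ← hY] at e6
      simp only [Finset.sum_const, Finset.card_range, nsmul_eq_mul, smul_eq_mul] at e6
      push_cast at e6
      linarith
    have e9 : 2 * m * |Y| ≤ m ^ 2 * (‖ζ‖ ^ 2 + ‖η‖ ^ 2) := by
      have f1 := e5 m
      have f2 := e5 (-m)
      rcases abs_choice Y with h | h <;> rw [h] <;> nlinarith
    have e10 : (m : ℝ) ^ 2 * |A| ≤ |Y| + m ^ 2 * (C * m ^ 2 * (‖ζ‖ * ‖η‖)) * δ := by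
      have f1 := abs_sub_abs_le_abs_sub ((m : ℝ) ^ 2 * A) Y
      rw [abs_sub_comm, abs_mul, abs_of_nonneg (by positivity : (0 : ℝ) ≤ m ^ 2)] at f1
      linarith
    have e11 := mul_le_mul_of_nonneg_left e10 (by positivity : (0 : ℝ) ≤ 2 * m)
    linarith
  by_contra h0
  have hA0 : 0 < |A| := abs_pos.2 h0
  obtain ⟨m, hm⟩ := exists_nat_gt ((‖ζ‖ ^ 2 + ‖η‖ ^ 2) / |A|)
  have hm0 : (0 : ℝ) < m := lt_of_le_of_lt (by positivity) hm
  rw [div_lt_iff₀ hA0] at hm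
  have h2 : 2 * m * ((m : ℝ) ^ 2 * |A|) ≤ m ^ 2 * (‖ζ‖ ^ 2 + ‖η‖ ^ 2) := by
    refine le_of_forall_pos_le_add fun ε hε => ?_
    obtain ⟨K, hK⟩ : ∃ K : ℝ, K = 2 * m * (m ^ 2 * (C * m ^ 2 * (‖ζ‖ * ‖η‖))) := ⟨_, rfl⟩
    have hK0 : 0 ≤ K := by rw [hK]; positivity
    have h3 := main m (ε / (K + 1)) (by positivity)
    have h4 : K * (ε / (K + 1)) ≤ ε := by
      rw [mul_div_assoc', div_le_iff₀ (by positivity)]
      nlinarith
    rw [← hK] at h3
    linarith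
  have h5 := mul_lt_mul_of_pos_left hm (by positivity : (0 : ℝ) < m ^ 2)
  have h6 : 0 < (m : ℝ) ^ 2 * (m * |A|) := by positivity
  nlinarith

end Vale.Agent.P032
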