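import Vale.Agent.P032.Rep
import Vale.Agent.P032.GNS

/-! Task A4: the discontinuous part of a radial positive definite function vanishes off `0`.
Throughout `g t = ⟪π √t w, w⟫`, so that `⟪π x w, w⟫ = g (‖x‖ ^ 2)`. -/

namespace Vale.Agent.P032

open Filter Topology

variable {H : Type*} [NormedAddCommGroup H] [InnerProductSpace ℝ H] [CompleteSpace H]

omit [CompleteSpace H] in
private theorem abs_coeff_le {G : Type*} [AddCommGroup G] {ρ : G → H →L[ℝ] H} (hρ : IsRep ρ)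
    (x : G) (ξ η : H) : |inner ℝ (ρ x ξ) η| ≤ ‖ξ‖ * ‖η‖ := by
  rw [← hρ.norm_map x ξ]
  exact abs_real_inner_le_norm _ _

omit [CompleteSpace H] in
private theorem isRep_line {π : ℂ → H →L[ℝ] H} (hπ : IsRep π) :
    IsRep (fun t : ℝ => π (t * Complex.I)) where
  zero ξ := by simpa using hπ.zero ξ
  add x y ξ := by
    rw [← hπ.add]
    push_cast
    rw [add_mul]
  inner_map x ξ η := hπ.inner_map _ ξ η

private theorem norm_eq_sqrt {z : ℂ} {t : ℝ} (h : z.re ^ 2 + z.im ^ 2 = t) :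
    ‖z‖ = ‖((Real.sqrt t : ℝ) : ℂ)‖ := by
  rw [Complex.norm_real, Real.norm_of_nonneg (Real.sqrt_nonneg _), ← h, Complex.norm_eq_sqrt_sq_add_sq]

/-- A3.  Let `ξ` be the weak mean of `t ↦ π √(σ + l t) w` and `F h = ⟪π (h I) w, ξ⟫ =
L (fun t => g (σ + l t + h ^ 2))`.  `F` is continuous at `0` by the shift bound, has zero local
means by `vdc_one`, so `F 0 = 0`. -/
theorem locmean_affine {L : (ℝ → ℝ) →ₗ[ℝ] ℝ} (hL : IsLocMean L) {π : ℂ → H →L[ℝ] H}
    (hπ : IsRep π) {w : H} (hw : w ∈ (contVec (fun t : ℝ => π (t * Complex.I)))ᗮ)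
    (hrad : ∀ x y : ℂ, ‖x‖ = ‖y‖ → inner ℝ (π x w) w = inner ℝ (π y w) w)
    (σ l : ℝ) (hl : l ≠ 0) (h0 : 0 ≤ σ) (h1 : 0 ≤ σ + l) :
    L (fun t => inner ℝ (π (Real.sqrt (σ + l * t) : ℝ) w) w) = 0 := by
  obtain ⟨ξ, hξ⟩ := hL.exists_vec (fun t => π (Real.sqrt (σ + l * t) : ℝ) w) (B := ‖w‖)
    fun s => (hπ.norm_map _ w).le
  set f : ℝ → ℝ := fun t => inner ℝ (π (Real.sqrt (σ + l * t) : ℝ) w) w with hf
  have hfb : ∀ t, |f t| ≤ ‖w‖ * ‖w‖ := fun t => abs_coeff_le hπ _ _ _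
  set F : ℝ → ℝ := fun h => inner ℝ (π (h * Complex.I) w) ξ with hF
  have hFL : ∀ h, F h = L (fun t => f (t + h ^ 2 / l)) := by
    intro h
    rw [hF]
    simp only
    rw [real_inner_comm, hξ]
    refine hL.congr ⟨‖w‖ * ‖π (h * Complex.I) w‖, fun t => abs_coeff_le hπ _ _ _⟩
      ⟨_, fun t => hfb _⟩ fun t ht => ?_
    rw [hπ.inner_sub]
    refine hrad _ _ (norm_eq_sqrt ?_)
    have h2 : 0 ≤ σ + l * t := by nlinarith [ht.1, ht.2]
    simp only [Complex.sub_re, Complex.ofReal_re, Complex.mul_re, Complex.I_re, mul_zero,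
      Complex.ofReal_im, Complex.I_im, mul_one, sub_self, sub_zero, Complex.sub_im, Complex.mul_im,
      add_zero, zero_sub, Real.sq_sqrt h2]
    field_simp
    ring
  have hF0 : F 0 = L f := by
    rw [hFL]
    simp
  obtain ⟨C, hC, hs⟩ := hL.shift
  have hc : ContinuousAt F 0 := by
    rw [ContinuousAt, tendsto_iff_norm_sub_tendsto_zero]
    refine squeeze_zero (g := fun h => C * |h ^ 2 / l| * (‖w‖ * ‖w‖)) (fun _ => norm_nonneg _)
      (fun h => ?_) ?_
    · rw [hF0, hFL]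
      exact hs f _ hfb _
    · have : Continuous fun h : ℝ => C * |h ^ 2 / l| * (‖w‖ * ‖w‖) := by fun_prop
      simpa using this.tendsto 0
  rw [← hF0]
  refine hL.eq_zero (f := F) ⟨‖w‖ * ‖ξ‖, fun h => abs_coeff_le hπ _ _ _⟩ hc ?_
  filter_upwards [self_mem_nhdsWithin] with r hr
  exact vdc_one hL (isRep_line hπ) hw ξ 0 r (ne_of_gt hr)

/-- A4.  Second GNS on `X = Bool × ℝ` with kernel `M (fun x => ⟪Φ p x, Φ q x⟫)`, where
`Φ (true, τ) x = π (√(T - κ fract (x + τ)) I) w`, `Φ (false, τ) x = ψ (x + τ) • π √(κ fract (x + τ)) w`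
(`M` an invariant mean on `ℝ`, `ψ` from `exists_weight`), `ρ τ = U (fun p => (p.1, p.2 + τ))`.
Then `⟪ρ τ ζ, η⟫ = g (T - κ τ)` for `|τ| < 1/3`; the `contVec` part of `ζ` contributes a continuous
function with zero local means (`locmean_affine`, `vdc_one`), hence nothing. -/
theorem exists_rep_coeff {π : ℂ → H →L[ℝ] H}
    (hπ : IsRep π) {w : H} (hw : w ∈ (contVec (fun t : ℝ => π (t * Complex.I)))ᗮ)
    (hrad : ∀ x y : ℂ, ‖x‖ = ‖y‖ → inner ℝ (π x w) w = inner ℝ (π y w) w)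
    (T κ : ℝ) (hκ : 0 < κ) (hT : κ ≤ T) :
    ∃ (K : Type) (_ : NormedAddCommGroup K) (_ : InnerProductSpace ℝ K) (_ : CompleteSpace K)
      (ρ : ℝ → K →L[ℝ] K) (ζ η : K), IsRep ρ ∧ ζ ∈ (contVec ρ)ᗮ ∧
      ∀ τ : ℝ, |τ| < 1 / 3 →
        inner ℝ (π (Real.sqrt (T - κ * τ) : ℝ) w) w = inner ℝ (ρ τ ζ) η := by
  obtain ⟨M, hM⟩ := exists_invMean ℝ
  obtain ⟨L, hL⟩ := exists_locMean
  obtain ⟨ψ, ⟨B, hB⟩, hψ0, hψ1, hψs, -⟩ := exists_weight hM
  set Ψ : Bool → ℝ → H := fun b x =>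
    if b then π ((Real.sqrt (T - κ * Int.fract x) : ℝ) * Complex.I) w
    else ψ x • π (Real.sqrt (κ * Int.fract x) : ℝ) w with hΨ
  have hΨb : ∀ b x, ‖Ψ b x‖ ≤ (|B| + 1) * ‖w‖ := by
    intro b x
    have := norm_nonneg w
    have := abs_nonneg B
    cases b
    · simp only [hΨ, Bool.false_eq_true, if_false, norm_smul, hπ.norm_map, Real.norm_eq_abs]
      exact mul_le_mul_of_nonneg_right (by linarith [hB x, le_abs_self B]) (norm_nonneg _)
    · simp only [hΨ, if_true, hπ.norm_map]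
      nlinarith
  set k : Bool × ℝ → Bool × ℝ → ℝ :=
    fun p q => M fun x => inner ℝ (Ψ p.1 (x + p.2)) (Ψ q.1 (x + q.2)) with hk
  have hkb : ∀ p q : Bool × ℝ, Bdd fun x => inner ℝ (Ψ p.1 (x + p.2)) (Ψ q.1 (x + q.2)) :=
    fun p q => ⟨_, fun x => (abs_real_inner_le_norm _ _).trans
      (mul_le_mul (hΨb _ _) (hΨb _ _) (norm_nonneg _) (by positivity))⟩
  have hpsd : PSD k := by
    intro s c
    have e : (∑ p ∈ s, ∑ q ∈ s, c p * c q * k p q) =
        M fun x => ‖∑ p ∈ s, c p • Ψ p.1 (x + p.2)‖ ^ 2 := by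
      have : (fun x => ‖∑ p ∈ s, c p • Ψ p.1 (x + p.2)‖ ^ 2) = ∑ p ∈ s, ∑ q ∈ s,
          (c p * c q) • fun x => inner ℝ (Ψ p.1 (x + p.2)) (Ψ q.1 (x + q.2)) := by
        funext x
        rw [← real_inner_self_eq_norm_sq]
        simp only [sum_inner, inner_sum, real_inner_smul_left, real_inner_smul_right,
          Finset.sum_apply, Pi.smul_apply, smul_eq_mul, mul_assoc]
        rw [Finset.sum_comm]
        refine Finset.sum_congr rfl fun p _ => Finset.sum_congr rfl fun q _ => ?_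
        ring
      rw [this]
      simp only [map_sum, map_smul, smul_eq_mul, hk]
    rw [e]
    refine hM.nonneg _ ⟨(∑ p ∈ s, |c p| * ((|B| + 1) * ‖w‖)) ^ 2, fun x => ?_⟩
      fun x => sq_nonneg _
    rw [abs_of_nonneg (sq_nonneg _)]
    refine pow_le_pow_left₀ (norm_nonneg _) ((norm_sum_le _ _).trans
      (Finset.sum_le_sum fun p _ => ?_)) 2
    rw [norm_smul, Real.norm_eq_abs]
    exact mul_le_mul_of_nonneg_left (hΨb _ _) (abs_nonneg _)
  obtain ⟨K, i1, i2, i3, φ, U, h1, h2, h3⟩ := gns k (fun p q => by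
    simp only [hk]
    congr 1
    funext x
    exact real_inner_comm _ _) hpsd
  have hinv : ∀ τ : ℝ, ∀ p q : Bool × ℝ, k (p.1, p.2 + τ) (q.1, q.2 + τ) = k p q := by
    intro τ p q
    simp only [hk]
    rw [← hM.inv _ (hkb p q) τ]
    congr 1
    funext x
    rw [add_assoc, add_assoc, add_comm τ, add_comm τ]
  set ρ : ℝ → K →L[ℝ] K := fun τ => U fun p => (p.1, p.2 + τ) with hρd
  have hρφ : ∀ τ p, ρ τ (φ p) = φ (p.1, p.2 + τ) := fun τ p => (h3 _ (hinv τ)).1 p
  have hρ : IsRep ρ := by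
    refine ⟨fun ξ => ?_, fun x y ξ => ?_, fun x ξ η => (h3 _ (hinv x)).2 ξ η⟩
    · rw [h2 (ρ 0) (ContinuousLinearMap.id ℝ K) fun p => by simp [hρφ]]
      rfl
    · rw [h2 (ρ (x + y)) ((ρ x).comp (ρ y)) fun p => by
        simp only [ContinuousLinearMap.comp_apply, hρφ]
        rw [add_assoc, add_comm y]]
      rfl
  have hval : ∀ τ : ℝ, |τ| < 1 / 3 → inner ℝ (π (Real.sqrt (T - κ * τ) : ℝ) w) w =
      inner ℝ (ρ τ (φ (true, 0))) (φ (false, 0)) := by
    intro τ hτ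
    rw [hρφ, h1]
    simp only [hk, hΨ, if_true, Bool.false_eq_true, if_false, zero_add, add_zero]
    have : (fun x => inner ℝ (π ((Real.sqrt (T - κ * Int.fract (x + τ)) : ℝ) * Complex.I) w)
        (ψ x • π (Real.sqrt (κ * Int.fract x) : ℝ) w)) =
        inner ℝ (π (Real.sqrt (T - κ * τ) : ℝ) w) w • ψ := by
      funext x
      rw [real_inner_smul_right, Pi.smul_apply, smul_eq_mul, mul_comm]
      by_cases hx : ψ x = 0
      · simp [hx]
      congr 1
      obtain ⟨k1, k2⟩ := hψs x hx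
      rw [abs_lt] at hτ
      have e : Int.fract (x + τ) = Int.fract x + τ := by
        rw [Int.fract_eq_iff]
        refine ⟨by linarith, by linarith, ⌊x⌋, ?_⟩
        rw [Int.fract]
        ring
      rw [hπ.inner_sub, e]
      refine hrad _ _ (norm_eq_sqrt ?_)
      have h4 : 0 ≤ T - κ * (Int.fract x + τ) := by nlinarith
      have h5 : 0 ≤ κ * Int.fract x := by positivity
      simp only [Complex.sub_re, Complex.ofReal_re, Complex.mul_re, Complex.I_re, mul_zero,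
        Complex.ofReal_im, Complex.I_im, mul_one, sub_self, sub_zero, Complex.sub_im,
        Complex.mul_im, add_zero, zero_sub, Real.sq_sqrt h4, Real.sq_sqrt h5, neg_sq]
      ring
    rw [this, map_smul, hψ1, smul_eq_mul, mul_one]
  obtain ⟨u, hu, ζ, hζ, e⟩ := hρ.decomp (φ (true, 0))
  refine ⟨K, i1, i2, i3, ρ, ζ, φ (false, 0), hρ, hζ, fun τ hτ => ?_⟩
  have hz : inner ℝ (ρ τ u) (φ (false, 0)) = 0 := by
    refine hL.eq_zero (f := fun τ => inner ℝ (ρ τ u) (φ (false, 0)))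
      ⟨_, fun τ => abs_coeff_le hρ _ _ _⟩
      ((hρ.continuous_of_mem hu).inner continuous_const).continuousAt ?_
    have hτ' := abs_lt.1 hτ
    filter_upwards [Ioo_mem_nhdsGT (show (0 : ℝ) < 1 / 3 - τ by linarith)] with l hl
    have a1 := locmean_affine hL hπ hw hrad (T - κ * τ) (-(κ * l))
      (neg_ne_zero.2 (mul_pos hκ hl.1).ne') (by nlinarith) (by nlinarith [hl.2])
    have a2 := vdc_one hL hρ hζ (φ (false, 0)) τ l hl.1.ne'
    have a4 := sub_eq_zero.2 (a1.trans a2.symm)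
    rw [← map_sub] at a4
    refine Eq.trans ?_ a4
    refine hL.congr ⟨_, fun s => abs_coeff_le hρ _ _ _⟩
      ⟨_, fun s => (abs_sub _ _).trans
        (add_le_add (abs_coeff_le hπ _ _ _) (abs_coeff_le hρ _ _ _))⟩ fun s hs => ?_
    have a3 := hval (τ + l * s) (abs_lt.2 ⟨by nlinarith [hs.1, hl.1], by nlinarith [hs.2, hl.1, hl.2]⟩)
    rw [e, map_add, inner_add_left] at a3
    rw [Pi.sub_apply, show T - κ * τ + -(κ * l) * s = T - κ * (τ + l * s) by ring, a3]
    ring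
  rw [hval τ hτ, e, map_add, inner_add_left, hz, zero_add]

/-- A5: `exists_rep_coeff` with `κ = T` and `vdc` for the polynomial `(T - P) / T` -/
theorem locmean_poly {L : (ℝ → ℝ) →ₗ[ℝ] ℝ} (hL : IsLocMean L) {π : ℂ → H →L[ℝ] H}
    (hπ : IsRep π) {w : H} (hw : w ∈ (contVec (fun t : ℝ => π (t * Complex.I)))ᗮ)
    (hrad : ∀ x y : ℂ, ‖x‖ = ‖y‖ → inner ℝ (π x w) w = inner ℝ (π y w) w)
    (P : Polynomial ℝ) (hP : 0 < P.natDegree) (T : ℝ) (hT : 0 < T)
    (hPT : ∀ s ∈ Set.Icc (0 : ℝ) 1, |P.eval s - T| < T / 3) :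
    L (fun s => inner ℝ (π (Real.sqrt (P.eval s) : ℝ) w) w) = 0 := by
  obtain ⟨K, i1, i2, i3, ρ, ζ, η, hρ, hζ, h⟩ := exists_rep_coeff hπ hw hrad T T hT le_rfl
  have hQ : 0 < (Polynomial.C T⁻¹ * (Polynomial.C T - P)).natDegree := by
    rw [Polynomial.natDegree_C_mul (inv_ne_zero hT.ne'),
      Polynomial.natDegree_sub_eq_right_of_natDegree_lt (by simpa using hP)]
    exact hP
  rw [← vdc hL hρ hζ _ hQ η]
  refine hL.congr ⟨_, fun s => abs_coeff_le hπ _ _ _⟩ ⟨_, fun s => abs_coeff_le hρ _ _ _⟩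
    fun s hs => ?_
  simp only [Polynomial.eval_mul, Polynomial.eval_C, Polynomial.eval_sub]
  rw [← h]
  · congr 4
    field_simp
    ring
  · rw [abs_mul, abs_of_pos (inv_pos.2 hT), abs_sub_comm, inv_mul_lt_iff₀ hT]
    linarith [hPT s hs]

/-- A6.  Fix `N`, `β₀ = π / (2 N)`, `s₀ = cos β₀`, small `l > 0`, `β s = arccos (s₀ + l s)`,
`z j s = r * ex (j * β s)` for `j < N`.  Then `‖z j - z k‖ ^ 2 = r ^ 2 (2 - 2 T_{j-k} (s₀ + l s))`
(`Polynomial.Chebyshev.T_real_cos`, `natDegree_T`), `N b(r) = ⟪∑ π (z j) w, w⟫`, hence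
`N² b(r)² ≤ ‖w‖² ∑_{j,k} g (‖z j - z k‖²)`; apply `L` and `locmean_poly`: `b(r)² ≤ ‖w‖⁴ / N`. -/
theorem coeff_eq_zero {π : ℂ → H →L[ℝ] H}
    (hπ : IsRep π) {w : H} (hw : w ∈ (contVec (fun t : ℝ => π (t * Complex.I)))ᗮ)
    (hrad : ∀ x y : ℂ, ‖x‖ = ‖y‖ → inner ℝ (π x w) w = inner ℝ (π y w) w)
    {x : ℂ} (hx : x ≠ 0) : inner ℝ (π x w) w = 0 := by
  obtain ⟨L, hL⟩ := exists_locMean
  have hr : 0 < ‖x‖ := norm_pos_iff.2 hx
  set r := ‖x‖ with hrd
  set b := inner ℝ (π x w) w with hb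
  have key : ∀ N : ℕ, 0 < N → N * b ^ 2 ≤ ‖w‖ ^ 4 := by
    intro N hN
    have hN' : (1 : ℝ) ≤ N := by exact_mod_cast hN
    set s0 := Real.cos (1 / N) with hs0
    set p : ℤ → Polynomial ℝ := fun d =>
      Polynomial.C (r ^ 2) * (Polynomial.C 2 - Polynomial.C 2 * Polynomial.Chebyshev.T ℝ d) with hp
    have hpc : ∀ d β, (p d).eval (Real.cos β) = r ^ 2 * (2 - 2 * Real.cos (d * β)) := by
      intro d β
      simp [hp]
    have hcos : ∀ y : ℝ, y ≠ 0 → |y| ≤ 1 → Real.cos y < 1 := by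
      intro y hy hy1
      rw [abs_le] at hy1
      refine lt_of_le_of_ne (Real.cos_le_one y) fun h => hy ?_
      exact (Real.cos_eq_one_iff_of_lt_of_lt (by linarith [Real.pi_gt_three])
        (by linarith [Real.pi_gt_three])).1 h
    have hN1 : |(1 : ℝ) / N| ≤ 1 := by
      rw [abs_of_pos (by positivity), div_le_one (by positivity)]
      exact hN'
    have hp0 : ∀ j k : Fin N, j ≠ k → 0 < (p ((j : ℤ) - k)).eval s0 := by
      intro j k hjk
      rw [hs0, hpc]
      have h1 : ((((j : ℕ) : ℤ) - (k : ℕ) : ℤ) : ℝ) ≠ 0 := by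
        rw [Int.cast_ne_zero, sub_ne_zero]
        exact fun h => hjk (Fin.ext (by exact_mod_cast h))
      have h2 : |((((j : ℕ) : ℤ) - (k : ℕ) : ℤ) : ℝ)| ≤ N := by
        have a1 : ((j : ℕ) : ℝ) ≤ N := by exact_mod_cast j.2.le
        have a2 : ((k : ℕ) : ℝ) ≤ N := by exact_mod_cast k.2.le
        have a3 : (0 : ℝ) ≤ (j : ℕ) := Nat.cast_nonneg _
        have a4 : (0 : ℝ) ≤ (k : ℕ) := Nat.cast_nonneg _
        push_cast
        rw [abs_le]
        constructor <;> linarith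
      have := hcos (((((j : ℕ) : ℤ) - (k : ℕ) : ℤ) : ℝ) * (1 / N))
        (mul_ne_zero h1 (by positivity)) (by
          rw [abs_mul, abs_of_pos (show (0 : ℝ) < 1 / N by positivity), mul_one_div,
            div_le_one (by positivity)]
          exact h2)
      have h3 : 0 < 2 - 2 * Real.cos (((((j : ℕ) : ℤ) - (k : ℕ) : ℤ) : ℝ) * (1 / N)) := by linarith
      positivity
    have hev : ∀ᶠ y in 𝓝 s0, y ∈ Set.Ioo (-1 : ℝ) 1 ∧ ∀ j k : Fin N, j ≠ k →
        |(p ((j : ℤ) - k)).eval y - (p ((j : ℤ) - k)).eval s0| < (p ((j : ℤ) - k)).eval s0 / 3 := by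
      refine Eventually.and (Ioo_mem_nhds ?_ (hcos _ (by positivity) hN1)) ?_
      · linarith [Real.cos_pos_of_le_one hN1]
      · simp only [eventually_all]
        intro j k hjk
        have := (p ((j : ℤ) - k)).continuous.continuousAt (x := s0)
        exact Metric.tendsto_nhds.1 this _ (by linarith [hp0 j k hjk])
    obtain ⟨δ, hδ, hδ'⟩ := Metric.eventually_nhds_iff.1 hev
    have hnear : ∀ s ∈ Set.Icc (0 : ℝ) 1, dist (s0 + δ / 2 * s) s0 < δ := by
      intro s hs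
      rw [Real.dist_eq, add_sub_cancel_left, abs_of_nonneg (by nlinarith [hs.1])]
      nlinarith [hs.2]
    set z : Fin N → ℝ → ℂ := fun j s => r * ex ((j : ℕ) * Real.arccos (s0 + δ / 2 * s)) with hz
    have hzn : ∀ j s, ‖z j s‖ = ‖x‖ := by
      intro j s
      simp only [hz, ex, norm_mul, Complex.norm_exp_ofReal_mul_I, Complex.norm_real, mul_one]
      exact Real.norm_of_nonneg hr.le
    set G : Fin N → Fin N → ℝ → ℝ := fun j k s => inner ℝ (π (z j s - z k s) w) w with hG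
    have hGb : ∀ j k s, |G j k s| ≤ ‖w‖ * ‖w‖ := fun j k s => abs_coeff_le hπ _ _ _
    have hLG : ∀ j k, L (G j k) = if j = k then ‖w‖ ^ 2 else 0 := by
      intro j k
      split_ifs with hjk
      · subst hjk
        have : G j j = fun _ => ‖w‖ ^ 2 := by
          funext s
          simp only [hG, sub_self, hπ.zero, real_inner_self_eq_norm_sq]
        rw [this, hL.const]
      · have hd : ((j : ℕ) : ℤ) - (k : ℕ) ≠ 0 := by
          rw [sub_ne_zero]
          exact fun h => hjk (Fin.ext (by exact_mod_cast h))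
        have hdeg : 0 < ((p ((j : ℤ) - k)).comp
            (Polynomial.C (δ / 2) * Polynomial.X + Polynomial.C s0)).natDegree := by
          have a1 : (Polynomial.C (2 : ℝ) * Polynomial.Chebyshev.T ℝ ((j : ℤ) - k)).natDegree =
              ((j : ℤ) - k).natAbs := by
            rw [Polynomial.natDegree_C_mul two_ne_zero, Polynomial.Chebyshev.natDegree_T]
          have a2 := Int.natAbs_pos.2 hd
          rw [Polynomial.natDegree_comp, Polynomial.natDegree_linear (by positivity), mul_one, hp]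
          simp only
          rw [Polynomial.natDegree_C_mul (by positivity),
            Polynomial.natDegree_sub_eq_right_of_natDegree_lt
              (by rw [a1, Polynomial.natDegree_C]; exact a2), a1]
          exact a2
        have hev2 : ∀ s, ((p ((j : ℤ) - k)).comp
            (Polynomial.C (δ / 2) * Polynomial.X + Polynomial.C s0)).eval s =
            (p ((j : ℤ) - k)).eval (s0 + δ / 2 * s) := by
          intro s
          rw [Polynomial.eval_comp]
          simp [add_comm]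
        rw [← locmean_poly hL hπ hw hrad _ hdeg _ (hp0 j k hjk) fun s hs => by
          rw [hev2]
          exact (hδ' (hnear s hs)).2 j k hjk]
        refine hL.congr ⟨_, hGb j k⟩ ⟨_, fun s => abs_coeff_le hπ _ _ _⟩ fun s hs => ?_
        refine hrad _ _ (norm_eq_sqrt ?_)
        have hm := (hδ' (hnear s hs)).1
        rw [hev2, ← Real.cos_arccos hm.1.le hm.2.le, hpc]
        simp only [hz, ex]
        generalize Real.arccos (s0 + δ / 2 * s) = β
        simp only [Complex.sub_re, Complex.sub_im, Complex.re_ofReal_mul, Complex.im_ofReal_mul,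
          Complex.exp_ofReal_mul_I_re, Complex.exp_ofReal_mul_I_im]
        push_cast
        rw [sub_mul, Real.cos_sub]
        linear_combination r ^ 2 * Real.sin_sq_add_cos_sq (((j : ℕ) : ℝ) * β) +
          r ^ 2 * Real.sin_sq_add_cos_sq (((k : ℕ) : ℝ) * β)
    have hpt : ∀ s, (N * b) ^ 2 ≤ (‖w‖ ^ 2 • ∑ j, ∑ k, G j k) s := by
      intro s
      have a1 : inner ℝ (∑ j, π (z j s) w) w = N * b := by
        rw [sum_inner, Finset.sum_congr rfl fun j _ => hrad _ _ (hzn j s)]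
        simp [hb]
      have a2 : ‖∑ j, π (z j s) w‖ ^ 2 = (∑ j, ∑ k, G j k) s := by
        rw [← real_inner_self_eq_norm_sq]
        simp only [sum_inner, inner_sum, hπ.inner_sub, Finset.sum_apply, hG]
        rw [Finset.sum_comm]
      rw [Pi.smul_apply, smul_eq_mul, ← a1, ← a2, ← mul_pow, mul_comm, ← sq_abs]
      exact pow_le_pow_left₀ (abs_nonneg _) (abs_real_inner_le_norm _ _) 2
    have hbd : Bdd (‖w‖ ^ 2 • ∑ j, ∑ k, G j k) := by
      refine ⟨‖w‖ ^ 2 * ∑ _j : Fin N, ∑ _k : Fin N, ‖w‖ * ‖w‖, fun s => ?_⟩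
      rw [Pi.smul_apply, smul_eq_mul, abs_mul, abs_of_nonneg (sq_nonneg _)]
      refine mul_le_mul_of_nonneg_left ?_ (sq_nonneg _)
      simp only [Finset.sum_apply]
      exact (Finset.abs_sum_le_sum_abs _ _).trans (Finset.sum_le_sum fun j _ =>
        (Finset.abs_sum_le_sum_abs _ _).trans (Finset.sum_le_sum fun k _ => hGb j k s))
    have hm := hL.mono (f := fun _ => (N * b) ^ 2) ⟨_, fun _ => le_rfl⟩ hbd fun s _ => hpt s
    rw [hL.const, map_smul] at hm
    simp only [map_sum, hLG, Finset.sum_ite_eq, Finset.mem_univ, if_true, Finset.sum_const,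
      Finset.card_univ, Fintype.card_fin, nsmul_eq_mul, smul_eq_mul] at hm
    have : N * (N * b ^ 2) ≤ N * ‖w‖ ^ 4 := by nlinarith
    exact le_of_mul_le_mul_left this (by positivity)
  by_contra hb0
  have hb2 : 0 < b ^ 2 := by positivity
  obtain ⟨N, hN⟩ := exists_nat_gt (‖w‖ ^ 4 / b ^ 2)
  have h1 := key (N + 1) (Nat.succ_pos N)
  rw [div_lt_iff₀ hb2] at hN
  push_cast at h1
  nlinarith

end Vale.Agent.P032
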